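import Mathlib

/-! The `ℓ²` spectral gap inequality for free actions of the free group of rank two. -/

set_option autoImplicit false

namespace Crest.Agent.Cost

open FreeGroup

theorem l2gap {ι : Type} (c : ι → ℝ) (hc : Summable fun i => c i ^ 2) (e : Bool → ι ≃ ι)
    (κ : ι → FreeGroup Bool) (hκ : ∀ l i, c i ≠ 0 → κ (e l i) = mk [(l, true)] * κ i)
    (hd : ∀ l, Summable fun i => (c i - c (e l i)) ^ 2) :
    ∑' i, c i ^ 2 ≤ 6 * ((∑' i, (c i - c (e false i)) ^ 2) + ∑' i, (c i - c (e true i)) ^ 2) := by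
  classical
  let u : Bool × Bool → ι → ℝ := fun w i => if κ i ∈ startsWith w then c i ^ 2 else 0
  have hu0 : ∀ w i, 0 ≤ u w i := fun w i => by
    simp only [u]; split_ifs <;> positivity
  have hu : ∀ w, Summable (u w) := fun w =>
    hc.of_nonneg_of_le (hu0 w) fun i => by simp only [u]; split_ifs <;> [rfl; positivity]
  have h1 : ∀ l, ∑' i, c i ^ 2 ≤ (∑' i, u (l, false) i) + (3 / 2 * ∑' i, u (l, true) i) +
      3 * ∑' i, (c i - c (e l i)) ^ 2 := fun l => by
    have hs : Summable fun i => u (l, true) (e l i) := (e l).summable_iff.2 (hu _)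
    rw [← (e l).tsum_eq (u (l, true)), ← tsum_mul_left, ← tsum_mul_left,
      ← (hu _).tsum_add (hs.mul_left _), ← ((hu _).add (hs.mul_left _)).tsum_add ((hd l).mul_left _)]
    refine hc.tsum_le_tsum (fun i => ?_) (((hu _).add (hs.mul_left _)).add ((hd l).mul_left _))
    have := hu0 (l, true) (e l i)
    have := hu0 (l, false) i
    by_cases h0 : c i = 0
    · rw [h0]; nlinarith [sq_nonneg (0 - c (e l i))]
    by_cases h : κ i ∈ startsWith (l, false)
    · have : u (l, false) i = c i ^ 2 := if_pos h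
      nlinarith [sq_nonneg (c i - c (e l i))]
    · have : u (l, true) (e l i) = c (e l i) ^ 2 :=
        if_pos (by rw [hκ l i h0]; exact startsWith_mk_mul (w := (l, true)) _ h)
      nlinarith [sq_nonneg (c (e l i) - 2 * (c i - c (e l i)))]
  have h2 : (∑' i, u (false, true) i) + (∑' i, u (false, false) i) + (∑' i, u (true, true) i) +
      (∑' i, u (true, false) i) ≤ ∑' i, c i ^ 2 := by
    rw [← (hu _).tsum_add (hu _), ← ((hu _).add (hu _)).tsum_add (hu _),
      ← (((hu _).add (hu _)).add (hu _)).tsum_add (hu _)]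
    refine ((((hu _).add (hu _)).add (hu _)).add (hu _)).tsum_le_tsum (fun i => ?_) hc
    have := sq_nonneg (c i)
    rcases h : (κ i).toWord[0]? with _ | ⟨_ | _, _ | _⟩ <;> simp [this, u, startsWith, h]
  have h3 : 0 ≤ ∑' i, u (false, false) i := tsum_nonneg (hu0 _)
  have h4 : 0 ≤ ∑' i, u (true, false) i := tsum_nonneg (hu0 _)
  linarith [h1 false, h1 true]

theorem exists_center {G ι : Type} [Group G] [MulAction G ι] :
    ∃ κ : ι → G, ∀ i, (∀ g : G, g • i = i → g = 1) → ∀ g : G, κ (g • i) = g * κ i := by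
  have h : ∀ i : ι, ∃ g : G, g • (Quotient.mk (MulAction.orbitRel G ι) i).out = i := fun i =>
    (MulAction.orbitRel G ι).symm (Quotient.exact (Quotient.out_eq _))
  choose κ hκ using h
  refine ⟨κ, fun i hi g => ?_⟩
  have h1 := hκ (g • i)
  rw [Quotient.sound (s := MulAction.orbitRel G ι) (a := g • i) (b := i)
    (MulAction.mem_orbit i g)] at h1
  have h2 : (g⁻¹ * κ (g • i) * (κ i)⁻¹) • i = i := by
    nth_rw 3 [← hκ i]
    rw [mul_smul, inv_smul_smul, mul_smul, h1, inv_smul_smul]
  have := hi _ h2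
  rw [mul_inv_eq_one, inv_mul_eq_iff_eq_mul] at this
  exact this

end Crest.Agent.Cost
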