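import Crest.Agent.Cost.Walsh
import Crest.Agent.Cost.Gap

/-! The Bernoulli shift: invariance, essential freeness and the spectral gap. -/

set_option autoImplicit false

open MeasureTheory Set
open scoped ENNReal

namespace Crest.Agent.Cost

variable {Γ : Type} [Group Γ]

/-- The shift. -/
def sh (g : Γ) : (Γ → ZMod 2) →+ (Γ → ZMod 2) where
  toFun x h := x (g⁻¹ * h)
  map_zero' := rfl
  map_add' _ _ := rfl

theorem sh_apply (g : Γ) (x : Γ → ZMod 2) (h : Γ) : sh g x h = x (g⁻¹ * h) := rfl

theorem sh_mul (g g' : Γ) (x : Γ → ZMod 2) : sh (g * g') x = sh g (sh g' x) := by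
  ext h; simp [sh_apply, mul_assoc]

theorem sh_one (x : Γ → ZMod 2) : sh 1 x = x := by ext h; simp [sh_apply]

theorem sh_cont (g : Γ) : Continuous (sh g) := continuous_pi fun _ => continuous_apply _

theorem chi_sh (g : Γ) (s : Γ →₀ ZMod 2) (x : Γ → ZMod 2) :
    chi s x = chi (s.mapDomain (g * ·)) (sh g x) := by
  rw [chi_apply, chi_apply, Finsupp.linearCombination_mapDomain]
  congr 3
  ext h; simp [sh_apply]

variable [Countable Γ]

theorem sh_mp (g : Γ) : MeasurePreserving (sh g) (coin Γ) (coin Γ) :=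
  (sh g).measurePreserving (sh_cont g) (fun x => ⟨sh g⁻¹ x, by rw [← sh_mul]; simp [sh_one]⟩) rfl

theorem co_sh (g : Γ) {D : Set (Γ → ZMod 2)} (hD : MeasurableSet D) (s : Γ →₀ ZMod 2) :
    co (sh g ⁻¹' D) s = co D (s.mapDomain (g * ·)) := by
  rw [co, co, ← (sh_mp g).map_eq, setIntegral_map hD (chi _).continuous.aestronglyMeasurable
    (sh_mp g).aemeasurable, (sh_mp g).map_eq]
  simp only [← chi_sh]

theorem fix_null [Infinite Γ] {g : Γ} (hg : g ≠ 1) : coin Γ {x | sh g x = x} = 0 := by
  have hm : MeasurableSet {x | sh g x = x} :=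
    (isClosed_eq (sh_cont g) continuous_id).measurableSet
  let f : Γ → (Γ →₀ ZMod 2) := fun h => Finsupp.single h 1 + Finsupp.single (g⁻¹ * h) 1
  have hinf : (range f).Infinite := fun hfin => by
    refine Set.infinite_univ ((hfin.biUnion fun s _ => s.support.finite_toSet).subset fun h _ => ?_)
    refine mem_biUnion (mem_range_self h) ?_
    have : g⁻¹ * h ≠ h := by simpa using hg
    simp [f, this]
  have key : ∀ n : ℕ, n * (coin Γ).real {x | sh g x = x} ≤ 1 := fun n => by
    obtain ⟨T, hT, rfl⟩ := hinf.exists_subset_card_eq n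
    refine card_mul_le hm T fun s hs => ⟨0, fun x hx => ?_⟩
    obtain ⟨h, rfl⟩ := hT hs
    have := congrFun hx h
    rw [sh_apply] at this
    simp [f, chi_add, chi_single, this, ← sq, sg_sq]
  rw [← measureReal_eq_zero_iff]
  by_contra h
  have h := (measureReal_nonneg (μ := coin Γ)).lt_of_ne' h
  obtain ⟨n, hn⟩ := exists_nat_gt (1 / (coin Γ).real {x | sh g x = x})
  rw [div_lt_iff₀ h] at hn
  linarith [key n]

omit [Group Γ] in
theorem fiber_le {n : ℕ} {i : Fin n → Γ} (hi : Function.Injective i) (k : Fin n → ZMod 2) :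
    n * (coin Γ).real {x | (fun j => x (i j)) = k} ≤ 1 := by
  classical
  have hm : MeasurableSet {x : Γ → ZMod 2 | (fun j => x (i j)) = k} :=
    (isClosed_eq (by fun_prop) continuous_const).measurableSet
  have := card_mul_le hm (Finset.univ.image fun j => Finsupp.single (i j) 1) fun s hs => by
    obtain ⟨j, -, rfl⟩ := Finset.mem_image.1 hs
    exact ⟨k j, fun x hx => by rw [chi_single, ← congrFun hx j]⟩
  rwa [Finset.card_image_of_injective _ fun _ _ h =>
    hi (Finsupp.single_left_injective one_ne_zero h),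
    Finset.card_univ, Fintype.card_fin] at this

theorem bern_gap (φ : FreeGroup Bool →* Γ) (hφ : Function.Injective φ) {D : Set (Γ → ZMod 2)}
    (hD : MeasurableSet D) : (coin Γ).real D - (coin Γ).real D ^ 2 ≤ 24 * ((coin Γ).real D -
      (coin Γ).real (D ∩ sh (φ (.of false)) ⁻¹' D ∩ sh (φ (.of true)) ⁻¹' D)) := by
  classical
  letI : MulAction (FreeGroup Bool) (Γ →₀ ZMod 2) :=
    { smul w s := s.mapDomain (φ w * ·)
      one_smul s := by change s.mapDomain _ = s; simp only [map_one, one_mul]; exact Finsupp.mapDomain_id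
      mul_smul w w' s := by
        change s.mapDomain _ = (s.mapDomain _).mapDomain _
        rw [← Finsupp.mapDomain_comp]; congr 1; ext h; simp [mul_assoc] }
  have hs : ∀ (w : FreeGroup Bool) (s : Γ →₀ ZMod 2), w • s = s.mapDomain (φ w * ·) :=
    fun _ _ => rfl
  obtain ⟨κ, hκ⟩ := exists_center (G := FreeGroup Bool) (ι := Γ →₀ ZMod 2)
  have hfree : ∀ s : Γ →₀ ZMod 2, s ≠ 0 → ∀ w : FreeGroup Bool, w • s = s → w = 1 := by
    intro s hs0 w hw
    obtain ⟨h, hh⟩ := Finsupp.support_nonempty_iff.2 hs0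
    by_contra hw1
    have h1 : ∀ n : ℕ, φ w ^ n * h ∈ s.support := fun n => by
      induction n with
      | zero => simpa using hh
      | succ n ih =>
        rw [← hw, hs, Finsupp.mem_support_iff, pow_succ', mul_assoc,
          Finsupp.mapDomain_apply (mul_right_injective _)]
        simpa using ih
    refine Set.infinite_of_injective_forall_mem (f := fun n : ℕ => φ w ^ n * h) (fun n m h => ?_) h1
      s.support.finite_toSet
    exact injective_pow_iff_not_isOfFinOrder.2 (not_isOfFinOrder_of_isMulTorsionFree hw1)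
      (hφ (by simpa using h))
  let c : (Γ →₀ ZMod 2) → ℝ := fun s => if s = 0 then 0 else co D s
  have h0 : ∀ D : Set (Γ → ZMod 2), co D 0 = (coin Γ).real D := fun D => by simp [co, chi_zero]
  have h1 : HasSum (fun s => c s ^ 2) ((coin Γ).real D - (coin Γ).real D ^ 2) := by
    convert! hasSum_ite_sub_hasSum (hasSum_co hD hD) 0 using 1
    · ext s; simp only [c]; split_ifs <;> simp [sq]
    · simp [h0, sq]
  have hm : ∀ g : Γ, MeasurableSet (sh g ⁻¹' D) := fun g => (sh_mp g).measurable hD
  have hr : ∀ g : Γ, (coin Γ).real (sh g ⁻¹' D) = (coin Γ).real D := fun g =>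
    (sh_mp g).measureReal_preimage hD.nullMeasurableSet
  have h2 : ∀ l, HasSum (fun s => (c s - c (MulAction.toPerm (FreeGroup.of l) s)) ^ 2)
      (2 * ((coin Γ).real D - (coin Γ).real (D ∩ sh (φ (.of l)) ⁻¹' D))) := fun l => by
    convert! ((hasSum_co hD hD).add (hasSum_co (hm (φ (.of l))) (hm (φ (.of l))))).sub
      ((hasSum_co hD (hm (φ (.of l)))).mul_left 2) using 1
    · ext s
      by_cases h : s = 0
      · simp [h, c, hs, h0, hr]; ring
      · have : s.mapDomain (φ (.of l) * ·) ≠ 0 := fun h' =>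
          h (Finsupp.mapDomain_injective (mul_right_injective _) (by simpa using h'))
        simp only [MulAction.toPerm_apply, hs, c, h, this, if_false, co_sh _ hD]; ring
    · simp only [inter_self, hr]; ring
  have h3 := l2gap c h1.summable (fun l => MulAction.toPerm (FreeGroup.of l)) κ
    (fun l s h => hκ s (hfree s fun h' => h (by simp [c, h'])) _) fun l => (h2 l).summable
  rw [h1.tsum_eq, (h2 _).tsum_eq, (h2 _).tsum_eq] at h3
  have h4 : (coin Γ).real (D ∩ sh (φ (.of false)) ⁻¹' D ∩ sh (φ (.of true)) ⁻¹' D) ≤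
      (coin Γ).real (D ∩ sh (φ (.of false)) ⁻¹' D) := measureReal_mono inter_subset_left
  have h5 : (coin Γ).real (D ∩ sh (φ (.of false)) ⁻¹' D ∩ sh (φ (.of true)) ⁻¹' D) ≤
      (coin Γ).real (D ∩ sh (φ (.of true)) ⁻¹' D) := measureReal_mono fun x hx => ⟨hx.1.1, hx.2⟩
  linarith

end Crest.Agent.Cost
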