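import Crest.Agent.Cost.Fold3

/-! The folding process and its conclusion. -/

set_option autoImplicit false

open MeasureTheory Set Relation
open scoped ENNReal

namespace Crest.Agent.Cost

variable {Γ X : Type} [Group Γ] [MulAction Γ X]
variable {I J J0 : Type}

/-- Paths in the quotient graph, with a prescribed word. -/
def Tr.Path (T : Tr X I J J0) (rV : Cell X I → Cell X I → Prop) :
    List (Bool × Bool) → Cell X I → Cell X I → Prop
  | [], u, v => rV u v
  | x :: L, u, v => ∃ e ∈ T.Ed, T.lt e.sl = x.1 ∧ rV u (T.nr x.2 e) ∧ T.Path rV L (T.nr (!x.2) e) v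

theorem Tr.Path.mono {T : Tr X I J J0} {rV rV' : Cell X I → Cell X I → Prop}
    (h : ∀ u v, rV u v → rV' u v) {L : List (Bool × Bool)} {u v : Cell X I}
    (h' : T.Path rV L u v) : T.Path rV' L u v := by
  induction L generalizing u with
  | nil => exact h _ _ h'
  | cons x L ih =>
    obtain ⟨e, h1, h2, h3, h4⟩ := h'
    exact ⟨e, h1, h2, h _ _ h3, ih h4⟩

theorem Tr.Path.absorb {T : Tr X I J J0} {rV : Cell X I → Cell X I → Prop} (hE : Equivalence rV)
    {L : List (Bool × Bool)} {u w v : Cell X I} (h : rV u w) (h' : T.Path rV L w v) :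
    T.Path rV L u v := by
  cases L with
  | nil => exact hE.trans h h'
  | cons x L =>
    obtain ⟨e, h1, h2, h3, h4⟩ := h'
    exact ⟨e, h1, h2, hE.trans h h3, h4⟩

theorem Tr.exists_path (T : Tr X I J J0) {u v : Cell X I} (h : EqvGen (Edge T.Ed T.s T.t) u v) :
    ∃ L, T.Path Eq L u v := by
  rw [eqvGen_iff_rtg] at h
  induction h using ReflTransGen.head_induction_on with
  | refl => exact ⟨[], rfl⟩
  | head h1 _ ih =>
    obtain ⟨L, hL⟩ := ih
    rcases h1 with ⟨e, he, rfl, rfl⟩ | ⟨e, he, rfl, rfl⟩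
    · exact ⟨(T.lt e.sl, true) :: L, e, he, rfl, rfl, hL⟩
    · exact ⟨(T.lt e.sl, false) :: L, e, he, rfl, rfl, hL⟩

theorem Tr.Path.reduce {T : Tr X I J J0} {rV rV' : Cell X I → Cell X I → Prop}
    (hE : Equivalence rV') (h : ∀ u v, rV u v → rV' u v)
    (hf : ∀ d, ∀ e ∈ T.Ed, ∀ e' ∈ T.Ed, T.lt e.sl = T.lt e'.sl →
      rV (T.nr d e) (T.nr d e') → rV' (T.nr (!d) e) (T.nr (!d) e'))
    {L1 L2 : List (Bool × Bool)} {l d : Bool} {u v : Cell X I}
    (h' : T.Path rV (L1 ++ (l, d) :: (l, !d) :: L2) u v) : T.Path rV' (L1 ++ L2) u v := by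
  induction L1 generalizing u with
  | nil =>
    obtain ⟨e, h1, h2, h3, e', h4, h5, h6, h7⟩ := h'
    exact Tr.Path.absorb hE (hE.trans (h _ _ h3) (by
      simpa using hf (!d) e h1 e' h4 (h2.trans h5.symm) h6)) (by simpa using h7.mono h)
  | cons x L ih =>
    obtain ⟨e, h1, h2, h3, h4⟩ := h'
    exact ⟨e, h1, h2, h _ _ h3, ih h4⟩

variable [MeasurableSpace X] {μ : Measure X} {T : Tr X I J J0} {gen : Bool → Γ} {ε : ℝ≥0∞}

theorem Tr.Path.pt (hT : T.Good μ gen) {rV : Cell X I → Cell X I → Prop}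
    (hf : ∀ u v, rV u v → u.pt = v.pt) {L : List (Bool × Bool)} {u v : Cell X I}
    (h : T.Path rV L u v) : v.pt = wp gen L • u.pt := by
  induction L generalizing u with
  | nil => simp [wp, hf _ _ h]
  | cons x L ih =>
    obtain ⟨e, h1, h2, h3, h4⟩ := h
    rw [ih h4, hf _ _ h3, wp, mul_smul]
    obtain ⟨l, d⟩ := x
    simp only at h2; subst h2
    cases d <;> simp [Tr.nr, sgen, hT.spt e h1, hT.tpt e h1]

variable [Countable I] [Countable J] [Countable J0]
variable [Countable Γ] [MeasurableConstSMul Γ X] [IsCancelSMul Γ X]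
variable [SMulInvariantMeasure Γ X μ] [IsProbabilityMeasure μ]
variable {κ : Type} [Fintype κ] {f : X → κ} {c θ : ℝ≥0∞}

theorem Tr.FS.cycle (hT : T.Good μ gen) (hε : ε ≠ ∞) (hf : ∀ k, MeasurableSet {x | f x = k})
    (hθ : ∀ k, μ {x | f x = k} ≤ θ)
    (hexp : ∀ D, MeasurableSet D → μ D ≤ μ (D ∩ (fun y => gen false • y) ⁻¹' D ∩
      (fun y => gen true • y) ⁻¹' D) + ε → μ D ≤ c + 3 * θ → μ D ≤ c)
    {rV : Cell X I → Cell X I → Prop} {rE : Cell X J → Cell X J → Prop}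
    (h : T.FS Γ μ ε rV rE) (hD : μ (T.D gen rV) ≤ c) :
    ∃ rV' rE', T.FS Γ μ ε rV' rE' ∧ μ (T.D gen rV') ≤ c ∧ (∀ u v, rV u v → rV' u v) ∧
      ∀ d, ∀ e ∈ T.Ed, ∀ e' ∈ T.Ed, T.lt e.sl = T.lt e'.sl →
        rV (T.nr d e) (T.nr d e') → rV' (T.nr (!d) e) (T.nr (!d) e') := by
  classical
  have aux : ∀ L : List (Bool × Bool × κ), ∃ rV' rE', T.FS Γ μ ε rV' rE' ∧
      μ (T.D gen rV') ≤ c ∧ (∀ u v, rV u v → rV' u v) ∧
      ∀ d, ∀ e ∈ T.Ed, ∀ e' ∈ T.Ed, T.lt e.sl = T.lt e'.sl → (T.lt e.sl, d, f e.pt) ∈ L →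
        rV (T.nr d e) (T.nr d e') → rV' (T.nr (!d) e) (T.nr (!d) e') := by
    intro L
    induction L with
    | nil => exact ⟨rV, rE, h, hD, fun _ _ h => h, by simp⟩
    | cons x L ih =>
      obtain ⟨r1, s1, h1, h2, h3, h4⟩ := ih
      obtain ⟨r2, s2, h5, h6, h7, g, h8⟩ := h1.fold hT hε x.1 x.2.1 (hf x.2.2)
      refine ⟨r2, s2, h5, hexp _ h5.measurableSet_D (h5.key hT) ?_, fun u v h => h6 _ _ (h3 _ _ h),
        ?_⟩
      · set W := {y | f y = x.2.2}
        have e1 := measure_preimage_smul μ g W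
        have e2 := measure_preimage_smul μ (g * (gen false)⁻¹) W
        have e3 := measure_preimage_smul μ (g * (gen true)⁻¹) W
        calc μ (T.D gen r2) ≤ μ (T.D gen r1 ∪ (fun y => g • y) ⁻¹' W ∪
              (fun y => (g * (gen false)⁻¹) • y) ⁻¹' W ∪ (fun y => (g * (gen true)⁻¹) • y) ⁻¹' W) := by
              refine measure_mono ?_
              rintro y ((hy | hy) | hy) <;> rcases h8 _ _ hy with h9 | h9
              · exact Or.inl (Or.inl (Or.inr h9))
              · exact Or.inl (Or.inl (Or.inl (Or.inl (Or.inl h9))))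
              · exact Or.inl (Or.inr (by simpa [mul_smul] using h9))
              · exact Or.inl (Or.inl (Or.inl (Or.inl (Or.inr h9))))
              · exact Or.inr (by simpa [mul_smul] using h9)
              · exact Or.inl (Or.inl (Or.inl (Or.inr h9)))
          _ ≤ μ (T.D gen r1) + μ W + μ W + μ W := by
              refine (measure_union_le _ _).trans (add_le_add ?_ e3.le)
              refine (measure_union_le _ _).trans (add_le_add ?_ e2.le)
              exact (measure_union_le _ _).trans (add_le_add le_rfl e1.le)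
          _ ≤ c + θ + θ + θ := by gcongr <;> exact hθ _
          _ = c + 3 * θ := by ring
      · intro d e he e' he' h9 h10 h11
        rcases List.mem_cons.1 h10 with rfl | h10
        · exact h7 e he e' he' rfl h9.symm rfl (h3 _ _ h11)
        · exact h6 _ _ (h4 d e he e' he' h9 h10 h11)
  obtain ⟨r, s, h1, h2, h3, h4⟩ := aux Finset.univ.toList
  exact ⟨r, s, h1, h2, h3, fun d e he e' he' h5 h6 => h4 d e he e' he' h5 (by simp) h6⟩

theorem Tr.Good.step3 (hT : T.Good μ gen) (hε : ε ≠ ∞) (hf : ∀ k, MeasurableSet {x | f x = k})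
    (hθ : ∀ k, μ {x | f x = k} ≤ θ)
    (hexp : ∀ D, MeasurableSet D → μ D ≤ μ (D ∩ (fun y => gen false • y) ⁻¹' D ∩
      (fun y => gen true • y) ⁻¹' D) + ε → μ D ≤ c + 3 * θ → μ D ≤ c)
    (hfree : ∀ L, wp gen L = 1 → L = [] ∨ ∃ L1 L2 l d, L = L1 ++ (l, d) :: (l, !d) :: L2)
    (hcor : Function.Injective T.cor)
    (hcount : nu μ T.E0 + nu μ T.Ed ≤ nu μ T.V + 1 + ε) :
    μ {x | EqvGen (Edge T.Ed T.s T.t) ⟨x, T.cor 0⟩ ⟨x, T.cor 1⟩} ≤ c := by
  have aux : ∀ K : ℕ, ∃ rV rE, T.FS Γ μ ε rV rE ∧ μ (T.D gen rV) ≤ c ∧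
      ∀ L u v, T.Path Eq L u v → u.pt = v.pt →
        ∃ L', L'.length ≤ L.length - K ∧ T.Path rV L' u v := by
    intro K
    induction K with
    | zero =>
      have hR : ∀ (I : Type) [Countable I], Rep (X := X) (I := I) Eq = univ := fun I _ =>
        eq_univ_of_forall fun v w h => h ▸ le_rfl
      refine ⟨Eq, Eq, ⟨eq_equivalence, eq_equivalence, MOR.eq.congr fun _ _ => eq_comm,
        MOR.eq.congr fun _ _ => eq_comm, fun _ _ h => h ▸ rfl, fun _ _ h => h ▸ rfl,
        fun _ _ h h' => h ▸ h', fun _ _ h h' => h ▸ h', fun _ _ h => h ▸ rfl, fun _ _ h => h ▸ rfl,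
        fun _ _ h => h ▸ rfl, by simpa [hR] using hcount⟩, ?_, fun L u v h _ => ⟨L, le_rfl, h⟩⟩
      simp [Tr.D, Tr.Mg, hcor.eq_iff]
    | succ K ih =>
      obtain ⟨r1, s1, h1, h2, h3⟩ := ih
      obtain ⟨r2, s2, h4, h5, h6, h7⟩ := h1.cycle hT hε hf hθ hexp h2
      refine ⟨r2, s2, h4, h5, fun L u v h8 h9 => ?_⟩
      obtain ⟨L', h10, h11⟩ := h3 L u v h8 h9
      have h12 := h11.pt hT h1.fV
      rw [← h9] at h12
      rcases hfree L' (IsCancelSMul.eq_one_of_smul h12.symm) with rfl | ⟨L1, L2, l, d, rfl⟩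
      · exact ⟨[], by simp, h11.mono h6⟩
      · refine ⟨L1 ++ L2, ?_, h11.reduce h4.eV h6 h7⟩
        simp only [List.length_append, List.length_cons] at h10 ⊢
        omega
  let G : ℕ → Set X := fun K => {x | ∃ L, L.length ≤ K ∧ T.Path Eq L ⟨x, T.cor 0⟩ ⟨x, T.cor 1⟩}
  have hG : Monotone G := fun a b hab x ⟨L, h1, h2⟩ => ⟨L, h1.trans hab, h2⟩
  calc _ ≤ μ (⋃ K, G K) := by
        refine measure_mono fun x hx => ?_
        obtain ⟨L, hL⟩ := T.exists_path hx
        exact mem_iUnion.2 ⟨L.length, L, le_rfl, hL⟩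
    _ = ⨆ K, μ (G K) := hG.measure_iUnion
    _ ≤ c := by
        refine iSup_le fun K => ?_
        obtain ⟨r, s, -, h2, h3⟩ := aux K
        refine le_trans (measure_mono ?_) h2
        rintro x ⟨L, h4, h5⟩
        obtain ⟨L', h6, h7⟩ := h3 L _ _ h5 rfl
        have : L' = [] := List.length_eq_zero_iff.1 (by omega)
        subst this
        exact Or.inl (Or.inl h7)

end Crest.Agent.Cost
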