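import Crest.Agent.Cost.Unfold2
import Crest.Agent.Cost.Fold4

/-! From chords to letter edges: definitions. -/

set_option autoImplicit false

open MeasureTheory Set Relation Filter Topology
open scoped ENNReal

namespace Crest.Agent.Cost

variable {Γ X : Type} [Group Γ] [MulAction Γ X]
variable {I J I' : Type}

theorem wp_append (gen : Bool → Γ) (L L' : List (Bool × Bool)) :
    wp gen (L ++ L') = wp gen L' * wp gen L := by
  induction L with
  | nil => simp [wp]
  | cons x L ih => simp [wp, ih, mul_assoc]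

theorem wp_take_succ (gen : Bool → Γ) (L : List (Bool × Bool)) {k : ℕ} (hk : k < L.length) :
    wp gen (L.take (k + 1)) = sgen gen (L.getD k (false, false)) * wp gen (L.take k) := by
  rw [List.take_add_one, wp_append, List.getElem?_eq_getElem hk]
  simp [wp, List.getD, List.getElem?_eq_getElem hk]

/-- A set of cells given slot by slot. -/
def cset (p : I → Set X) : Set (Cell X I) := {v | v.pt ∈ p v.sl}

variable [MeasurableSpace X]

theorem measurableSet_cset {p : I → Set X} (h : ∀ i, MeasurableSet (p i)) :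
    MeasurableSet (cset p) := h

theorem nu_cset (μ : Measure X) {p : I → Set X} (h : ∀ i, MeasurableSet (p i)) :
    nu μ (cset p) = ∑' i, μ (p i) := nu_apply μ h

theorem nu_cset_sum (μ : Measure X) {p : I → Set X} {q : I' → Set X} (hp : ∀ i, MeasurableSet (p i))
    (hq : ∀ i, MeasurableSet (q i)) :
    nu μ (cset (Sum.elim p q)) = nu μ (cset p) + nu μ (cset q) := by
  rw [nu_cset μ hp, nu_cset μ hq, nu_cset μ (by rintro (i | i); exacts [hp i, hq i]),
    Summable.tsum_sum ENNReal.summable ENNReal.summable]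
  rfl

/-- Slices of a set of cells. -/
def slice (P : Set (Cell X I)) (i : I) : Set X := {x | ⟨x, i⟩ ∈ P}

omit [MeasurableSpace X] in
theorem cset_slice (P : Set (Cell X I)) : cset (slice P) = P := rfl

abbrev I3 (Γ I J : Type) := Bool ⊕ I ⊕ ((J × Γ × Γ) × ℕ)
abbrev J3 (Γ J : Type) := Fin 4 ⊕ ((J × Γ × Γ) × ℕ)

section defs
variable (S : Gr X I J) (gen : Bool → Γ) (wd : Γ → List (Bool × Bool)) (K : ℕ) (o : I)

/-- Short chords. -/
def Short : Set (Cell X J) :=
  {e | e ∈ S.Ed true ∧ ∃ g : Γ, (wd g).length ≤ K ∧ (S.t true e).pt = g • (S.s true e).pt}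

def Okc (σ : J × Γ × Γ) : Set X :=
  {x | (⟨x, σ.1⟩ : Cell X J) ∈ S.Ed true ∧ (S.s true ⟨x, σ.1⟩).pt = σ.2.1 • x ∧
    (S.t true ⟨x, σ.1⟩).pt = (σ.2.2 * σ.2.1) • x ∧ (wd σ.2.2).length ≤ K}

def emb (v : Cell X I) : Cell X (I3 Γ I J) := ⟨v.pt, .inr (.inl v.sl)⟩

def prw (σ : J × Γ × Γ) (k : ℕ) : Γ := wp gen ((wd σ.2.2).take k) * σ.2.1

def node (σ : J × Γ × Γ) (k : ℕ) (x : X) : Cell X (I3 Γ I J) :=
  if k = 0 then emb (S.s true ⟨x, σ.1⟩) else if k = (wd σ.2.2).length then emb (S.t true ⟨x, σ.1⟩)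
  else ⟨prw gen wd σ k • x, .inr (.inr (σ, k))⟩

def ltr (σ : J × Γ × Γ) (k : ℕ) : Bool × Bool := (wd σ.2.2).getD k (false, false)

def lo (σ : J × Γ × Γ) (k : ℕ) : ℕ := if (ltr wd σ k).2 then k else k + 1

def hi (σ : J × Γ × Γ) (k : ℕ) : ℕ := if (ltr wd σ k).2 then k + 1 else k

def Vsub (τ : (J × Γ × Γ) × ℕ) : Set X :=
  {y | (0 < τ.2 ∧ τ.2 < (wd τ.1.2.2).length) ∧ (prw gen wd τ.1 τ.2)⁻¹ • y ∈ Okc S wd K τ.1}

def Esub (p : ℕ → Prop) (τ : (J × Γ × Γ) × ℕ) : Set X :=
  {y | (p τ.2 ∧ τ.2 < (wd τ.1.2.2).length) ∧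
    (prw gen wd τ.1 (lo wd τ.1 τ.2))⁻¹ • y ∈ Okc S wd K τ.1}

def cor3 : Fin 3 → I3 Γ I J := ![.inr (.inl o), .inl false, .inl true]

/-- The graph over the Cayley tree attached to an unfolded graphing. -/
def toTr : Tr X (I3 Γ I J) (J3 Γ J) (J ⊕ J) where
  V := cset (Sum.elim (fun _ => univ) (Sum.elim (slice {v | S.act o v}) (Vsub S gen wd K)))
  Ed := cset (Sum.elim (fun _ => univ) (Esub S gen wd K fun _ => True))
  lt := Sum.elim ![false, false, true, true] fun τ => (ltr wd τ.1 τ.2).1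
  s := fun e => Sum.elim (fun k => (⟨e.pt, cor3 o (![1, 2, 2, 0] k)⟩ : Cell X (I3 Γ I J)))
    (fun τ => node S gen wd τ.1 (lo wd τ.1 τ.2) ((prw gen wd τ.1 (lo wd τ.1 τ.2))⁻¹ • e.pt)) e.sl
  t := fun e => Sum.elim (fun k => (⟨gen (![false, false, true, true] k) • e.pt,
      cor3 o (![0, 1, 0, 1] k)⟩ : Cell X (I3 Γ I J)))
    (fun τ => node S gen wd τ.1 (hi wd τ.1 τ.2) ((prw gen wd τ.1 (lo wd τ.1 τ.2))⁻¹ • e.pt)) e.sl
  E0 := cset (Sum.elim (slice (S.Ed false)) (slice (S.Ed true \ Short S wd K)))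
  s0 := fun e => Sum.elim (fun j => emb (S.s false ⟨e.pt, j⟩)) (fun j => emb (S.s true ⟨e.pt, j⟩)) e.sl
  t0 := fun e => Sum.elim (fun j => emb (S.t false ⟨e.pt, j⟩)) (fun j => emb (S.t true ⟨e.pt, j⟩)) e.sl
  cor := cor3 o
  be := Sum.inl

end defs

variable {S : Gr X I J} {gen : Bool → Γ} {wd : Γ → List (Bool × Bool)} {K : ℕ} {o : I}
variable {μ : Measure X} {G H : Bool → Subgroup Γ} {ε : ℝ≥0∞}
variable [Countable Γ] [MeasurableConstSMul Γ X] [IsCancelSMul Γ X] [Countable I] [Countable J]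

omit [Countable J] in
theorem CM.measurableSet_pt_eq {f : Cell X J → Cell X I} (hf : CM Γ f) (j : J) (γ : Γ) :
    MeasurableSet {x | (f ⟨x, j⟩).pt = γ • x} := by
  have := (MOR.grp (X := X) (I := J) (J := I) fun h : Γ => h = γ).meas
  have h2 := (MOR.and hf this).dom j
  convert h2 using 1
  ext x; simp

theorem measurableSet_Short (hS : S.Good μ G H o ε) : MeasurableSet (Short S wd K) :=
  (hS.mE true).inter ((MOR.grp fun g : Γ => (wd g).length ≤ K).measurableSet_map
    (hS.cs true) (hS.ct true))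

omit [Countable J] in
theorem measurableSet_Okc (hS : S.Good μ G H o ε) (σ : J × Γ × Γ) :
    MeasurableSet (Okc S wd K σ) :=
  (hS.mE true σ.1).inter (((hS.cs true).measurableSet_pt_eq _ _).inter
    (((hS.ct true).measurableSet_pt_eq _ _).inter (MeasurableSet.const _)))

omit [Countable J] in
theorem measurableSet_Vsub (hS : S.Good μ G H o ε) (τ : (J × Γ × Γ) × ℕ) :
    MeasurableSet (Vsub S gen wd K τ) :=
  (MeasurableSet.const _).inter (measurable_const_smul _ (measurableSet_Okc hS _))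

omit [Countable J] in
theorem measurableSet_Esub (hS : S.Good μ G H o ε) (p : ℕ → Prop) (τ : (J × Γ × Γ) × ℕ) :
    MeasurableSet (Esub S gen wd K p τ) :=
  (MeasurableSet.const _).inter (measurable_const_smul _ (measurableSet_Okc hS _))

omit [Countable Γ] [MeasurableConstSMul Γ X] [Countable I] [Countable J] in
theorem cm_emb : CM Γ (emb (Γ := Γ) (X := X) (I := I) (J := J)) :=
  CM.mapSlot (X := X) (Γ := Γ) fun i : I => (.inr (.inl i) : I3 Γ I J)

theorem cm_node (hS : S.Good μ G H o ε) (σ : J × Γ × Γ) (k : ℕ) (γ : Γ) :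
    CM Γ (fun e : Cell X I' => node S gen wd σ k (γ • e.pt)) := by
  simp only [node]
  split_ifs
  · exact cm_emb.comp ((hS.cs true).comp (CM.ofSlot (fun _ => γ) fun _ => σ.1))
  · exact cm_emb.comp ((hS.ct true).comp (CM.ofSlot (fun _ => γ) fun _ => σ.1))
  · simpa [mul_smul] using (CM.ofSlot (X := X) (fun _ : I' => prw gen wd σ k * γ)
      fun _ => (.inr (.inr (σ, k)) : I3 Γ I J))

omit [Countable Γ] [MeasurableConstSMul Γ X] [Countable I] [Countable J] in
theorem node_pt (hS : S.Good μ G H o ε) (hwd : ∀ g ∈ G true, wd g ≠ [] ∧ wp gen (wd g) = g)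
    {σ : J × Γ × Γ} {x : X} (hx : x ∈ Okc S wd K σ) (k : ℕ) :
    (node S gen wd σ k x).pt = prw gen wd σ k • x := by
  simp only [node]
  split_ifs with h1 h2
  · simp [emb, prw, h1, wp, hx.2.1]
  · obtain ⟨g, h3, h4⟩ := hS.grp true _ hx.1
    rw [hx.2.1, hx.2.2.1, ← mul_smul] at h4
    have h5 : σ.2.2 = g := mul_right_cancel (IsCancelSMul.right_cancel _ _ _ h4)
    simp [emb, prw, h2, hx.2.2.1, h5, (hwd g h3).2]
  · rfl

omit [Countable Γ] [MeasurableConstSMul Γ X] [Countable I] [Countable J] [IsCancelSMul Γ X] in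
theorem node_mem (hS : S.Good μ G H o ε) {σ : J × Γ × Γ} {x : X} (hx : x ∈ Okc S wd K σ) {k : ℕ}
    (hk : k ≤ (wd σ.2.2).length) : node S gen wd σ k x ∈ (toTr S gen wd K o).V := by
  simp only [node]
  split_ifs with h1 h2
  · exact hS.sV true _ hx.1
  · exact hS.tV true _ hx.1
  · exact ⟨⟨by omega, by simp only; omega⟩, by simpa using hx⟩

omit [MeasurableSpace X] [Countable Γ] [MeasurableConstSMul Γ X] [Countable I] [Countable J]
  [IsCancelSMul Γ X] in
theorem node_line {σ : J × Γ × Γ} {x : X} (hx : x ∈ Okc S wd K σ) {k : ℕ}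
    (hk : k ≤ (wd σ.2.2).length) :
    EqvGen (Edge (toTr S gen wd K o).Ed (toTr S gen wd K o).s (toTr S gen wd K o).t)
      (emb (S.s true ⟨x, σ.1⟩)) (node S gen wd σ k x) := by
  induction k with
  | zero => exact .refl _
  | succ k ih =>
    refine .trans _ _ _ (ih (by omega)) ?_
    have h : Edge (toTr S gen wd K o).Ed (toTr S gen wd K o).s (toTr S gen wd K o).t
        (node S gen wd σ (lo wd σ k) x) (node S gen wd σ (hi wd σ k) x) :=
      ⟨⟨prw gen wd σ (lo wd σ k) • x, .inr (σ, k)⟩, ⟨⟨trivial, hk⟩, by simpa using hx⟩,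
        by simp [toTr], by simp [toTr]⟩
    simp only [lo, hi] at h
    split_ifs at h
    · exact .rel _ _ h
    · exact .symm _ _ (.rel _ _ h)

omit [Countable Γ] [MeasurableConstSMul Γ X] [Countable I] [Countable J] in
theorem short_line (hS : S.Good μ G H o ε) (hwd : ∀ g ∈ G true, wd g ≠ [] ∧ wp gen (wd g) = g)
    {e : Cell X J} (he : e ∈ Short S wd K) :
    EqvGen (Edge (toTr S gen wd K o).Ed (toTr S gen wd K o).s (toTr S gen wd K o).t)
      (emb (S.s true e)) (emb (S.t true e)) := by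
  obtain ⟨h1, g, h2, h3⟩ := he
  obtain ⟨γ, hγ⟩ := (hS.cs true).orb' e
  obtain ⟨g', h4, h5⟩ := hS.grp true _ h1
  obtain rfl : g = g' := IsCancelSMul.right_cancel _ _ _ (h3.symm.trans h5)
  have hx : e.pt ∈ Okc S wd K (e.sl, γ, g) := ⟨h1, hγ, by rw [mul_smul, ← hγ]; exact h3, h2⟩
  have := node_line (gen := gen) (o := o) hx le_rfl
  have h6 : (wd g).length ≠ 0 := by simpa using (hwd g h4).1
  simpa [node, h6] using this

end Crest.Agent.Cost
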