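import Crest.Agent.Cost.Bridge

/-! From chords to letter edges: properties. -/

set_option autoImplicit false

open MeasureTheory Set Relation Filter Topology
open scoped ENNReal

namespace Crest.Agent.Cost

variable {Γ X : Type} [Group Γ] [MulAction Γ X] [MeasurableSpace X]
variable {I J : Type}
variable {S : Gr X I J} {gen : Bool → Γ} {wd : Γ → List (Bool × Bool)} {K : ℕ} {o : I}
variable {μ : Measure X} {G H : Bool → Subgroup Γ} {ε : ℝ≥0∞}
variable [Countable Γ] [MeasurableConstSMul Γ X] [IsCancelSMul Γ X] [Countable I] [Countable J]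
variable [SMulInvariantMeasure Γ X μ] [IsProbabilityMeasure μ]

omit [Countable Γ] [MeasurableConstSMul Γ X] [IsCancelSMul Γ X] [Countable I] [Countable J] in
theorem CM.bySlot' {f : Cell X I → Cell X J} (hF : ∀ i, CM Γ fun v : Cell X I => f ⟨v.pt, i⟩) :
    CM Γ f := CM.bySlot (F := fun i v => f ⟨v.pt, i⟩) hF

omit [IsProbabilityMeasure μ] in
theorem nu_Vsub_ne_top (hS : S.Good μ G H o ε) (hε : ε ≠ ∞) :
    nu μ (cset (Vsub S gen wd K)) ≠ ∞ := by
  have h0 : nu μ (S.Ed true) ≠ ∞ :=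
    ne_top_of_le_ne_top (ENNReal.add_ne_top.2 ⟨hS.fin, hε⟩) (le_add_self.trans hS.count)
  have hm : MeasurableSet (cset (Vsub S gen wd K)) := measurableSet_Vsub hS
  refine ne_top_of_le_ne_top ?_ (measure_mono (t := ⋃ k ∈ Finset.range K,
    cset (Vsub S gen wd K) ∩ {v | v.sl.2 = k}) fun v hv => ?_)
  · refine ne_top_of_le_ne_top ?_ (measure_biUnion_finset_le _ _)
    refine ENNReal.sum_ne_top.2 fun k _ => ne_top_of_le_ne_top h0 ?_
    refine (CM.ofSlot (fun τ : (J × Γ × Γ) × ℕ => (prw gen wd τ.1 τ.2)⁻¹) fun τ => τ.1.1).nu_le μ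
      (hm.inter (measurableSet_sl fun τ : (J × Γ × Γ) × ℕ => τ.2 = k)) (hS.mE true) ?_
      fun v hv => hv.1.2.1
    rintro ⟨x, ⟨j, γ, g⟩, l⟩ ⟨hx, h1⟩ ⟨y, ⟨j', γ', g'⟩, l'⟩ ⟨hy, h2⟩ he
    simp only [Cell.mk.injEq, mem_setOf_eq] at he h1 h2
    obtain ⟨he, rfl⟩ := he
    subst h1 h2
    have h3 := hx.2.2
    have h4 := hy.2.2
    simp only at h3 h4
    rw [he] at h3
    obtain rfl : γ = γ' := IsCancelSMul.right_cancel _ _ _ (h3.1.symm.trans h4.1)
    obtain rfl : g = g' :=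
      mul_right_cancel (IsCancelSMul.right_cancel _ _ _ (h3.2.1.symm.trans h4.2.1))
    rw [MulAction.injective _ he]
  · simp only [mem_iUnion, Finset.mem_range]
    exact ⟨v.sl.2, hv.1.2.trans_le hv.2.2.2.2, hv, rfl⟩

theorem nu_toTr_V (hS : S.Good μ G H o ε) :
    nu μ (toTr S gen wd K o).V = 2 + (nu μ S.V + 1 + nu μ (cset (Vsub S gen wd K))) := by
  have h1 : MeasurableSet {v | S.act o v} := hS.mV.union (measurableSet_sl fun i => i = o)
  have h2 : nu μ {v | S.act o v} = nu μ S.V + 1 := by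
    rw [← measure_univ (μ := μ), ← nu_slice μ o MeasurableSet.univ, ← measure_union]
    · congr 1; ext v; simp [Gr.act]
    · exact Set.disjoint_left.2 fun v hv h => hS.Vo v hv h.1
    · exact (measurableSet_sl fun i => i = o).inter (measurableSet_pt MeasurableSet.univ)
  simp only [toTr]
  rw [nu_cset_sum μ (fun _ => MeasurableSet.univ) (by
    rintro (i | i); exacts [h1 i, measurableSet_Vsub hS i]),
    nu_cset_sum μ (p := slice {v | S.act o v}) h1 (measurableSet_Vsub hS), cset_slice, h2, nu_cset μ fun _ => MeasurableSet.univ]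
  simp [tsum_fintype]

theorem toTr_count (hS : S.Good μ G H o ε) :
    nu μ (toTr S gen wd K o).E0 + nu μ (toTr S gen wd K o).Ed ≤
      nu μ (toTr S gen wd K o).V + 1 + ε := by
  have mS : MeasurableSet (Short S wd K) := measurableSet_Short hS
  have h1 : nu μ (toTr S gen wd K o).E0 = nu μ (S.Ed false) + nu μ (S.Ed true \ Short S wd K) :=
    nu_cset_sum μ (hS.mE false) ((hS.mE true).diff mS)
  have h2 : nu μ (toTr S gen wd K o).Ed = 4 + nu μ (cset (Esub S gen wd K fun _ => True)) := by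
    simp only [toTr]
    rw [nu_cset_sum μ (fun _ => MeasurableSet.univ) (measurableSet_Esub hS _),
      nu_cset μ fun _ => MeasurableSet.univ]
    simp [tsum_fintype]
  have h3 : nu μ (cset (Esub S gen wd K fun _ => True)) ≤
      nu μ (cset (Esub S gen wd K fun k => k = 0)) + nu μ (cset (Esub S gen wd K fun k => k ≠ 0)) := by
    refine le_trans (measure_mono fun v hv => ?_) (measure_union_le _ _)
    by_cases h : v.sl.2 = 0
    exacts [Or.inl ⟨⟨h, hv.1.2⟩, hv.2⟩, Or.inr ⟨⟨h, hv.1.2⟩, hv.2⟩]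
  have h4 : nu μ (cset (Esub S gen wd K fun k => k = 0)) ≤ nu μ (S.Ed true ∩ Short S wd K) := by
    refine (CM.ofSlot (fun τ : (J × Γ × Γ) × ℕ => (prw gen wd τ.1 (lo wd τ.1 τ.2))⁻¹)
      fun τ => τ.1.1).nu_le μ (measurableSet_cset (measurableSet_Esub hS _)) ((hS.mE true).inter mS) ?_ ?_
    · rintro ⟨x, ⟨j, γ, g⟩, l⟩ hx ⟨y, ⟨j', γ', g'⟩, l'⟩ hy he
      simp only [Cell.mk.injEq] at he
      obtain ⟨he, rfl⟩ := he
      obtain rfl : l = 0 := hx.1.1
      obtain rfl : l' = 0 := hy.1.1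
      have h3 := hx.2.2
      have h4 := hy.2.2
      simp only at h3 h4
      rw [he] at h3
      obtain rfl : γ = γ' := IsCancelSMul.right_cancel _ _ _ (h3.1.symm.trans h4.1)
      obtain rfl : g = g' :=
        mul_right_cancel (IsCancelSMul.right_cancel _ _ _ (h3.2.1.symm.trans h4.2.1))
      rw [MulAction.injective _ he]
    · intro v hv
      obtain ⟨h3, h4, h5, h6⟩ := hv.2
      exact ⟨h3, h3, _, h6, by rw [h4, h5, mul_smul]⟩
  have h5 : nu μ (cset (Esub S gen wd K fun k => k ≠ 0)) ≤ nu μ (cset (Vsub S gen wd K)) := by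
    refine (CM.ofSlot (fun τ : (J × Γ × Γ) × ℕ =>
      prw gen wd τ.1 τ.2 * (prw gen wd τ.1 (lo wd τ.1 τ.2))⁻¹) fun τ => τ).nu_le μ
      (measurableSet_cset (measurableSet_Esub hS _)) (measurableSet_cset (measurableSet_Vsub hS)) ?_ ?_
    · rintro ⟨x, τ⟩ hx ⟨y, τ'⟩ hy he
      simp only [Cell.mk.injEq] at he
      obtain ⟨he, rfl⟩ := he
      rw [MulAction.injective _ he]
    · intro v hv
      exact ⟨⟨Nat.pos_of_ne_zero hv.1.1, hv.1.2⟩, by simpa [mul_smul] using hv.2⟩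
  rw [h1, h2, nu_toTr_V hS]
  have h6 := hS.count
  rw [← measure_inter_add_sdiff (S.Ed true) mS] at h6
  calc _ ≤ nu μ (S.Ed false) + nu μ (S.Ed true \ Short S wd K) +
        (4 + (nu μ (S.Ed true ∩ Short S wd K) + nu μ (cset (Vsub S gen wd K)))) := by
        gcongr; exact h3.trans (add_le_add h4 h5)
    _ = nu μ (S.Ed false) + (nu μ (S.Ed true ∩ Short S wd K) + nu μ (S.Ed true \ Short S wd K)) +
        (4 + nu μ (cset (Vsub S gen wd K))) := by ring
    _ ≤ nu μ S.V + ε + (4 + nu μ (cset (Vsub S gen wd K))) := by gcongr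
    _ = _ := by ring

theorem toTr_good (hS : S.Good μ G H o ε) (hε : ε ≠ ∞)
    (hwd : ∀ g ∈ G true, wd g ≠ [] ∧ wp gen (wd g) = g) : (toTr S gen wd K o).Good μ gen := by
  have mS : MeasurableSet (Short S wd K) := measurableSet_Short hS
  have hconn : ∀ v u, S.all H o v u → u.sl = o → ∃ w, w.sl = (toTr S gen wd K o).cor 0 ∧
      EqvGen (fun u v => Edge (toTr S gen wd K o).Ed (toTr S gen wd K o).s (toTr S gen wd K o).t u v ∨
        Edge (toTr S gen wd K o).E0 (toTr S gen wd K o).s0 (toTr S gen wd K o).t0 u v) (emb v) w := by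
    intro v u h hu
    have hed : ∀ c, ∀ e ∈ S.Ed c, EqvGen (fun u v =>
        Edge (toTr S gen wd K o).Ed (toTr S gen wd K o).s (toTr S gen wd K o).t u v ∨
        Edge (toTr S gen wd K o).E0 (toTr S gen wd K o).s0 (toTr S gen wd K o).t0 u v)
        (emb (S.s c e)) (emb (S.t c e)) := by
      intro c e he
      cases c
      · exact .rel _ _ (Or.inr ⟨⟨e.pt, .inl e.sl⟩, he, rfl, rfl⟩)
      · by_cases hs : e ∈ Short S wd K
        · exact EqvGen.mono (fun _ _ h => Or.inl h) _ _ (short_line hS hwd hs)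
        · exact .rel _ _ (Or.inr ⟨⟨e.pt, .inr e.sl⟩, ⟨he, hs⟩, rfl, rfl⟩)
    rw [Gr.all, eqvGen_iff_rtg] at h
    induction h using ReflTransGen.head_induction_on with
    | refl => exact ⟨_, by simp [emb, toTr, cor3, hu], .refl _⟩
    | head h1 _ ih =>
      obtain ⟨w, h2, h3⟩ := ih
      rcases h1 with ⟨c, ⟨e, he, rfl, rfl⟩ | h1⟩ | ⟨c, ⟨e, he, rfl, rfl⟩ | h1⟩
      · exact ⟨w, h2, .trans _ _ _ (hed c e he) h3⟩
      · exact ⟨_, by simp [emb, toTr, cor3, h1.1], .refl _⟩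
      · exact ⟨w, h2, .trans _ _ _ (.symm _ _ (hed c e he)) h3⟩
      · exact ⟨_, by simp [emb, toTr, cor3, h1.2.1], .refl _⟩
  have hact : ∀ v, S.act o v → ∃ u, u.sl = o ∧ S.all H o v u := fun v hv =>
    hv.elim (hS.conn v) fun h => ⟨v, h, .refl _⟩
  have hcor : ∀ x i, (⟨x, cor3 o i⟩ : Cell X (I3 Γ I J)) ∈ (toTr S gen wd K o).V := by
    intro x i; fin_cases i
    · exact Or.inr rfl
    · trivial
    · trivial
  refine ⟨?_, ?_, ?_, CM.bySlot' ?_, CM.bySlot' ?_, CM.bySlot' ?_, CM.bySlot' ?_, ?_, ?_, ?_, ?_, ?_,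
    fun _ _ => trivial, rfl, rfl, rfl, rfl, fun _ => rfl, fun _ => rfl, fun _ => rfl, fun _ => rfl,
    fun _ => rfl, fun _ => rfl, fun _ => rfl, fun _ => rfl, ?_⟩
  · rintro (i | i | i)
    exacts [MeasurableSet.univ, (hS.mV.union (measurableSet_sl fun i => i = o)) i,
      measurableSet_Vsub hS i]
  · rintro (i | i); exacts [MeasurableSet.univ, measurableSet_Esub hS (fun _ => True) i]
  · rintro (i | i); exacts [hS.mE false i, (hS.mE true).diff mS i]
  · rintro (i | i); exacts [CM.toSlot _, cm_node hS _ _ _]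
  · rintro (i | i); exacts [CM.ofSlot (fun _ => _) fun _ => _, cm_node hS _ _ _]
  · rintro (i | i)
    exacts [cm_emb.comp ((hS.cs _).comp (CM.toSlot _)), cm_emb.comp ((hS.cs _).comp (CM.toSlot _))]
  · rintro (i | i)
    exacts [cm_emb.comp ((hS.ct _).comp (CM.toSlot _)), cm_emb.comp ((hS.ct _).comp (CM.toSlot _))]
  · rw [nu_toTr_V hS]
    have := hS.fin
    have := nu_Vsub_ne_top (gen := gen) (wd := wd) (K := K) hS hε
    finiteness
  · rintro ⟨x, i | τ⟩ he
    · rfl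
    · simp [toTr, node_pt hS hwd he.2]
  · rintro ⟨x, i | τ⟩ he
    · rfl
    · have h1 := wp_take_succ gen (wd τ.1.2.2) he.1.2
      simp only [toTr, Sum.elim_inr, node_pt hS hwd he.2, ← mul_smul]
      congr 1
      change _ = sgen gen (ltr wd τ.1 τ.2) * _ at h1
      rcases hp : ltr wd τ.1 τ.2 with ⟨l, _ | _⟩ <;> simp [prw, lo, hi, h1, hp, sgen]
  · rintro ⟨x, i | τ⟩ he
    · exact hcor _ _
    · exact node_mem hS he.2 (by have := he.1.2; simp only [lo]; split_ifs <;> omega)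
  · rintro ⟨x, i | τ⟩ he
    · exact hcor _ _
    · exact node_mem hS he.2 (by have := he.1.2; simp only [hi]; split_ifs <;> omega)
  · rintro ⟨x, (_ | _) | i | τ⟩ hv
    · exact ⟨⟨gen false • x, cor3 o 0⟩, rfl, .rel _ _ (Or.inl ⟨⟨x, .inl 0⟩, trivial, rfl, rfl⟩)⟩
    · exact ⟨⟨gen true • x, cor3 o 0⟩, rfl, .rel _ _ (Or.inl ⟨⟨x, .inl 2⟩, trivial, rfl, rfl⟩)⟩
    · obtain ⟨u, h1, h2⟩ := hact ⟨x, i⟩ hv
      exact hconn _ _ h2 h1
    · obtain ⟨u, h1, h2⟩ := hact _ (hS.sV true _ hv.2.1)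
      obtain ⟨w, h3, h4⟩ := hconn _ _ h2 h1
      refine ⟨w, h3, .trans _ _ _ (.symm _ _ ?_) h4⟩
      have := node_line (gen := gen) (o := o) hv.2 hv.1.2.le
      simp only [node, hv.1.1.ne', hv.1.2.ne, if_false, smul_inv_smul] at this
      exact EqvGen.mono (fun _ _ h => Or.inl h) _ _ this

end Crest.Agent.Cost
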