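import Mathlib

/-! Cells over a free measure-preserving action, measurable orbit relations, mass transport. -/

set_option autoImplicit false

open MeasureTheory Set
open scoped ENNReal

namespace Crest.Agent.Cost

/-- A cell: a point of the space together with a slot index. -/
@[ext] structure Cell (X I : Type) where
  pt : X
  sl : I

variable {Γ X : Type} [Group Γ] [MulAction Γ X] [MeasurableSpace X]
variable {I J K : Type}

instance : MeasurableSpace (Cell X I) where
  MeasurableSet' P := ∀ i, MeasurableSet {x | (⟨x, i⟩ : Cell X I) ∈ P}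
  measurableSet_empty := fun i => by simp
  measurableSet_compl := fun s hs i => (hs i).compl
  measurableSet_iUnion := fun f hf i => by
    have : {x | (⟨x, i⟩ : Cell X I) ∈ ⋃ n, f n} = ⋃ n, {x | (⟨x, i⟩ : Cell X I) ∈ f n} := by
      ext x; simp
    rw [this]; exact MeasurableSet.iUnion fun n => hf n i

theorem measurableSet_cell {P : Set (Cell X I)} :
    MeasurableSet P ↔ ∀ i, MeasurableSet {x | (⟨x, i⟩ : Cell X I) ∈ P} := Iff.rfl

theorem measurable_mk (i : I) : Measurable (fun x : X => (⟨x, i⟩ : Cell X I)) :=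
  fun _ hs => hs i

theorem measurable_pt : Measurable (fun v : Cell X I => v.pt) := fun s hs i => by
  simpa using hs

theorem measurableSet_sl (p : I → Prop) : MeasurableSet {v : Cell X I | p v.sl} := fun i => by
  by_cases h : p i <;> simp [h]

theorem measurableSet_pt {S : Set X} (hS : MeasurableSet S) :
    MeasurableSet {v : Cell X I | v.pt ∈ S} := measurable_pt hS

/-- The product of `μ` with the counting measure on slots. -/
noncomputable def nu (μ : Measure X) : Measure (Cell X I) :=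
  Measure.sum fun i => μ.map (fun x : X => (⟨x, i⟩ : Cell X I))

theorem nu_apply (μ : Measure X) {P : Set (Cell X I)} (hP : MeasurableSet P) :
    nu μ P = ∑' i, μ {x | (⟨x, i⟩ : Cell X I) ∈ P} := by
  rw [nu, Measure.sum_apply _ hP]
  refine tsum_congr fun i => ?_
  rw [Measure.map_apply (measurable_mk i) hP]; rfl

theorem nu_slice (μ : Measure X) (i : I) {S : Set X} (hS : MeasurableSet S) :
    nu μ {v : Cell X I | v.sl = i ∧ v.pt ∈ S} = μ S := by
  have hm : MeasurableSet {v : Cell X I | v.sl = i ∧ v.pt ∈ S} :=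
    (measurableSet_sl (fun j => j = i)).inter (measurableSet_pt hS)
  rw [nu_apply μ hm, tsum_eq_single i]
  · simp
  · intro j hj; simp [hj]

/-- A relation between cells that is measurable along the action. -/
def MR (Γ : Type) [Group Γ] [MulAction Γ X] (R : Cell X I → Cell X J → Prop) : Prop :=
  ∀ (γ : Γ) (i : I) (j : J), MeasurableSet {x : X | R ⟨x, i⟩ ⟨γ • x, j⟩}

/-- A measurable relation contained in the orbit relation. -/
structure MOR (Γ : Type) [Group Γ] [MulAction Γ X] (R : Cell X I → Cell X J → Prop) : Prop where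
  orb : ∀ v w, R v w → ∃ γ : Γ, w.pt = γ • v.pt
  meas : MR Γ R

/-- A cell map: a function whose graph is a measurable orbit relation. -/
def CM (Γ : Type) [Group Γ] [MulAction Γ X] (f : Cell X I → Cell X J) : Prop :=
  MOR Γ (fun v w => w = f v)

namespace MR
variable {R S : Cell X I → Cell X J → Prop}

theorem and (hR : MR Γ R) (hS : MR Γ S) : MR Γ (fun v w => R v w ∧ S v w) :=
  fun γ i j => (hR γ i j).inter (hS γ i j)

theorem or (hR : MR Γ R) (hS : MR Γ S) : MR Γ (fun v w => R v w ∨ S v w) :=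
  fun γ i j => (hR γ i j).union (hS γ i j)

theorem not (hR : MR Γ R) : MR Γ (fun v w => ¬ R v w) :=
  fun γ i j => (hR γ i j).compl

theorem left {P : Set (Cell X I)} (hP : MeasurableSet P) :
    MR Γ (fun (v : Cell X I) (_ : Cell X J) => v ∈ P) := fun _ i _ => hP i

theorem right [MeasurableConstSMul Γ X] {P : Set (Cell X J)} (hP : MeasurableSet P) :
    MR Γ (fun (_ : Cell X I) (w : Cell X J) => w ∈ P) :=
  fun γ _ j => (measurable_const_smul γ) (hP j)

theorem slot (p : I → J → Prop) : MR Γ (fun (v : Cell X I) (w : Cell X J) => p v.sl w.sl) :=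
  fun _ i j => by by_cases h : p i j <;> simp [h]

theorem exists_ {ι : Sort*} [Countable ι] {R : ι → Cell X I → Cell X J → Prop}
    (h : ∀ n, MR Γ (R n)) : MR Γ (fun v w => ∃ n, R n v w) := fun γ i j => by
  have : {x : X | ∃ n, R n ⟨x, i⟩ ⟨γ • x, j⟩} = ⋃ n, {x : X | R n ⟨x, i⟩ ⟨γ • x, j⟩} := by
    ext x; simp
  rw [this]; exact MeasurableSet.iUnion fun n => h n γ i j

theorem congr (hR : MR Γ R) (h : ∀ v w, S v w ↔ R v w) : MR Γ S := by
  have : S = R := by ext v w; exact h v w
  rwa [this]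

theorem grp [IsCancelSMul Γ X] (p : Γ → Prop) :
    MR Γ (fun (v : Cell X I) (w : Cell X J) => ∃ h : Γ, p h ∧ w.pt = h • v.pt) := fun γ i j => by
  by_cases hγ : p γ
  · have : {x : X | ∃ h : Γ, p h ∧ γ • x = h • x} = univ := by
      ext x; simp only [mem_setOf_eq, mem_univ, iff_true]; exact ⟨γ, hγ, rfl⟩
    simp only; rw [this]; exact MeasurableSet.univ
  · have : {x : X | ∃ h : Γ, p h ∧ γ • x = h • x} = ∅ := by
      ext x; simp only [mem_setOf_eq, mem_empty_iff_false, iff_false]
      rintro ⟨h, hh, he⟩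
      exact hγ (IsCancelSMul.right_cancel _ _ _ he ▸ hh)
    simp only; rw [this]; exact MeasurableSet.empty

theorem diag {R : Cell X I → Cell X I → Prop} (hR : MR Γ R) : MeasurableSet {v | R v v} :=
  fun i => by simpa using hR 1 i i

end MR

namespace MOR
variable {R S : Cell X I → Cell X J → Prop}

theorem congr (hR : MOR Γ R) (h : ∀ v w, S v w ↔ R v w) : MOR Γ S := by
  have : S = R := by ext v w; exact h v w
  rwa [this]

theorem and (hR : MOR Γ R) (hS : MR Γ S) : MOR Γ (fun v w => R v w ∧ S v w) :=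
  ⟨fun v w h => hR.orb v w h.1, hR.meas.and hS⟩

theorem and' (hR : MR Γ R) (hS : MOR Γ S) : MOR Γ (fun v w => R v w ∧ S v w) :=
  ⟨fun v w h => hS.orb v w h.2, hR.and hS.meas⟩

theorem or (hR : MOR Γ R) (hS : MOR Γ S) : MOR Γ (fun v w => R v w ∨ S v w) :=
  ⟨fun v w h => h.elim (hR.orb v w) (hS.orb v w), hR.meas.or hS.meas⟩

theorem exists_ {ι : Sort*} [Countable ι] {R : ι → Cell X I → Cell X J → Prop}
    (h : ∀ n, MOR Γ (R n)) : MOR Γ (fun v w => ∃ n, R n v w) :=
  ⟨fun v w ⟨n, hn⟩ => (h n).orb v w hn, MR.exists_ fun n => (h n).meas⟩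

theorem grp [IsCancelSMul Γ X] (p : Γ → Prop) :
    MOR Γ (fun (v : Cell X I) (w : Cell X J) => ∃ h : Γ, p h ∧ w.pt = h • v.pt) :=
  ⟨fun _ _ ⟨h, _, he⟩ => ⟨h, he⟩, MR.grp p⟩

theorem eq [IsCancelSMul Γ X] : MOR Γ (fun (v w : Cell X I) => w = v) := by
  refine ((grp (fun h : Γ => h = 1)).and (MR.slot (fun i j => j = i))).congr fun v w => ?_
  constructor
  · rintro rfl; simp
  · rintro ⟨⟨h, rfl, h1⟩, h2⟩; ext <;> simp_all

theorem flip [MeasurableConstSMul Γ X] (hR : MOR Γ R) : MOR Γ (fun w v => R v w) := by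
  refine ⟨fun w v h => ?_, fun γ j i => ?_⟩
  · obtain ⟨γ, hγ⟩ := hR.orb v w h
    exact ⟨γ⁻¹, by rw [hγ, inv_smul_smul]⟩
  · have := (measurable_const_smul γ) (hR.meas γ⁻¹ i j)
    simpa [Set.preimage] using this

theorem comp [Countable Γ] [Countable J] [MeasurableConstSMul Γ X]
    {S : Cell X J → Cell X K → Prop} (hR : MOR Γ R) (hS : MOR Γ S) :
    MOR Γ (fun u w => ∃ v, R u v ∧ S v w) := by
  refine ⟨fun u w ⟨v, h1, h2⟩ => ?_, fun γ i k => ?_⟩
  · obtain ⟨a, ha⟩ := hR.orb _ _ h1
    obtain ⟨b, hb⟩ := hS.orb _ _ h2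
    exact ⟨b * a, by rw [hb, ha, mul_smul]⟩
  · have : {x : X | ∃ v, R ⟨x, i⟩ v ∧ S v ⟨γ • x, k⟩} =
        ⋃ (a : Γ) (j : J), {x : X | R ⟨x, i⟩ ⟨a • x, j⟩} ∩
          (fun x => a • x) ⁻¹' {y : X | S ⟨y, j⟩ ⟨(γ * a⁻¹) • y, k⟩} := by
      ext x
      simp only [mem_setOf_eq, mem_iUnion, mem_inter_iff, mem_preimage, mul_smul, inv_smul_smul]
      constructor
      · rintro ⟨⟨y, j⟩, h1, h2⟩
        obtain ⟨a, ha⟩ := hR.orb _ _ h1
        simp only at ha; subst ha
        exact ⟨a, j, h1, h2⟩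
      · rintro ⟨a, j, h1, h2⟩; exact ⟨_, h1, h2⟩
    rw [this]
    exact MeasurableSet.iUnion fun a => MeasurableSet.iUnion fun j =>
      (hR.meas a i j).inter ((measurable_const_smul a) (hS.meas _ j k))

theorem dom [Countable Γ] [Countable J] (hR : MOR Γ R) : MeasurableSet {v | ∃ w, R v w} := by
  intro i
  have : {x : X | (⟨x, i⟩ : Cell X I) ∈ {v | ∃ w, R v w}} =
      ⋃ (a : Γ) (j : J), {x : X | R ⟨x, i⟩ ⟨a • x, j⟩} := by
    ext x
    simp only [mem_setOf_eq, mem_iUnion]
    constructor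
    · rintro ⟨⟨y, j⟩, h1⟩
      obtain ⟨a, ha⟩ := hR.orb _ _ h1
      simp only at ha; subst ha
      exact ⟨a, j, h1⟩
    · rintro ⟨a, j, h1⟩; exact ⟨_, h1⟩
  rw [this]
  exact MeasurableSet.iUnion fun a => MeasurableSet.iUnion fun j => hR.meas a i j

theorem sat [Countable Γ] [Countable J] [MeasurableConstSMul Γ X] (hR : MOR Γ R)
    {Q : Set (Cell X J)} (hQ : MeasurableSet Q) : MeasurableSet {v | ∃ w, R v w ∧ w ∈ Q} :=
  (hR.and (MR.right hQ)).dom

end MOR

/-- Iterates of a relation. -/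
def RelPow {α : Type} (R : α → α → Prop) : ℕ → α → α → Prop
  | 0, u, v => v = u
  | n + 1, u, v => ∃ w, RelPow R n u w ∧ R w v

theorem reflTransGen_iff_relPow {α : Type} (R : α → α → Prop) (u v : α) :
    Relation.ReflTransGen R u v ↔ ∃ n, RelPow R n u v := by
  constructor
  · intro h
    induction h with
    | refl => exact ⟨0, rfl⟩
    | tail _ h2 ih => obtain ⟨n, hn⟩ := ih; exact ⟨n + 1, _, hn, h2⟩
  · rintro ⟨n, hn⟩
    induction n generalizing v with
    | zero => cases hn; exact .refl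
    | succ n ih => obtain ⟨w, h1, h2⟩ := hn; exact (ih w h1).tail h2

theorem eqvGen_iff_rtg {α : Type} (R : α → α → Prop) (u v : α) :
    Relation.EqvGen R u v ↔ Relation.ReflTransGen (fun a b => R a b ∨ R b a) u v := by
  constructor
  · intro h
    induction h with
    | rel a b h => exact .single (Or.inl h)
    | refl a => exact .refl
    | symm a b _ ih =>
      clear * - ih
      induction ih with
      | refl => exact .refl
      | tail _ h2 ih => exact .head h2.symm ih
    | trans a b c _ _ ih1 ih2 => exact ih1.trans ih2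
  · intro h
    induction h with
    | refl => exact .refl _
    | tail _ h2 ih =>
      rcases h2 with h2 | h2
      · exact ih.trans _ _ _ (.rel _ _ h2)
      · exact ih.trans _ _ _ (.symm _ _ (.rel _ _ h2))

namespace MOR
variable [Countable Γ] [Countable I] [MeasurableConstSMul Γ X] [IsCancelSMul Γ X]

theorem relPow {R : Cell X I → Cell X I → Prop} (hR : MOR Γ R) : ∀ n, MOR Γ (RelPow R n)
  | 0 => MOR.eq
  | n + 1 => (relPow hR n).comp hR

theorem eqvGen {R : Cell X I → Cell X I → Prop} (hR : MOR Γ R) : MOR Γ (Relation.EqvGen R) :=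
  (MOR.exists_ fun n => (hR.or hR.flip).relPow n).congr fun v w => by
    rw [eqvGen_iff_rtg, reflTransGen_iff_relPow]

end MOR

end Crest.Agent.Cost
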