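import Crest.Agent.Cost.Round2

/-! Shortening of witness chains using the normal form in the amalgam. -/

set_option autoImplicit false

open MeasureTheory Set Relation
open scoped ENNReal

namespace Crest.Agent.Cost

variable {Γ X : Type} [Group Γ] [MulAction Γ X]
variable {I J : Type}

/-- Alternating products of `k + 1` elements outside `E`, the first one applied of type `c`. -/
def NF (G : Bool → Subgroup Γ) (E : Subgroup Γ) : ℕ → Bool → Γ → Prop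
  | 0, c, g => g ∈ G c ∧ g ∉ E
  | k + 1, c, g => ∃ g1 g', g = g' * g1 ∧ g1 ∈ G c ∧ g1 ∉ E ∧ NF G E k (!c) g'

/-- Chains of `k` monochromatic steps. -/
def Gr.Ch (S : Gr X I J) (H : Bool → Subgroup Γ) (E : Subgroup Γ) (o : I) :
    ℕ → Cell X I → Cell X I → Prop
  | 0, u, v => Zr E o u v
  | k + 1, u, v => ∃ w c, S.act o w ∧ S.rel H o c u w ∧ S.Ch H E o k w v

variable {G H : Bool → Subgroup Γ} {E : Subgroup Γ} {o : I}

theorem Zr.rl {u v : Cell X I} (h : Zr E o u v) : Rl E u v := by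
  rcases h with rfl | h
  · exact Rl.refl _ _
  · exact h.2.2

theorem Zr.rel (hEH : ∀ c, E ≤ H c) (S : Gr X I J) (c : Bool) {u v : Cell X I}
    (h : Zr E o u v) : S.rel H o c u v := by
  rcases h with rfl | h
  · exact .refl _
  · exact Gr.rel_of_base hEH c h.1 h.2.1 h.2.2

theorem Zr.trans {u v w : Cell X I} (h : Zr E o u v) (h' : Zr E o v w) : Zr E o u w := by
  rcases h with rfl | h
  · exact h'
  · rcases h' with rfl | h'
    · exact Or.inr h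
    · exact Or.inr ⟨h.1, h'.2.1, Rl.trans h.2.2 h'.2.2⟩

theorem Gr.Ch.absorb (hEH : ∀ c, E ≤ H c) {S : Gr X I J} {k : ℕ} {u w v : Cell X I}
    (h : Zr E o u w) (h' : S.Ch H E o k w v) : S.Ch H E o k u v := by
  cases k with
  | zero => exact h.trans h'
  | succ k =>
    obtain ⟨w', c, h1, h2, h3⟩ := h'
    exact ⟨w', c, h1, .trans _ _ _ (h.rel hEH S c) h2, h3⟩

theorem Gr.Ch.succ {S : Gr X I J} {k : ℕ} {u v : Cell X I} (hu : S.act o u)
    (h : S.Ch H E o k u v) : S.Ch H E o (k + 1) u v := ⟨u, true, hu, .refl _, h⟩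

theorem Gr.Ch.mono {S : Gr X I J} {k l : ℕ} {u v : Cell X I} (hu : S.act o u)
    (h : S.Ch H E o k u v) (hkl : k ≤ l) : S.Ch H E o l u v := by
  induction hkl with
  | refl => exact h
  | step _ ih => exact ih.succ hu

theorem Gr.Ref.zr {S S' : Gr X I J} {ρ : Cell X I → Cell X I} (h : S.Ref S' H E o ρ)
    {u v : Cell X I} (h' : Zr E o u v) : Zr E o (ρ u) (ρ v) := by
  rcases h' with rfl | h'
  · exact Or.inl rfl
  · rw [h.base _ h'.1, h.base _ h'.2.1]; exact Or.inr h'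

theorem Gr.Ref.ch {S S' : Gr X I J} {ρ : Cell X I → Cell X I} (h : S.Ref S' H E o ρ) {k : ℕ}
    {u v : Cell X I} (h' : S.Ch H E o k u v) : S'.Ch H E o k (ρ u) (ρ v) := by
  induction k generalizing u with
  | zero => exact h.zr h'
  | succ k ih =>
    obtain ⟨w, c, h1, h2, h3⟩ := h'
    exact ⟨ρ w, c, h.act _ h1, h.rel _ _ _ h2, ih h3⟩

variable [MeasurableSpace X] {μ : Measure X} {ε : ℝ≥0∞}

theorem Gr.Good.all_ch {S : Gr X I J} (hS : S.Good μ G H o ε) {u v : Cell X I}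
    (h : S.all H o u v) : ∃ k, S.Ch H E o k u v := by
  rw [Gr.all, eqvGen_iff_rtg] at h
  induction h using ReflTransGen.head_induction_on with
  | refl => exact ⟨0, Or.inl rfl⟩
  | head h1 _ ih =>
    obtain ⟨k, hk⟩ := ih
    rcases h1 with ⟨c, h1⟩ | ⟨c, h1⟩
    · refine ⟨k + 1, _, c, ?_, .rel _ _ h1, hk⟩
      rcases h1 with ⟨e, he, -, rfl⟩ | h1
      · exact hS.tV c e he
      · exact Or.inr h1.2.1
    · refine ⟨k + 1, _, c, ?_, .symm _ _ (.rel _ _ h1), hk⟩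
      rcases h1 with ⟨e, he, rfl, -⟩ | h1
      · exact hS.sV c e he
      · exact Or.inr h1.1

theorem Gr.Good.reduce {S S' : Gr X I J} (hS : S.Good μ G H o ε) (hEH : ∀ c, E ≤ H c)
    (hHG : ∀ c, H c ≤ G c) {ρ : Cell X I → Cell X I} (h : S.Ref S' H E o ρ)
    (hres : ∀ c u v, S.act o u → S.act o v → S.rel H o c u v → Rl E u v → Zr E o (ρ u) (ρ v))
    (k : ℕ) {u v : Cell X I} (hu : S.act o u) (h' : S.Ch H E o (k + 1) u v) :
    S'.Ch H E o k (ρ u) (ρ v) ∨ ∃ c g, v.pt = g • u.pt ∧ NF G E k c g ∧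
      ∃ w, S.act o w ∧ S.rel H o c u w ∧ S.Ch H E o k w v := by
  induction k generalizing u with
  | zero =>
    obtain ⟨w, c, h1, h2, h3⟩ := h'
    obtain ⟨g1, hg1, hg⟩ := hS.rel_grp hHG h2
    by_cases hE : g1 ∈ E
    · exact Or.inl ((hres c u w hu h1 h2 ⟨g1, hE, hg⟩).trans (h.zr h3))
    · obtain ⟨e, he, he'⟩ := Zr.rl h3
      refine Or.inr ⟨c, e * g1, by rw [he', hg, mul_smul], ⟨?_, ?_⟩, w, h1, h2, h3⟩
      · exact (G c).mul_mem (hHG c (hEH c he)) hg1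
      · exact fun h4 => hE ((E.mul_mem_cancel_left he).1 h4)
  | succ k ih =>
    obtain ⟨w, c, h1, h2, h3⟩ := h'
    obtain ⟨g1, hg1, hg⟩ := hS.rel_grp hHG h2
    by_cases hE : g1 ∈ E
    · exact Or.inl (Gr.Ch.absorb hEH (hres c u w hu h1 h2 ⟨g1, hE, hg⟩) (h.ch h3))
    · rcases ih h1 h3 with h4 | ⟨c', g', h4, h5, w', h6, h7, h8⟩
      · exact Or.inl ⟨ρ w, c, h.act _ h1, h.rel _ _ _ h2, h4⟩
      · by_cases hc : c' = c
        · subst hc
          exact Or.inl (h.ch (k := k + 1) ⟨w', c', h6, .trans _ _ _ h2 h7, h8⟩)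
        · have : c' = !c := by cases c <;> cases c' <;> simp_all
          subst this
          exact Or.inr ⟨c, g' * g1, by rw [h4, hg, mul_smul], ⟨g1, g', rfl, hg1, hE, h5⟩,
            w, h1, h2, h3⟩

variable [Countable Γ] [MeasurableConstSMul Γ X] [IsCancelSMul Γ X] [Countable I] [Countable J]
variable [SMulInvariantMeasure Γ X μ] [MeasurableSpace.CountablySeparated X] [Nonempty J]

theorem Gr.Good.round2 {S : Gr X I J} (hS : S.Good μ G H o ε) (hε : ε ≠ ∞) (hEH : ∀ c, E ≤ H c)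
    (hHG : ∀ c, H c ≤ G c) {δ : ℝ≥0∞} (hδ : δ ≠ 0) (hδ' : δ ≠ ∞) :
    ∃ (S' : Gr X I J) (ρ : Cell X I → Cell X I), S'.Good μ G H o (ε + 2 * δ) ∧
      S.Ref S' H E o ρ ∧ ∀ c u v, S.act o u → S.act o v → S.rel H o c u v → Rl E u v →
        Zr E o (ρ u) (ρ v) := by
  obtain ⟨S1, ρ1, h1, h2, h3⟩ := hS.round hε hEH hHG false hδ
  obtain ⟨S2, ρ2, h4, h5, h6⟩ := h1.round (ENNReal.add_ne_top.2 ⟨hε, hδ'⟩) hEH hHG true hδ
  refine ⟨S2, fun v => ρ2 (ρ1 v), by rwa [two_mul, ← add_assoc], ⟨fun u hu => h5.act _ (h2.act _ hu),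
    fun u hu => by rw [h2.base u hu, h5.base u hu],
    fun c u v h => h5.rel _ _ _ (h2.rel _ _ _ h), fun v => (h2.eqv v).trans (h5.eqv _)⟩, ?_⟩
  intro c u v hu hv h7 h8
  cases c
  · exact h5.zr (h3 u v hu hv h7 h8)
  · exact h6 _ _ (h2.act _ hu) (h2.act _ hv) (h2.rel _ _ _ h7)
      ((h2.eqv u).symm.trans (h8.trans (h2.eqv v)))

theorem Gr.Good.step2 (hEH : ∀ c, E ≤ H c) (hHG : ∀ c, H c ≤ G c) {a : Γ}
    (ha : a ∉ G false) (hN : ∀ k c, ¬ NF G E (k + 1) c a) {δ : ℝ≥0∞} (hδ : δ ≠ 0) (hδ' : δ ≠ ∞)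
    (K : ℕ) {ε : ℝ≥0∞} {S : Gr X I J} (hS : S.Good μ G H o ε) (hε : ε ≠ ∞) :
    ∃ S' : Gr X I J, S'.Good μ G H o (ε + K * (2 * δ)) ∧
      ∀ x : X, S.Ch H E o (K + 1) ⟨x, o⟩ ⟨a • x, o⟩ → S'.rel H o true ⟨x, o⟩ ⟨a • x, o⟩ := by
  induction K generalizing S ε with
  | zero =>
    refine ⟨S, by simpa using hS, ?_⟩
    rintro x ⟨w, c, -, h1, h2⟩
    have h3 : S.rel H o c ⟨x, o⟩ ⟨a • x, o⟩ := .trans _ _ _ h1 (Zr.rel hEH S c h2)
    cases c
    · obtain ⟨g, h4, h5⟩ := hS.rel_grp hHG h3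
      exact absurd (IsCancelSMul.right_cancel _ _ _ h5 ▸ h4) ha
    · exact h3
  | succ K ih =>
    obtain ⟨S1, ρ, h1, h2, h3⟩ := hS.round2 hε hEH hHG hδ hδ'
    obtain ⟨S2, h4, h5⟩ := ih h1 (by finiteness)
    refine ⟨S2, ?_, fun x hx => h5 x ?_⟩
    · convert h4 using 1; push_cast; ring
    · rcases hS.reduce hEH hHG h2 h3 (K + 1) (Or.inr rfl) hx with h6 | ⟨c, g, h6, h7, -⟩
      · rwa [h2.base _ rfl, h2.base _ rfl] at h6
      · exact absurd (IsCancelSMul.right_cancel _ _ _ h6 ▸ h7) (hN K c)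

end Crest.Agent.Cost
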