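import Crest.Agent.Cost.Marker

/-! Graphs over the Cayley tree of the free group on two letters: the key inequality. -/

set_option autoImplicit false

open MeasureTheory Set Relation
open scoped ENNReal

namespace Crest.Agent.Cost

variable {Γ X : Type} [Group Γ] [MulAction Γ X] [MeasurableSpace X]
variable {I J J0 : Type}

section two
variable [Countable Γ] [MeasurableConstSMul Γ X] [IsCancelSMul Γ X]
variable (μ : Measure X) [SMulInvariantMeasure Γ X μ]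

theorem bfs_count2 [Countable I] [Countable J] [Countable J0] [Nonempty J]
    {Ed : Set (Cell X J)} (hEd : MeasurableSet Ed) {s t : Cell X J → Cell X I} (hs : CM Γ s)
    (ht : CM Γ t) {E0 : Set (Cell X J0)} (hE0 : MeasurableSet E0) {s0 t0 : Cell X J0 → Cell X I}
    (hs0 : CM Γ s0) (ht0 : CM Γ t0)
    {P : Set (Cell X I)} (hP : MeasurableSet P) (extra : Cell X I → Cell X I → Prop)
    (hextra : ∀ u v, extra u v → u ∉ P ∧ v ∉ P)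
    (hconn : ∀ p ∈ P, ∃ w ∉ P,
      EqvGen (fun u v => (Edge Ed s t u v ∨ Edge E0 s0 t0 u v) ∨ extra u v) p w) :
    nu μ P ≤ nu μ Ed + nu μ E0 := by
  let F : (Cell X J → Cell X I) → (Cell X J0 → Cell X I) → J ⊕ J0 → Cell X (J ⊕ J0) → Cell X I :=
    fun f g i e => Sum.elim (fun j => f ⟨e.pt, j⟩) (fun j => g ⟨e.pt, j⟩) i
  have hF : ∀ f g, CM Γ f → CM Γ g → CM Γ (fun e => F f g e.sl e) := by
    intro f g hf hg
    refine CM.bySlot ?_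
    rintro (j | j)
    · exact hf.comp (CM.toSlot j)
    · exact hg.comp (CM.toSlot j)
  let E2 : Set (Cell X (J ⊕ J0)) :=
    {e | Sum.elim (fun j => (⟨e.pt, j⟩ : Cell X J) ∈ Ed) (fun j => (⟨e.pt, j⟩ : Cell X J0) ∈ E0) e.sl}
  have hE2 : MeasurableSet E2 := by
    rintro (j | j)
    · exact hEd j
    · exact hE0 j
  have h1 := bfs_count μ hE2 (hF s s0 hs hs0) (hF t t0 ht ht0) hP extra hextra (fun p hp => by
    obtain ⟨w, h1, h2⟩ := hconn p hp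
    refine ⟨w, h1, EqvGen.mono ?_ _ _ h2⟩
    rintro u v ((⟨e, he, rfl, rfl⟩ | ⟨e, he, rfl, rfl⟩) | h)
    · exact Or.inl ⟨⟨e.pt, .inl e.sl⟩, he, rfl, rfl⟩
    · exact Or.inl ⟨⟨e.pt, .inr e.sl⟩, he, rfl, rfl⟩
    · exact Or.inr h)
  refine h1.trans_eq ?_
  rw [nu_apply μ hE2, nu_apply μ hEd, nu_apply μ hE0,
    Summable.tsum_sum ENNReal.summable ENNReal.summable]
  rfl

end two

/-- A graph over the Cayley tree, with some inert edges. -/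
structure Tr (X I J J0 : Type) where
  V : Set (Cell X I)
  Ed : Set (Cell X J)
  lt : J → Bool
  s : Cell X J → Cell X I
  t : Cell X J → Cell X I
  E0 : Set (Cell X J0)
  s0 : Cell X J0 → Cell X I
  t0 : Cell X J0 → Cell X I
  cor : Fin 3 → I
  be : Fin 4 → J

structure Tr.Good (T : Tr X I J J0) (μ : Measure X) (gen : Bool → Γ) : Prop where
  mV : MeasurableSet T.V
  mE : MeasurableSet T.Ed
  mE0 : MeasurableSet T.E0
  cs : CM Γ T.s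
  ct : CM Γ T.t
  cs0 : CM Γ T.s0
  ct0 : CM Γ T.t0
  fin : nu μ T.V ≠ ∞
  spt : ∀ e ∈ T.Ed, (T.s e).pt = e.pt
  tpt : ∀ e ∈ T.Ed, (T.t e).pt = gen (T.lt e.sl) • e.pt
  sV : ∀ e ∈ T.Ed, T.s e ∈ T.V
  tV : ∀ e ∈ T.Ed, T.t e ∈ T.V
  beE : ∀ x k, (⟨x, T.be k⟩ : Cell X J) ∈ T.Ed
  lt0 : T.lt (T.be 0) = false
  lt1 : T.lt (T.be 1) = false
  lt2 : T.lt (T.be 2) = true
  lt3 : T.lt (T.be 3) = true
  s0' : ∀ x, T.s ⟨x, T.be 0⟩ = ⟨x, T.cor 1⟩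
  t0' : ∀ x, T.t ⟨x, T.be 0⟩ = ⟨gen false • x, T.cor 0⟩
  s1' : ∀ x, T.s ⟨x, T.be 1⟩ = ⟨x, T.cor 2⟩
  t1' : ∀ x, T.t ⟨x, T.be 1⟩ = ⟨gen false • x, T.cor 1⟩
  s2' : ∀ x, T.s ⟨x, T.be 2⟩ = ⟨x, T.cor 2⟩
  t2' : ∀ x, T.t ⟨x, T.be 2⟩ = ⟨gen true • x, T.cor 0⟩
  s3' : ∀ x, T.s ⟨x, T.be 3⟩ = ⟨x, T.cor 0⟩
  t3' : ∀ x, T.t ⟨x, T.be 3⟩ = ⟨gen true • x, T.cor 1⟩
  conn : ∀ v ∈ T.V, ∃ w, w.sl = T.cor 0 ∧
    EqvGen (fun u v => Edge T.Ed T.s T.t u v ∨ Edge T.E0 T.s0 T.t0 u v) v w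

variable [Countable I] [Countable J]

/-- A partially folded state. -/
structure Tr.FS (T : Tr X I J J0) (Γ : Type) [Group Γ] [MulAction Γ X] (μ : Measure X) (ε : ℝ≥0∞)
    (rV : Cell X I → Cell X I → Prop) (rE : Cell X J → Cell X J → Prop) : Prop where
  eV : Equivalence rV
  eE : Equivalence rE
  mV : MOR Γ rV
  mE : MOR Γ rE
  fV : ∀ u v, rV u v → u.pt = v.pt
  fE : ∀ u v, rE u v → u.pt = v.pt
  aV : ∀ u v, rV u v → u ∈ T.V → v ∈ T.V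
  aE : ∀ u v, rE u v → u ∈ T.Ed → v ∈ T.Ed
  lE : ∀ u v, rE u v → T.lt u.sl = T.lt v.sl
  cs : ∀ u v, rE u v → rV (T.s u) (T.s v)
  ct : ∀ u v, rE u v → rV (T.t u) (T.t v)
  count : nu μ T.E0 + nu μ (T.Ed ∩ Rep rE) ≤ nu μ (T.V ∩ Rep rV) + 1 + ε

/-- Points at which two corners have been identified. -/
def Tr.Mg (T : Tr X I J J0) (rV : Cell X I → Cell X I → Prop) (i j : Fin 3) : Set X :=
  {x | rV ⟨x, T.cor i⟩ ⟨x, T.cor j⟩}

/-- The set of determined sides. -/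
def Tr.D (T : Tr X I J J0) (gen : Bool → Γ) (rV : Cell X I → Cell X I → Prop) : Set X :=
  T.Mg rV 0 1 ∪ (fun y => (gen false)⁻¹ • y) ⁻¹' T.Mg rV 1 2 ∪
    (fun y => (gen true)⁻¹ • y) ⁻¹' T.Mg rV 2 0

omit [Countable I] [Countable J] in
theorem MOR.measurableSet_fib {rV : Cell X I → Cell X I → Prop} (h : MOR Γ rV) (i j : I) :
    MeasurableSet {x | rV ⟨x, i⟩ ⟨x, j⟩} := by simpa using h.meas 1 i j

end Crest.Agent.Cost
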