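import Crest.Agent.Cost.Fold

/-! The key inequality for partially folded states. -/

set_option autoImplicit false

open MeasureTheory Set Relation
open scoped ENNReal

namespace Crest.Agent.Cost

variable {Γ X : Type} [Group Γ] [MulAction Γ X] [MeasurableSpace X]
variable {I J J0 : Type} [Countable I] [Countable J] [Countable J0]
variable [Countable Γ] [MeasurableConstSMul Γ X] [IsCancelSMul Γ X]
variable {μ : Measure X} [SMulInvariantMeasure Γ X μ] [IsProbabilityMeasure μ]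
variable {T : Tr X I J J0} {gen : Bool → Γ} {ε : ℝ≥0∞}
variable {rV : Cell X I → Cell X I → Prop} {rE : Cell X J → Cell X J → Prop}

theorem Tr.FS.key0 (hT : T.Good μ gen) (h : T.FS Γ μ ε rV rE) :
    1 + μ {x | rE ⟨x, T.be 1⟩ ⟨x, T.be 0⟩}ᶜ + 1 + μ {x | rE ⟨x, T.be 3⟩ ⟨x, T.be 2⟩}ᶜ ≤
      1 + μ (T.Mg rV 0 1)ᶜ + μ (T.Mg rV 1 2 ∪ T.Mg rV 2 0)ᶜ + 1 + ε := by
  classical
  haveI : Nonempty I := ⟨T.cor 0⟩
  haveI : Nonempty J := ⟨T.be 0⟩
  obtain ⟨pV, pV1, pV2, pV3, pV4, pV5⟩ := exists_rep h.mV h.eV h.fV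
  obtain ⟨pE, pE1, pE2, pE3, pE4, pE5⟩ := exists_rep h.mE h.eE h.fE
  set RV := T.V ∩ Rep rV
  set RE := T.Ed ∩ Rep rE
  have hRV : MeasurableSet RV := hT.mV.inter (measurableSet_rep h.mV)
  have hRE : MeasurableSet RE := hT.mE.inter (measurableSet_rep h.mE)
  let Cb : Set (Cell X I) := ⋃ i, {v | rV v ⟨v.pt, T.cor i⟩}
  have hCb : MeasurableSet Cb :=
    MeasurableSet.iUnion fun i => h.mV.measurableSet_map CM.id (CM.toSlot _)
  let Eb : Set (Cell X J) := ⋃ i, {v | rE v ⟨v.pt, T.be i⟩}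
  have hEb : MeasurableSet Eb :=
    MeasurableSet.iUnion fun i => h.mE.measurableSet_map CM.id (CM.toSlot _)
  have hCb1 : ∀ u x i, rV u ⟨x, T.cor i⟩ → pV u ∈ Cb := fun u x i hu => by
    have h1 := h.eV.trans (h.eV.symm (pV2 u)) hu
    exact mem_iUnion.2 ⟨i, by have := h.fV _ _ h1; simp only at this; rw [mem_setOf_eq, this]; exact h1⟩
  have h1 : nu μ (RV \ Cb) ≤ nu μ (RE \ Eb) + nu μ T.E0 := by
    refine bfs_count2 μ (hRE.diff hEb) (pV1.comp hT.cs) (pV1.comp hT.ct) hT.mE0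
      (pV1.comp hT.cs0) (pV1.comp hT.ct0) (hRV.diff hCb) (fun u v => u ∈ Cb ∧ v ∈ Cb)
      (fun u v h => ⟨fun h' => h'.2 h.1, fun h' => h'.2 h.2⟩) ?_
    intro p hp
    obtain ⟨w, hw1, hw2⟩ := hT.conn p hp.1.1
    refine ⟨pV w, fun h' => h'.2 (hCb1 w w.pt 0 (by rw [← hw1]; exact h.eV.refl _)), ?_⟩
    rw [← pV5 p hp.1.2]
    clear hp hw1
    induction hw2 with
    | refl a => exact .refl _
    | symm a b _ ih => exact .symm _ _ ih
    | trans a b c _ _ ih1 ih2 => exact .trans _ _ _ ih1 ih2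
    | rel a b hab =>
      refine .rel _ _ ?_
      rcases hab with ⟨e, he, rfl, rfl⟩ | ⟨e, he, rfl, rfl⟩
      · rw [pV4 _ _ (h.cs _ _ (pE2 e)), pV4 _ _ (h.ct _ _ (pE2 e))]
        by_cases hb : pE e ∈ Eb
        · right
          obtain ⟨k, hk⟩ := mem_iUnion.1 hb
          have h2 := h.cs _ _ hk
          have h3 := h.ct _ _ hk
          fin_cases k
          · exact ⟨hCb1 _ _ _ (hT.s0' _ ▸ h2), hCb1 _ _ _ (hT.t0' _ ▸ h3)⟩
          · exact ⟨hCb1 _ _ _ (hT.s1' _ ▸ h2), hCb1 _ _ _ (hT.t1' _ ▸ h3)⟩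
          · exact ⟨hCb1 _ _ _ (hT.s2' _ ▸ h2), hCb1 _ _ _ (hT.t2' _ ▸ h3)⟩
          · exact ⟨hCb1 _ _ _ (hT.s3' _ ▸ h2), hCb1 _ _ _ (hT.t3' _ ▸ h3)⟩
        · exact Or.inl (Or.inl ⟨pE e, ⟨⟨h.aE _ _ (pE2 e) he, pE3 e⟩, hb⟩, rfl, rfl⟩)
      · exact Or.inl (Or.inr ⟨e, he, rfl, rfl⟩)
  have hMg : ∀ i j, MeasurableSet (T.Mg rV i j) := fun i j => h.mV.measurableSet_fib _ _
  have h2 : nu μ (RV ∩ Cb) ≤ 1 + μ (T.Mg rV 0 1)ᶜ + μ (T.Mg rV 1 2 ∪ T.Mg rV 2 0)ᶜ := by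
    let Q : Set (Cell X (Fin 3)) :=
      {v | v.pt ∈ (![univ, (T.Mg rV 0 1)ᶜ, (T.Mg rV 1 2 ∪ T.Mg rV 2 0)ᶜ] : Fin 3 → Set X) v.sl}
    have hQ : MeasurableSet Q := by
      intro i; fin_cases i
      · exact MeasurableSet.univ
      · exact (hMg _ _).compl
      · exact ((hMg _ _).union (hMg _ _)).compl
    have h3 := (h.mV.map CM.id (CM.mapSlot T.cor)).nu_le μ (hRV.inter hCb) hQ ?_ ?_
    · refine h3.trans_eq ?_
      rw [nu_apply μ hQ, tsum_fintype, Fin.sum_univ_three]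
      simp [Q, Set.setOf_mem_eq, compl_def]
    · rintro v ⟨-, hv⟩
      obtain ⟨i, hi⟩ := mem_iUnion.1 hv
      by_cases c0 : rV v ⟨v.pt, T.cor 0⟩
      · exact ⟨⟨v.pt, 0⟩, by simp [Q], c0⟩
      by_cases c1 : rV v ⟨v.pt, T.cor 1⟩
      · exact ⟨⟨v.pt, 1⟩, fun h4 => c0 (h.eV.trans c1 (h.eV.symm h4)), c1⟩
      have c2 : rV v ⟨v.pt, T.cor 2⟩ := by
        fin_cases i
        · exact absurd hi c0
        · exact absurd hi c1
        · exact hi
      refine ⟨⟨v.pt, 2⟩, ?_, c2⟩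
      rintro (h4 | h4)
      · exact c1 (h.eV.trans c2 (h.eV.symm h4))
      · exact c0 (h.eV.trans c2 h4)
    · intro v hv v' hv' w _ h3 h4
      exact Rep.unique h.eV h.fV hv.1.2 hv'.1.2 (h.eV.trans h3 (h.eV.symm h4))
  have h3 : 1 + μ {x | rE ⟨x, T.be 1⟩ ⟨x, T.be 0⟩}ᶜ + 1 + μ {x | rE ⟨x, T.be 3⟩ ⟨x, T.be 2⟩}ᶜ ≤
      nu μ (RE ∩ Eb) := by
    let Q : Set (Cell X (Fin 4)) :=
      {v | v.pt ∈ (![univ, {x | rE ⟨x, T.be 1⟩ ⟨x, T.be 0⟩}ᶜ, univ,
        {x | rE ⟨x, T.be 3⟩ ⟨x, T.be 2⟩}ᶜ] : Fin 4 → Set X) v.sl}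
    have hQ : MeasurableSet Q := by
      intro i; fin_cases i
      · exact MeasurableSet.univ
      · exact (h.mE.measurableSet_fib _ _).compl
      · exact MeasurableSet.univ
      · exact (h.mE.measurableSet_fib _ _).compl
    have h4 := (pE1.comp (CM.mapSlot T.be)).nu_le μ hQ (hRE.inter hEb) ?_ ?_
    · refine le_trans (le_of_eq ?_) h4
      rw [nu_apply μ hQ, tsum_fintype, Fin.sum_univ_four]
      simp [Q, compl_def]
    · rintro ⟨x, i⟩ hx ⟨y, j⟩ hy he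
      simp only at he
      have h5 : rE ⟨x, T.be i⟩ ⟨y, T.be j⟩ :=
        h.eE.trans (pE2 _) (he ▸ h.eE.symm (pE2 ⟨y, T.be j⟩))
      have h6 := h.fE _ _ h5
      have h7 := h.lE _ _ h5
      have h8 := h.eE.symm h5
      simp only at h6 h7; subst h6
      have l0 := hT.lt0; have l1 := hT.lt1; have l2 := hT.lt2; have l3 := hT.lt3
      fin_cases i <;> fin_cases j <;> simp_all [Q]
    · rintro ⟨x, i⟩ -
      refine ⟨⟨h.aE _ _ (pE2 _) (hT.beE _ _), pE3 _⟩, mem_iUnion.2 ⟨i, ?_⟩⟩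
      have := h.fE _ _ (pE2 ⟨x, T.be i⟩)
      simp only [mem_setOf_eq] at this ⊢
      rw [← this]; exact h.eE.symm (pE2 _)
  have h4 := h.count
  rw [← measure_inter_add_sdiff RE hEb, ← measure_inter_add_sdiff RV hCb] at h4
  have hfin : nu μ (RE \ Eb) + nu μ T.E0 ≠ ∞ ∨ ε = ∞ := by
    by_cases hε : ε = ∞
    · exact Or.inr hε
    left
    have h5 : nu μ RV ≠ ∞ := ne_top_of_le_ne_top hT.fin (measure_mono inter_subset_left)
    refine ne_top_of_le_ne_top (b := nu μ RV + 1 + ε) (by finiteness) (le_trans ?_ h.count)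
    rw [add_comm]; gcongr; exact diff_subset
  rcases hfin with hfin | hfin
  · refine ENNReal.le_of_add_le_add_left hfin ?_
    calc _ ≤ nu μ (RE \ Eb) + nu μ T.E0 + nu μ (RE ∩ Eb) := by gcongr
      _ = nu μ T.E0 + (nu μ (RE ∩ Eb) + nu μ (RE \ Eb)) := by ring
      _ ≤ nu μ (RV ∩ Cb) + nu μ (RV \ Cb) + 1 + ε := h4
      _ ≤ (1 + μ (T.Mg rV 0 1)ᶜ + μ (T.Mg rV 1 2 ∪ T.Mg rV 2 0)ᶜ) +
          (nu μ (RE \ Eb) + nu μ T.E0) + 1 + ε := by gcongr
      _ = _ := by ring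
  · simp [hfin]

theorem Tr.FS.measurableSet_D (h : T.FS Γ μ ε rV rE) : MeasurableSet (T.D gen rV) :=
  ((h.mV.measurableSet_fib _ _).union (measurable_const_smul _ (h.mV.measurableSet_fib _ _))).union
    (measurable_const_smul _ (h.mV.measurableSet_fib _ _))

theorem Tr.FS.key (hT : T.Good μ gen) (h : T.FS Γ μ ε rV rE) :
    μ (T.D gen rV) ≤ μ (T.D gen rV ∩ (fun y => gen false • y) ⁻¹' T.D gen rV ∩
      (fun y => gen true • y) ⁻¹' T.D gen rV) + ε := by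
  by_cases hε : ε = ∞
  · simp [hε]
  have h0 := h.key0 hT
  set Na := {x | rE ⟨x, T.be 1⟩ ⟨x, T.be 0⟩}
  set Nb := {x | rE ⟨x, T.be 3⟩ ⟨x, T.be 2⟩}
  set M1 := T.Mg rV 0 1
  set M2 := T.Mg rV 1 2
  set M3 := T.Mg rV 2 0
  have mNa : MeasurableSet Na := h.mE.measurableSet_fib _ _
  have mNb : MeasurableSet Nb := h.mE.measurableSet_fib _ _
  have mM1 : MeasurableSet M1 := h.mV.measurableSet_fib _ _
  have mM2 : MeasurableSet M2 := h.mV.measurableSet_fib _ _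
  have mM3 : MeasurableSet M3 := h.mV.measurableSet_fib _ _
  have ha : ∀ x ∈ Na, x ∈ M2 ∧ gen false • x ∈ M1 := fun x hx => by
    have h1 := h.cs _ _ hx
    have h2 := h.ct _ _ hx
    rw [hT.s0', hT.s1'] at h1; rw [hT.t0', hT.t1'] at h2
    exact ⟨h.eV.symm h1, h.eV.symm h2⟩
  have hb : ∀ x ∈ Nb, x ∈ M3 ∧ gen true • x ∈ M1 := fun x hx => by
    have h1 := h.cs _ _ hx
    have h2 := h.ct _ _ hx
    rw [hT.s2', hT.s3'] at h1; rw [hT.t2', hT.t3'] at h2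
    exact ⟨h.eV.symm h1, h.eV.symm h2⟩
  have h1 : μ (T.D gen rV) ≤ μ M1 + μ (M2 \ Na) + μ (M3 \ Nb) := by
    rw [← measure_preimage_smul μ (gen false)⁻¹ (M2 \ Na),
      ← measure_preimage_smul μ (gen true)⁻¹ (M3 \ Nb)]
    refine le_trans (measure_mono ?_)
      ((measure_union_le _ _).trans (add_le_add_left (measure_union_le _ _) _))
    rintro y ((hy | hy) | hy)
    · exact Or.inl (Or.inl hy)
    · by_cases h2 : (gen false)⁻¹ • y ∈ Na
      · exact Or.inl (Or.inl (by simpa using (ha _ h2).2))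
      · exact Or.inl (Or.inr ⟨hy, h2⟩)
    · by_cases h2 : (gen true)⁻¹ • y ∈ Nb
      · exact Or.inl (Or.inl (by simpa using (hb _ h2).2))
      · exact Or.inr ⟨hy, h2⟩
  have h2 : μ (M2 ∩ M3) ≤ μ (T.D gen rV ∩ (fun y => gen false • y) ⁻¹' T.D gen rV ∩
      (fun y => gen true • y) ⁻¹' T.D gen rV) := by
    refine measure_mono fun x hx => ⟨⟨Or.inl (Or.inl ?_), Or.inl (Or.inr ?_)⟩, Or.inr ?_⟩
    · exact h.eV.symm (h.eV.trans hx.1 hx.2)
    · simpa using hx.1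
    · simpa using hx.2
  refine h1.trans (le_trans ?_ (add_le_add_left h2 _))
  have e1 := measure_add_measure_compl (μ := μ) mNa
  have e2 := measure_add_measure_compl (μ := μ) mNb
  have e3 := measure_add_measure_compl (μ := μ) mM1
  have e4 := measure_add_measure_compl (μ := μ) (mM2.union mM3)
  have e5 := measure_union_add_inter (μ := μ) M2 mM3
  have e6 := measure_sdiff_add_inter (μ := μ) M2 mNa
  have e7 := measure_sdiff_add_inter (μ := μ) M3 mNb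
  rw [inter_eq_self_of_subset_right fun x hx => (ha x hx).1] at e6
  rw [inter_eq_self_of_subset_right fun x hx => (hb x hx).1] at e7
  rw [measure_univ] at e1 e2 e3 e4
  rw [← ENNReal.toReal_le_toReal (by finiteness) (by finiteness)] at h0 ⊢
  rw [← ENNReal.toReal_eq_toReal_iff' (by finiteness) (by finiteness)] at e1 e2 e3 e4 e5 e6 e7
  simp only [ENNReal.toReal_add, ne_eq, measure_ne_top, not_false_eq_true, ENNReal.add_eq_top,
    or_self, ENNReal.one_ne_top, hε, ENNReal.toReal_one] at *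
  linarith

end Crest.Agent.Cost
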