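import Crest.Agent.Cost.Fold2

/-! Folding. -/

set_option autoImplicit false

open MeasureTheory Set Relation
open scoped ENNReal

namespace Crest.Agent.Cost

variable {Γ X : Type} [Group Γ] [MulAction Γ X]
variable {I J J0 : Type}

def Tr.nr (T : Tr X I J J0) : Bool → Cell X J → Cell X I
  | true => T.s
  | false => T.t

/-- Group element of a signed letter. -/
def sgen (gen : Bool → Γ) : Bool × Bool → Γ
  | (l, true) => gen l
  | (l, false) => (gen l)⁻¹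

/-- Product of a word, the head being applied first. -/
def wp (gen : Bool → Γ) : List (Bool × Bool) → Γ
  | [] => 1
  | x :: L => wp gen L * sgen gen x

theorem eqvGen_map' {α β : Type} {R : α → α → Prop} {R' : β → β → Prop} (f : α → β)
    (h : ∀ a b, R a b → EqvGen R' (f a) (f b)) {a b : α} (hab : EqvGen R a b) :
    EqvGen R' (f a) (f b) := by
  induction hab with
  | rel a b h1 => exact h a b h1
  | refl a => exact .refl _
  | symm a b _ ih => exact .symm _ _ ih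
  | trans a b c _ _ ih1 ih2 => exact .trans _ _ _ ih1 ih2

variable [MeasurableSpace X] [Countable I] [Countable J] [Countable J0]
variable [Countable Γ] [MeasurableConstSMul Γ X] [IsCancelSMul Γ X]
variable {μ : Measure X} [SMulInvariantMeasure Γ X μ] [IsProbabilityMeasure μ]
variable {T : Tr X I J J0} {gen : Bool → Γ} {ε : ℝ≥0∞}
variable {rV : Cell X I → Cell X I → Prop} {rE : Cell X J → Cell X J → Prop}

omit [Countable J0] [IsProbabilityMeasure μ] in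
theorem Tr.FS.fold (hT : T.Good μ gen) (h : T.FS Γ μ ε rV rE) (hε : ε ≠ ∞) (l d : Bool)
    {W : Set X} (hW : MeasurableSet W) :
    ∃ rV' rE', T.FS Γ μ ε rV' rE' ∧ (∀ u v, rV u v → rV' u v) ∧
      (∀ e ∈ T.Ed, ∀ e' ∈ T.Ed, T.lt e.sl = l → T.lt e'.sl = l → e.pt ∈ W →
        rV (T.nr d e) (T.nr d e') → rV' (T.nr (!d) e) (T.nr (!d) e')) ∧
      ∃ g : Γ, ∀ u v, rV' u v → g • u.pt ∈ W ∨ rV u v := by
  classical
  haveI : Nonempty I := ⟨T.cor 0⟩
  haveI : Nonempty J := ⟨T.be 0⟩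
  have hnr : ∀ d, CM Γ (T.nr d) := fun d => by cases d; exacts [hT.ct, hT.cs]
  have hnrV : ∀ d, ∀ e ∈ T.Ed, T.nr d e ∈ T.V := fun d => by cases d; exacts [hT.tV, hT.sV]
  have hnrE : ∀ d u v, rE u v → rV (T.nr d u) (T.nr d v) := fun d => by
    cases d; exacts [h.ct, h.cs]
  let gg : Bool → Γ := fun d => if d then 1 else gen l
  have hnrpt : ∀ d, ∀ e ∈ T.Ed, T.lt e.sl = l → (T.nr d e).pt = gg d • e.pt := fun d e he hl => by
    cases d
    · simp [gg, Tr.nr, hT.tpt e he, hl]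
    · simp [gg, Tr.nr, hT.spt e he]
  let Ok : Set (Cell X J) := {e | e ∈ T.Ed ∧ T.lt e.sl = l ∧ e.pt ∈ W}
  have hOk : MeasurableSet Ok :=
    hT.mE.inter ((measurableSet_sl fun j => T.lt j = l).inter (measurableSet_pt hW))
  let cond : Cell X J → Cell X J → Prop := fun e e' =>
    (rV (T.nr d e) (T.nr d e') ∧ e ∈ Ok) ∧ e' ∈ Ok
  have hcond : MOR Γ cond := ((h.mV.map (hnr d) (hnr d)).and (MR.left hOk)).and (MR.right hOk)
  have hOkE : ∀ e e', rE e e' → e ∈ Ok → e' ∈ Ok := fun e e' h1 h2 =>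
    ⟨h.aE _ _ h1 h2.1, h.lE _ _ h1 ▸ h2.2.1, h.fE _ _ h1 ▸ h2.2.2⟩
  have hcpt : ∀ e e', cond e e' → e.pt = e'.pt := fun e e' h1 => by
    have := h.fV _ _ h1.1.1
    rw [hnrpt d e h1.1.2.1 h1.1.2.2.1, hnrpt d e' h1.2.1 h1.2.2.1] at this
    exact MulAction.injective _ this
  let rE' : Cell X J → Cell X J → Prop := fun e e' => rE e e' ∨ cond e e'
  have eE' : Equivalence rE' := by
    refine ⟨fun e => Or.inl (h.eE.refl e), ?_, ?_⟩
    · rintro e e' (h1 | h1)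
      · exact Or.inl (h.eE.symm h1)
      · exact Or.inr ⟨⟨h.eV.symm h1.1.1, h1.2⟩, h1.1.2⟩
    · rintro e e' e'' (h1 | h1) (h2 | h2)
      · exact Or.inl (h.eE.trans h1 h2)
      · exact Or.inr ⟨⟨h.eV.trans (hnrE d _ _ h1) h2.1.1, hOkE _ _ (h.eE.symm h1) h2.1.2⟩, h2.2⟩
      · exact Or.inr ⟨⟨h.eV.trans h1.1.1 (hnrE d _ _ h2), h1.1.2⟩, hOkE _ _ h2 h1.2⟩
      · exact Or.inr ⟨⟨h.eV.trans h1.1.1 h2.1.1, h1.1.2⟩, h2.2⟩
  have mE' : MOR Γ rE' := h.mE.or hcond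
  have fE' : ∀ u v, rE' u v → u.pt = v.pt := fun u v h1 => h1.elim (h.fE u v) (hcpt u v)
  let nw : Cell X I → Cell X I → Prop := fun u v =>
    ∃ e, u = T.nr (!d) e ∧ ∃ e', cond e e' ∧ v = T.nr (!d) e'
  have hnw : MOR Γ nw := MOR.comp (MOR.flip (hnr _)) (MOR.comp hcond (hnr _))
  let rV' := EqvGen (fun u v => rV u v ∨ nw u v)
  have eV' : Equivalence rV' := EqvGen.is_equivalence _
  have mV' : MOR Γ rV' := (h.mV.or hnw).eqvGen
  have hle : ∀ u v, rV u v → rV' u v := fun u v h1 => .rel _ _ (Or.inl h1)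
  have hloc : ∀ u v, rV' u v → u.pt = v.pt ∧ (u ∈ T.V ↔ v ∈ T.V) ∧
      ((gg (!d))⁻¹ • u.pt ∈ W ∨ rV u v) := by
    intro u v h1
    induction h1 with
    | rel a b h1 =>
      rcases h1 with h1 | ⟨e, rfl, e', h1, rfl⟩
      · exact ⟨h.fV _ _ h1, ⟨h.aV _ _ h1, h.aV _ _ (h.eV.symm h1)⟩, Or.inr h1⟩
      · rw [hnrpt _ e h1.1.2.1 h1.1.2.2.1, hnrpt _ e' h1.2.1 h1.2.2.1, hcpt _ _ h1, inv_smul_smul]
        exact ⟨rfl, iff_of_true (hnrV _ _ h1.1.2.1) (hnrV _ _ h1.2.1), Or.inl h1.2.2.2⟩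
    | refl a => exact ⟨rfl, Iff.rfl, Or.inr (h.eV.refl _)⟩
    | symm a b _ ih => exact ⟨ih.1.symm, ih.2.1.symm, ih.2.2.imp (fun h1 => ih.1 ▸ h1) h.eV.symm⟩
    | trans a b c _ _ ih1 ih2 =>
      refine ⟨ih1.1.trans ih2.1, ih1.2.1.trans ih2.2.1, ?_⟩
      rcases ih1.2.2 with h1 | h1
      · exact Or.inl h1
      · exact ih2.2.2.imp (fun h2 => ih1.1 ▸ h2) (h.eV.trans h1)
  have hnrE' : ∀ d' u v, rE' u v → rV' (T.nr d' u) (T.nr d' v) := by
    rintro d' u v (h1 | h1)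
    · exact hle _ _ (hnrE d' _ _ h1)
    · by_cases hd : d' = d
      · subst hd; exact hle _ _ h1.1.1
      · have : d' = !d := by cases d <;> cases d' <;> simp_all
        subst this
        exact .rel _ _ (Or.inr ⟨u, rfl, v, h1, rfl⟩)
  have aE' : ∀ u v, rE' u v → u ∈ T.Ed → v ∈ T.Ed := fun u v h1 h2 =>
    h1.elim (fun h1 => h.aE _ _ h1 h2) fun h1 => h1.2.1
  refine ⟨rV', rE', ⟨eV', eE', mV', mE', fun u v h1 => (hloc u v h1).1, fE',
    fun u v h1 => (hloc u v h1).2.1.1, aE', ?_, hnrE' true, hnrE' false, ?_⟩, hle, ?_,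
    (gg (!d))⁻¹, fun u v h1 => (hloc u v h1).2.2⟩
  · rintro u v (h1 | h1)
    · exact h.lE _ _ h1
    · exact h1.1.2.2.1.trans h1.2.2.1.symm
  · obtain ⟨pV, pV1, pV2, pV3, pV4, pV5⟩ := exists_rep h.mV h.eV h.fV
    obtain ⟨pE, pE1, pE2, pE3, pE4, pE5⟩ := exists_rep h.mE h.eE h.fE
    obtain ⟨qV, qV1, qV2, qV3, qV4, qV5⟩ := exists_rep mV' eV' fun u v h1 => (hloc u v h1).1
    obtain ⟨qE, qE1, qE2, qE3, qE4, qE5⟩ := exists_rep mE' eE' fE'
    have sV : Rep rV' ⊆ Rep rV := Rep.anti hle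
    have sE : Rep rE' ⊆ Rep rE := Rep.anti fun u v h1 => Or.inl h1
    have mRE : MeasurableSet (T.Ed ∩ Rep rE) := hT.mE.inter (measurableSet_rep h.mE)
    have mRV : MeasurableSet (T.V ∩ Rep rV) := hT.mV.inter (measurableSet_rep h.mV)
    have h1 : nu μ ((T.V ∩ Rep rV) \ Rep rV') ≤ nu μ ((T.Ed ∩ Rep rE) \ Rep rE') := by
      refine bfs_count μ (mRE.diff (measurableSet_rep mE')) (pV1.comp (hnr (!d)))
        (pV1.comp ((hnr (!d)).comp qE1)) (mRV.diff (measurableSet_rep mV')) (fun _ _ => False)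
        (fun _ _ h => h.elim) ?_
      intro p hp
      refine ⟨qV p, fun h1 => h1.2 (qV3 p), ?_⟩
      rw [← pV5 p hp.1.2, ← pV5 (qV (pV p)) (sV (qV3 _))]
      refine eqvGen_map' pV ?_ ((eV'.trans (qV2 p) (by rw [pV5 p hp.1.2]; exact eV'.refl _)))
      have aux : ∀ e ∈ T.Ed, EqvGen (fun u v => Edge ((T.Ed ∩ Rep rE) \ Rep rE')
          (fun v => pV (T.nr (!d) v)) (fun v => pV (T.nr (!d) (qE v))) u v ∨ False)
          (pV (T.nr (!d) e)) (pV (T.nr (!d) (qE e))) := by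
        intro e he
        rw [pV4 _ _ (hnrE _ _ _ (pE2 e)), qE4 _ _ (Or.inl (pE2 e))]
        by_cases h2 : pE e ∈ Rep rE'
        · rw [qE5 _ h2]; exact .refl _
        · exact .rel _ _ (Or.inl ⟨pE e, ⟨⟨h.aE _ _ (pE2 e) he, pE3 e⟩, h2⟩, rfl, rfl⟩)
      rintro a b (h2 | ⟨e, rfl, e', h2, rfl⟩)
      · rw [pV4 _ _ h2]; exact .refl _
      · refine .trans _ _ _ (aux e h2.1.2.1) ?_
        rw [qE4 _ _ (Or.inr h2)]
        exact .symm _ _ (aux e' h2.2.1)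
    have h2 := h.count
    have hfin : nu μ ((T.Ed ∩ Rep rE) \ Rep rE') ≠ ∞ := by
      have h5 : nu μ (T.V ∩ Rep rV) ≠ ∞ :=
        ne_top_of_le_ne_top hT.fin (measure_mono inter_subset_left)
      refine ne_top_of_le_ne_top (b := nu μ (T.V ∩ Rep rV) + 1 + ε) (by finiteness)
        (le_trans ?_ h2)
      exact (measure_mono diff_subset).trans le_add_self
    rw [← measure_inter_add_sdiff (T.Ed ∩ Rep rE) (measurableSet_rep mE'),
      ← measure_inter_add_sdiff (T.V ∩ Rep rV) (measurableSet_rep mV'), inter_assoc,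
      inter_eq_self_of_subset_right sE, inter_assoc, inter_eq_self_of_subset_right sV] at h2
    refine ENNReal.le_of_add_le_add_left hfin ?_
    calc _ = nu μ T.E0 + (nu μ (T.Ed ∩ Rep rE') + nu μ ((T.Ed ∩ Rep rE) \ Rep rE')) := by ring
      _ ≤ _ := h2
      _ ≤ nu μ (T.V ∩ Rep rV') + nu μ ((T.Ed ∩ Rep rE) \ Rep rE') + 1 + ε := by gcongr
      _ = _ := by ring
  · intro e he e' he' h1 h2 h3 h4
    have h5 : e.pt = e'.pt := by
      have := h.fV _ _ h4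
      rw [hnrpt d e he h1, hnrpt d e' he' h2] at this
      exact MulAction.injective _ this
    exact hnrE' _ _ _ (Or.inr ⟨⟨h4, he, h1, h3⟩, he', h2, h5 ▸ h3⟩)

end Crest.Agent.Cost
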