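import Crest.Agent.Cost.Maps

/-! The breadth-first forest lemma, the marker lemma and representatives. -/

set_option autoImplicit false

open MeasureTheory Set Relation
open scoped ENNReal

namespace Crest.Agent.Cost

variable {Γ X : Type} [Group Γ] [MulAction Γ X] [MeasurableSpace X]
variable {I J K L : Type}
variable [Countable Γ] [MeasurableConstSMul Γ X] [IsCancelSMul Γ X]
variable (μ : Measure X) [SMulInvariantMeasure Γ X μ]

/-- The edge relation of a family of edge cells. -/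
def Edge (Ed : Set (Cell X J)) (s t : Cell X J → Cell X I) (u v : Cell X I) : Prop :=
  ∃ e ∈ Ed, s e = u ∧ t e = v

/-- Distance at most `n` to the complement of `P`. -/
def Reach {α : Type} (adj : α → α → Prop) (P : Set α) : ℕ → α → Prop
  | 0, v => v ∉ P
  | n + 1, v => Reach adj P n v ∨ ∃ w, adj v w ∧ Reach adj P n w

theorem Reach.mono {α : Type} {adj : α → α → Prop} {P : Set α} {n m : ℕ} {v : α}
    (h : Reach adj P n v) (hnm : n ≤ m) : Reach adj P m v := by
  induction hnm with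
  | refl => exact h
  | step _ ih => exact Or.inl ih

theorem bfs [Countable I] [Countable J] [Nonempty J] {Ed : Set (Cell X J)}
    (hEd : MeasurableSet Ed) {s t : Cell X J → Cell X I} (hs : CM Γ s) (ht : CM Γ t)
    {P : Set (Cell X I)} (hP : MeasurableSet P) (extra : Cell X I → Cell X I → Prop)
    (hextra : ∀ u v, extra u v → u ∉ P ∧ v ∉ P)
    (hconn : ∀ p ∈ P, ∃ w ∉ P, EqvGen (fun u v => Edge Ed s t u v ∨ extra u v) p w) :
    ∃ (Del : Set (Cell X J)) (β : Cell X I → Cell X I), MeasurableSet Del ∧ Del ⊆ Ed ∧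
      CM Γ β ∧ (∀ v ∉ P, β v = v) ∧ (∀ v, β v ∉ P) ∧ (∀ v, EqvGen (Edge Ed s t) v (β v)) ∧
      (∀ e ∈ Del, β (s e) = β (t e)) ∧ nu μ P ≤ nu μ Del := by
  classical
  let adj : Cell X I → Cell X I → Prop := fun u v => Edge Ed s t u v ∨ Edge Ed s t v u
  have hE : MOR Γ (Edge Ed s t) := MOR.edge hEd hs ht
  have hadj : MOR Γ adj := hE.or hE.flip
  have hRm : ∀ n, MeasurableSet {v | Reach adj P n v} := by
    intro n
    induction n with
    | zero => exact hP.compl
    | succ n ih => exact ih.union (hadj.sat ih)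
  have hR : ∀ v, ∃ n, Reach adj P n v := by
    intro v
    by_cases hv : v ∈ P
    · obtain ⟨w, hw, h⟩ := hconn v hv
      rw [eqvGen_iff_rtg] at h
      clear hv
      induction h using ReflTransGen.head_induction_on with
      | refl => exact ⟨0, hw⟩
      | head h1 _ ih =>
        obtain ⟨n, hn⟩ := ih
        rcases h1 with (h1 | h1) | (h1 | h1)
        · exact ⟨n + 1, Or.inr ⟨_, Or.inl h1, hn⟩⟩
        · exact ⟨0, (hextra _ _ h1).1⟩
        · exact ⟨n + 1, Or.inr ⟨_, Or.inr h1, hn⟩⟩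
        · exact ⟨0, (hextra _ _ h1).2⟩
    · exact ⟨0, hv⟩
  let d : Cell X I → ℕ := fun v => Nat.find (hR v)
  have hd : ∀ v n, d v ≤ n ↔ Reach adj P n v := fun v n =>
    ⟨fun h => (Nat.find_spec (hR v)).mono h, fun h => Nat.find_min' _ h⟩
  -- parent edges
  let Rel : Cell X I → Cell X J → Prop := fun p e => e ∈ Ed ∧ ∃ n, ¬ Reach adj P n p ∧
    ((p = s e ∧ Reach adj P n (t e)) ∨ (p = t e ∧ Reach adj P n (s e)))
  have hRel : MOR Γ Rel := by
    refine MOR.and' (MR.right hEd) (MOR.exists_ fun n => MOR.and' (MR.left (hRm n).compl) ?_)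
    exact ((MOR.flip hs).and (MR.right (ht.preimage (hRm n)))).or
      ((MOR.flip ht).and (MR.right (hs.preimage (hRm n))))
  have hRex : ∀ p ∈ P, ∃ e, Rel p e := by
    intro p hp
    have h0 : d p ≠ 0 := fun h => (hd p 0).1 h.le hp
    obtain ⟨n, hn⟩ := Nat.exists_eq_succ_of_ne_zero h0
    have h1 : ¬ Reach adj P n p := fun h => by have := (hd p n).2 h; omega
    rcases (hd p (n + 1)).1 hn.le with h | ⟨w, ⟨e, he, rfl, rfl⟩ | ⟨e, he, rfl, rfl⟩, hw⟩
    · exact absurd h h1
    · exact ⟨e, he, n, h1, Or.inl ⟨rfl, hw⟩⟩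
    · exact ⟨e, he, n, h1, Or.inr ⟨rfl, hw⟩⟩
  obtain ⟨pe, hpe, hpe'⟩ := hRel.choice
  have hm1 : MeasurableSet {p | p ∈ P ∧ s (pe p) = p} :=
    hP.inter ((hs.comp hpe).measurableSet_eq CM.id)
  let par : Cell X I → Cell X I := fun p =>
    if p ∈ {p | p ∈ P ∧ s (pe p) = p} then t (pe p) else if p ∈ P then s (pe p) else p
  have hpar : CM Γ par := CM.ite hm1 (ht.comp hpe) (CM.ite hP (hs.comp hpe) CM.id)
  have hpar0 : ∀ v ∉ P, par v = v := fun v hv => by simp [par, hv]
  have hkey : ∀ p ∈ P, pe p ∈ Ed ∧ d (par p) < d p ∧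
      ((p = s (pe p) ∧ par p = t (pe p)) ∨ (p = t (pe p) ∧ par p = s (pe p))) := by
    intro p hp
    obtain ⟨he, n, h1, h2⟩ := hpe' p (hRex p hp)
    have h3 : n < d p := by rw [← hd] at h1; omega
    by_cases h : s (pe p) = p
    · have h4 : par p = t (pe p) := by simp [par, hp, h]
      refine ⟨he, ?_, Or.inl ⟨h.symm, h4⟩⟩
      rcases h2 with h2 | h2
      · rw [h4]; exact lt_of_le_of_lt ((hd _ _).2 h2.2) h3
      · exact absurd (h ▸ h2.2) h1
    · have h4 : par p = s (pe p) := by simp [par, hp, h]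
      rcases h2 with h2 | h2
      · exact absurd h2.1.symm h
      · exact ⟨he, by rw [h4]; exact lt_of_le_of_lt ((hd _ _).2 h2.2) h3, Or.inr ⟨h2.1, h4⟩⟩
  have hit : ∀ n v, d v ≤ n → par^[n] v ∉ P := by
    intro n
    induction n with
    | zero => intro v hv; exact (hd v 0).1 hv
    | succ n ih =>
      intro v hv
      rw [Function.iterate_succ_apply]
      by_cases h : v ∈ P
      · exact ih _ (by have := (hkey v h).2.1; omega)
      · rw [hpar0 v h]; exact ih _ (((hd v 0).2 h).trans (Nat.zero_le _))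
  have hstab : ∀ n m v, par^[n] v ∉ P → par^[m] v ∉ P → par^[n] v = par^[m] v := by
    have : ∀ n k v, par^[n] v ∉ P → par^[k + n] v = par^[n] v := fun n k v h => by
      rw [Function.iterate_add_apply]; exact Function.iterate_fixed (hpar0 _ h) k
    intro n m v h1 h2
    rcases le_total n m with h | h
    · obtain ⟨k, rfl⟩ := Nat.exists_eq_add_of_le' h; exact (this _ _ _ h1).symm
    · obtain ⟨k, rfl⟩ := Nat.exists_eq_add_of_le' h; exact this _ _ _ h2
  have hitm : ∀ n, CM Γ (par^[n]) := by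
    intro n
    induction n with
    | zero => exact CM.id
    | succ n ih => exact ih.comp hpar
  let β : Cell X I → Cell X I := fun v => par^[d v] v
  have hβP : ∀ v, β v ∉ P := fun v => hit _ v le_rfl
  have hβpar : ∀ v, β (par v) = β v := fun v =>
    hstab (d (par v) + 1) _ v (hβP (par v)) (hβP v)
  refine ⟨pe '' P, β, hpe.image hP, ?_, ?_, ?_, hβP, ?_, ?_, ?_⟩
  · rintro _ ⟨p, hp, rfl⟩; exact (hkey p hp).1
  · refine (MOR.exists_ fun n => MOR.and (hitm n) (MR.right hP.compl)).congr fun v w => ?_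
    constructor
    · rintro rfl; exact ⟨d v, rfl, hβP v⟩
    · rintro ⟨n, rfl, h⟩; exact hstab _ _ _ h (hβP v)
  · intro v hv; exact Function.iterate_fixed (hpar0 v hv) _
  · intro v
    have : ∀ n, EqvGen (Edge Ed s t) v (par^[n] v) := by
      intro n
      induction n with
      | zero => exact .refl _
      | succ n ih =>
        rw [Function.iterate_succ_apply']
        refine ih.trans _ _ _ ?_
        generalize par^[n] v = w
        by_cases h : w ∈ P
        · obtain ⟨he, -, h2 | h2⟩ := hkey w h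
          · exact .rel _ _ ⟨_, he, h2.1.symm, h2.2.symm⟩
          · exact .symm _ _ (.rel _ _ ⟨_, he, h2.2.symm, h2.1.symm⟩)
        · rw [hpar0 w h]; exact .refl _
    exact this _
  · rintro _ ⟨p, hp, rfl⟩
    obtain ⟨-, -, h2 | h2⟩ := hkey p hp
    · rw [← h2.1, ← h2.2, hβpar]
    · rw [← h2.1, ← h2.2, hβpar]
  · refine hpe.nu_le μ hP (hpe.image hP) ?_ (mapsTo_image _ _)
    intro p hp q hq he
    obtain ⟨-, h1, h2⟩ := hkey p hp
    obtain ⟨-, h3, h4⟩ := hkey q hq
    rw [← he] at h4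
    rcases h2 with h2 | h2 <;> rcases h4 with h4 | h4
    · exact h2.1.trans h4.1.symm
    · rw [h2.2, ← h4.1] at h1; rw [h4.2, ← h2.1] at h3; omega
    · rw [h2.2, ← h4.1] at h1; rw [h4.2, ← h2.1] at h3; omega
    · exact h2.1.trans h4.1.symm

theorem bfs_count [Countable I] [Countable J] [Nonempty J] {Ed : Set (Cell X J)}
    (hEd : MeasurableSet Ed) {s t : Cell X J → Cell X I} (hs : CM Γ s) (ht : CM Γ t)
    {P : Set (Cell X I)} (hP : MeasurableSet P) (extra : Cell X I → Cell X I → Prop)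
    (hextra : ∀ u v, extra u v → u ∉ P ∧ v ∉ P)
    (hconn : ∀ p ∈ P, ∃ w ∉ P, EqvGen (fun u v => Edge Ed s t u v ∨ extra u v) p w) :
    nu μ P ≤ nu μ Ed := by
  obtain ⟨Del, β, -, h1, -, -, -, -, -, h2⟩ := bfs μ hEd hs ht hP extra hextra hconn
  exact h2.trans (measure_mono h1)

end Crest.Agent.Cost
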