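import Crest.Agent.Cost.Lower

/-! The group `F(a,b) *_E (E × ℤ)` with `E = ⟨ab, a²b⁻¹⟩`. -/

set_option autoImplicit false

open HNNExtension HNNExtension.NormalWord

namespace Crest.Agent.Cost

abbrev F2 := FreeGroup Bool

def E0 : Subgroup F2 := Subgroup.closure
  {FreeGroup.of false * FreeGroup.of true, FreeGroup.of false * FreeGroup.of false * (FreeGroup.of true)⁻¹}

abbrev Gam := HNNExtension F2 E0 E0 (MulEquiv.refl E0)

def ofF : F2 →* Gam := HNNExtension.of
def gen (l : Bool) : Gam := ofF (FreeGroup.of l)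
def zz : Gam := HNNExtension.t
def EE : Subgroup Gam := E0.map ofF
def BB : Subgroup Gam := ofF.range
def AA : Subgroup Gam := EE ⊔ Subgroup.zpowers zz

theorem ofF_inj : Function.Injective ofF := HNNExtension.of_injective _

theorem EE_eq : EE = Subgroup.closure {gen false * gen true, gen false * gen false * (gen true)⁻¹} := by
  simp [EE, E0, MonoidHom.map_closure, Set.image_insert_eq, gen]

theorem zz_comm {e : Gam} (he : e ∈ EE) : Commute zz e := by
  obtain ⟨x, hx, rfl⟩ := he
  exact HNNExtension.t_mul_of (φ := MulEquiv.refl E0) ⟨x, hx⟩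

theorem mem_AA {g : Gam} (hg : g ∈ AA) : ∃ e ∈ EE, ∃ n : ℤ, g = e * zz ^ n := by
  let S : Subgroup Gam :=
    { carrier := {g | ∃ e ∈ EE, ∃ n : ℤ, g = e * zz ^ n}
      one_mem' := ⟨1, EE.one_mem, 0, by simp⟩
      mul_mem' := by
        rintro _ _ ⟨e, he, n, rfl⟩ ⟨e', he', n', rfl⟩
        refine ⟨e * e', EE.mul_mem he he', n + n', ?_⟩
        rw [zpow_add, mul_assoc, ← mul_assoc (zz ^ n), ((zz_comm he').zpow_left n).eq]
        simp [mul_assoc]
      inv_mem' := by
        rintro _ ⟨e, he, n, rfl⟩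
        refine ⟨e⁻¹, EE.inv_mem he, -n, ?_⟩
        rw [mul_inv_rev, ← zpow_neg, ((zz_comm (EE.inv_mem he)).zpow_left _).eq] }
  have : AA ≤ S := sup_le (fun e he => ⟨e, he, 0, by simp⟩) (by
    rintro _ ⟨n, rfl⟩; exact ⟨1, EE.one_mem, n, by simp⟩)
  exact this hg

theorem AA_sup_BB : AA ⊔ BB = ⊤ := by
  rw [eq_top_iff]
  intro g _
  induction g using HNNExtension.induction_on with
  | of g => exact Subgroup.mem_sup_right ⟨g, rfl⟩
  | t => exact Subgroup.mem_sup_left (Subgroup.mem_sup_right (Subgroup.mem_zpowers _))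
  | mul x y hx hy => exact mul_mem (hx trivial) (hy trivial)
  | inv x hx => exact inv_mem (hx trivial)

/-- Height homomorphisms. -/
def hgt {C : Type} [CommGroup C] (α : Bool → C) (τ : C) : Gam →* C :=
  HNNExtension.lift (FreeGroup.lift α) τ fun _ => mul_comm _ _

@[simp] theorem hgt_gen {C : Type} [CommGroup C] (α : Bool → C) (τ : C) (l : Bool) :
    hgt α τ (gen l) = α l := by simp [hgt, gen, ofF]

@[simp] theorem hgt_zz {C : Type} [CommGroup C] (α : Bool → C) (τ : C) : hgt α τ zz = τ := by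
  simp [hgt, zz]

theorem zz_inj : Function.Injective fun n : ℕ => zz ^ n := by
  intro n m h
  have := congrArg (hgt (fun _ => (1 : Multiplicative ℤ)) (Multiplicative.ofAdd 1)) h
  simpa [← ofAdd_nsmul] using this

theorem gen_notMem_AA : gen false ∉ AA := by
  let h := hgt (fun l => Multiplicative.ofAdd (cond l 2 1 : ZMod 3)) 1
  have : AA ≤ h.ker := by
    refine sup_le ?_ ?_
    · rw [EE_eq, Subgroup.closure_le]
      rintro _ (rfl | rfl) <;> simp [h] <;> decide
    · rw [Subgroup.zpowers_le]; simp [h]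
  intro h1
  have h2 := this h1
  simp only [MonoidHom.mem_ker, h, hgt_gen] at h2
  revert h2; decide

theorem wp_eq (L : List (Bool × Bool)) : wp gen L = ofF (FreeGroup.mk L.reverse) := by
  induction L with
  | nil => simp [wp, ← FreeGroup.one_eq_mk]
  | cons x L ih =>
    rw [wp, ih, List.reverse_cons, ← FreeGroup.mul_mk, map_mul]
    obtain ⟨l, _ | _⟩ := x
    · simp [sgen, gen, ← map_inv, FreeGroup.of, FreeGroup.inv_mk, FreeGroup.invRev]
    · rfl

theorem BB_wp (g : Gam) (hg : g ∈ BB) : ∃ L, wp gen L = g := by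
  obtain ⟨x, rfl⟩ := hg
  exact ⟨x.toWord.reverse, by simp [wp_eq, FreeGroup.mk_toWord]⟩

theorem wp_free (L : List (Bool × Bool)) (h : wp gen L = 1) :
    L = [] ∨ ∃ L1 L2 l d, L = L1 ++ (l, d) :: (l, !d) :: L2 := by
  rw [wp_eq, ← map_one ofF] at h
  have h1 := ofF_inj h
  by_cases hr : FreeGroup.IsReduced L.reverse
  · left
    have := congrArg FreeGroup.toWord h1
    rw [FreeGroup.toWord_mk, hr.reduce_eq, FreeGroup.toWord_one] at this
    simpa using this
  · right
    rw [FreeGroup.isReduced_iff_not_step] at hr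
    push Not at hr
    obtain ⟨L', hL⟩ := hr
    generalize hM : L.reverse = M at hL
    cases hL with
    | @not L1 L2 x b =>
      exact ⟨L2.reverse, L1.reverse, x, !b, by rw [← L.reverse_reverse, hM]; simp⟩

theorem nf_step {c : Bool} {g : Gam} (hg : g ∈ cond c BB AA) (hE : g ∉ EE)
    (w : ReducedWord F2 E0 E0) (hw : cond c (w.head ∈ E0) (w.toList = [] ∨ w.head ∉ E0)) :
    ∃ w1 : ReducedWord F2 E0 E0, w1.prod (MulEquiv.refl E0) = g * w.prod (MulEquiv.refl E0) ∧
      cond (!c) (w1.head ∈ E0) (w1.toList = [] ∨ w1.head ∉ E0) ∧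
      (w1.toList = [] → w.toList = [] ∧ c = true) := by
  cases c
  · obtain ⟨e, ⟨x, hx, rfl⟩, n, rfl⟩ := mem_AA hg
    have hn : n ≠ 0 := by rintro rfl; exact hE (by simpa using ⟨x, hx, rfl⟩)
    have key : ∀ (u : ℤˣ) (m : ℕ), ∃ w1 : ReducedWord F2 E0 E0,
        w1.prod (MulEquiv.refl E0) = zz ^ ((u : ℤ) * (m + 1 : ℕ)) * w.prod (MulEquiv.refl E0) ∧
        w1.head = 1 ∧ ∃ y l, w1.toList = (u, y) :: l := by
      intro u m
      induction m with
      | zero =>
        refine ⟨⟨1, (u, w.head) :: w.toList, ?_⟩, by simp [ReducedWord.prod, zz, mul_assoc],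
          rfl, _, _, rfl⟩
        rw [List.isChain_cons]
        refine ⟨fun y hy h => ?_, w.chain⟩
        rcases hw with hw | hw
        · simp [hw] at hy
        · rcases Int.units_eq_one_or u with rfl | rfl <;> exact absurd h hw
      | succ m ih =>
        obtain ⟨w1, h1, h2, y, l, h3⟩ := ih
        refine ⟨⟨1, (u, 1) :: w1.toList, ?_⟩, ?_, rfl, _, _, rfl⟩
        · rw [List.isChain_cons]
          refine ⟨fun y hy _ => ?_, w1.chain⟩
          simp only [h3, List.head?_cons, Option.mem_def, Option.some.injEq] at hy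
          rw [← hy]
        · have : (u : ℤ) * (m + 1 + 1 : ℕ) = u + u * (m + 1 : ℕ) := by push_cast; ring
          rw [this, zpow_add, mul_assoc, ← h1]
          simp [ReducedWord.prod, zz, h2]
    obtain ⟨u, m, rfl⟩ : ∃ (u : ℤˣ) (m : ℕ), n = u * (m + 1 : ℕ) := by
      rcases lt_or_gt_of_ne hn with h | h
      · exact ⟨-1, (-n - 1).toNat, by simp; omega⟩
      · exact ⟨1, (n - 1).toNat, by simp; omega⟩
    obtain ⟨w1, h1, h2, y, l, h3⟩ := key u m
    refine ⟨⟨x, w1.toList, w1.chain⟩, ?_, hx, by simp [h3]⟩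
    rw [mul_assoc, ← h1]
    simp [ReducedWord.prod, h2, ofF]
  · obtain ⟨x, rfl⟩ := hg
    refine ⟨⟨x * w.head, w.toList, w.chain⟩, by simp [ReducedWord.prod, ofF, mul_assoc],
      Or.inr fun h => hE ⟨x, (E0.mul_mem_cancel_right hw).1 h, rfl⟩, fun h => ⟨h, rfl⟩⟩

theorem nf_word (k : ℕ) {c : Bool} {g : Gam} (hg : NF (fun c => cond c BB AA) EE k c g)
    (w : ReducedWord F2 E0 E0) (hw : cond c (w.head ∈ E0) (w.toList = [] ∨ w.head ∉ E0)) :
    ∃ w1 : ReducedWord F2 E0 E0, w1.prod (MulEquiv.refl E0) = g * w.prod (MulEquiv.refl E0) ∧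
      (w1.toList = [] → w.toList = [] ∧ c = true ∧ k = 0) := by
  induction k generalizing c g w with
  | zero =>
    obtain ⟨w1, h1, -, h2⟩ := nf_step hg.1 hg.2 w hw
    exact ⟨w1, h1, fun h => ⟨(h2 h).1, (h2 h).2, rfl⟩⟩
  | succ k ih =>
    obtain ⟨g1, g', rfl, h1, h2, h3⟩ := hg
    obtain ⟨w1, h4, h5, h6⟩ := nf_step h1 h2 w hw
    obtain ⟨w2, h7, h8⟩ := ih h3 w1 h5
    refine ⟨w2, by rw [h7, h4, mul_assoc], fun h => ?_⟩
    obtain ⟨h9, h10, -⟩ := h8 h
    simp [(h6 h9).2] at h10

theorem not_nf (k : ℕ) (c : Bool) : ¬ NF (fun c => cond c BB AA) EE (k + 1) c (gen false) := by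
  intro h
  obtain ⟨w, h1, h2⟩ := nf_word _ h (ReducedWord.empty F2 E0 E0) (by cases c <;> simp)
  have := ReducedWord.toList_eq_nil_of_mem_of_range (MulEquiv.refl E0) w
    ⟨FreeGroup.of false, by rw [h1]; simp [ReducedWord.prod, gen, ofF]⟩
  simpa using (h2 this).2.2

theorem closure_gens : Subgroup.closure {gen false, gen true, zz} = ⊤ := by
  rw [eq_top_iff]
  intro g _
  induction g using HNNExtension.induction_on with
  | of g =>
    induction g using FreeGroup.induction_on with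
    | C1 => simp
    | of l => cases l <;> exact Subgroup.subset_closure (by simp [gen, ofF])
    | inv_of l h => rw [map_inv]; exact inv_mem (h trivial)
    | mul x y hx hy => rw [map_mul]; exact mul_mem (hx trivial) (hy trivial)
  | t => exact Subgroup.subset_closure (by simp [zz])
  | mul x y hx hy => exact mul_mem (hx trivial) (hy trivial)
  | inv x hx => exact inv_mem (hx trivial)

instance : Group.FG Gam := Group.fg_iff.2 ⟨_, closure_gens, by simp⟩

instance : Countable Gam := by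
  let f : FreeGroup (Fin 3) →* Gam := FreeGroup.lift ![gen false, gen true, zz]
  have : f.range = ⊤ := by
    rw [eq_top_iff, ← closure_gens, Subgroup.closure_le]
    rintro _ (rfl | rfl | rfl)
    exacts [⟨.of 0, by simp [f]⟩, ⟨.of 1, by simp [f]⟩, ⟨.of 2, by simp [f]⟩]
  exact (MonoidHom.range_eq_top.1 this).countable

end Crest.Agent.Cost
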