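import Crest.Agent.Cost.Bern
import Crest.Agent.Cost.Group

/-! The free part of the Bernoulli shift and the lower bound for its cost. -/

set_option autoImplicit false

open MeasureTheory Set
open scoped ENNReal

namespace Crest.Agent.Cost

section
variable (Γ : Type) [Group Γ]

def fr : Set (Γ → ZMod 2) := {x | ∀ g : Γ, g ≠ 1 → sh g x ≠ x}

instance : MulAction Γ (fr Γ) where
  smul g x := ⟨sh g x.1, fun h hh e => x.2 (g⁻¹ * h * g)
    (fun e => hh (by simpa [mul_eq_one_iff_eq_inv, inv_mul_eq_iff_eq_mul] using e))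
    (by rw [sh_mul, sh_mul, e, ← sh_mul]; simp [sh_one])⟩
  one_smul x := Subtype.ext (sh_one _)
  mul_smul g h x := Subtype.ext (sh_mul _ _ _)

theorem fr_smul (g : Γ) (x : fr Γ) : (g • x).1 = sh g x.1 := rfl

instance : IsCancelSMul Γ (fr Γ) where
  right_cancel' g h x e := by
    by_contra hne
    refine x.2 (h⁻¹ * g) (by simpa [inv_mul_eq_one, eq_comm] using hne) ?_
    rw [sh_mul, ← fr_smul, e, fr_smul, ← sh_mul]; simp [sh_one]

variable [Countable Γ]

theorem fr_meas : MeasurableSet (fr Γ) := by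
  simp only [fr, ofPred_forall]
  exact .iInter fun g => .iInter fun _ =>
    (isClosed_eq (sh_cont g) continuous_id).measurableSet.compl

instance : MeasurableConstSMul Γ (fr Γ) :=
  ⟨fun g => ((sh_mp g).measurable.comp measurable_subtype_coe).subtype_mk⟩

instance : StandardBorelSpace (fr Γ) := (fr_meas Γ).standardBorel

noncomputable def frm : Measure (fr Γ) := (coin Γ).comap Subtype.val

variable [Infinite Γ]

theorem fr_ae : ∀ᵐ x ∂coin Γ, x ∈ fr Γ :=
  ae_all_iff.2 fun g => by
    by_cases hg : g = 1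
    · simp [hg]
    · simpa [hg, ae_iff] using fix_null hg

theorem fr_mp : MeasurePreserving Subtype.val (frm Γ) (coin Γ) := by
  have := measurePreserving_subtype_coe (μa := coin Γ) (fr_meas Γ)
  rwa [Measure.restrict_eq_self_of_ae_mem (fr_ae Γ)] at this

instance : IsProbabilityMeasure (frm Γ) :=
  ⟨by simpa using (fr_mp Γ).measure_preimage (s := univ) .univ⟩

variable {Γ}
omit [Infinite Γ] in
theorem fr_set {D : Set (fr Γ)} (hD : MeasurableSet D) :
    ∃ D', MeasurableSet D' ∧ D = Subtype.val ⁻¹' D' :=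
  ⟨_, (fr_meas Γ).subtype_image hD, (preimage_image_eq _ Subtype.val_injective).symm⟩

instance : SMulInvariantMeasure Γ (fr Γ) (frm Γ) := ⟨fun g D0 hD0 => by
  obtain ⟨D, hD, rfl⟩ := fr_set hD0
  exact (((sh_mp g).comp (fr_mp Γ)).measure_preimage hD.nullMeasurableSet).trans
    ((fr_mp Γ).measure_preimage hD.nullMeasurableSet).symm⟩

end

instance : Infinite Gam := .of_injective _ zz_inj

theorem cost_lower : 1 + ENNReal.ofReal (1 / 20000) ≤
    Crest.Dynamics.actionCost Gam (fr Gam) (frm Gam) := by
  refine le_sInf ?_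
  rintro _ ⟨Φ, hΦ, rfl⟩
  by_contra hc
  have hi : Function.Injective fun j : Fin 16 => zz ^ (j : ℕ) := zz_inj.comp Fin.val_injective
  have := lower_bound (frm Gam) EE_eq le_sup_left (Subgroup.map_le_range _ _) AA_sup_BB
    (Subgroup.mem_sup_right (Subgroup.mem_zpowers zz)) zz_inj gen_notMem_AA not_nf BB_wp wp_free
    (f := fun x : fr Gam => fun j : Fin 16 => x.1 (zz ^ (j : ℕ)))
    (c := ENNReal.ofReal (1 / 8)) (θ := ENNReal.ofReal (1 / 16)) (ε := ENNReal.ofReal (1 / 20000))
    (δ := ENNReal.ofReal (1 / 2000)) (by simp) (by simp) (by simp) (fun k => ?_) (fun k => ?_)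
    (fun D0 hD0 h1 h2 => ?_) hΦ (not_le.1 hc).le
  · have := ENNReal.toReal_mono (by finiteness) this
    rw [ENNReal.toReal_add (by finiteness) (by finiteness)] at this
    norm_num [ENNReal.toReal_ofReal] at this
  · exact measurable_subtype_coe (isClosed_eq (f := fun x : Gam → ZMod 2 => fun j : Fin 16 =>
      x (zz ^ (j : ℕ))) (by fun_prop) continuous_const).measurableSet
  · have h := fiber_le hi k
    refine ((fr_mp Gam).measure_preimage (s := {x | (fun j : Fin 16 => x (zz ^ (j : ℕ))) = k})
      (isClosed_eq (by fun_prop) continuous_const).measurableSet.nullMeasurableSet).trans_le ?_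
    rw [← ofReal_measureReal]
    exact ENNReal.ofReal_le_ofReal (by push_cast at h; linarith)
  · obtain ⟨D, hD, rfl⟩ := fr_set hD0
    clear hD0
    have h3 := bern_gap ofF ofF_inj hD
    have hm : MeasurableSet (D ∩ sh (gen false) ⁻¹' D ∩ sh (gen true) ⁻¹' D) :=
      (hD.inter ((sh_mp _).measurable hD)).inter ((sh_mp _).measurable hD)
    have h4 := (fr_mp Gam).measure_preimage hm.nullMeasurableSet
    change _ ≤ frm Gam (Subtype.val ⁻¹' (D ∩ sh (gen false) ⁻¹' D ∩ sh (gen true) ⁻¹' D)) + _ at h1
    rw [(fr_mp Gam).measure_preimage hD.nullMeasurableSet] at h1 h2 ⊢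
    rw [h4] at h1
    replace h1 := ENNReal.toReal_mono (by finiteness) h1
    replace h2 := ENNReal.toReal_mono (by finiteness) h2
    rw [ENNReal.toReal_add (by finiteness) (by finiteness)] at h1 h2
    rw [ENNReal.toReal_add (by finiteness) (by finiteness)] at h1
    norm_num [ENNReal.toReal_ofReal] at h1 h2
    rw [← ofReal_measureReal]
    refine ENNReal.ofReal_le_ofReal ?_
    simp only [Measure.real, gen] at *
    by_contra h
    nlinarith

end Crest.Agent.Cost
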