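import Crest.Agent.Cost.Bridge2

/-! The abstract lower bound for the cost. -/

set_option autoImplicit false

open MeasureTheory Set Relation Filter Topology
open scoped ENNReal

namespace Crest.Agent.Cost

variable {Γ X : Type} [Group Γ] [MulAction Γ X] [MeasurableSpace X]
variable {I J : Type}

omit [MeasurableSpace X] in
theorem base_line {S : Gr X I J} {gen : Bool → Γ} {wd : Γ → List (Bool × Bool)} {K : ℕ} {o : I}
    {e : Γ} (he : e ∈ Subgroup.closure {gen false * gen true, gen false * gen false * (gen true)⁻¹})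
    (x : X) : EqvGen (Edge (toTr S gen wd K o).Ed (toTr S gen wd K o).s (toTr S gen wd K o).t)
      ⟨x, cor3 o 0⟩ ⟨e • x, cor3 o 0⟩ := by
  have h0 : ∀ k x, EqvGen (Edge (toTr S gen wd K o).Ed (toTr S gen wd K o).s (toTr S gen wd K o).t)
      ⟨x, cor3 o (![1, 2, 2, 0] k)⟩
      ⟨gen (![false, false, true, true] k) • x, cor3 o (![0, 1, 0, 1] k)⟩ :=
    fun k x => .rel _ _ ⟨⟨x, .inl k⟩, trivial, rfl, rfl⟩
  induction he using Subgroup.closure_induction generalizing x with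
  | mem g hg =>
    rcases hg with rfl | rfl
    · rw [mul_smul]; exact .trans _ _ _ (h0 3 x) (h0 0 _)
    · rw [mul_smul, mul_smul]
      refine .trans _ ⟨(gen true)⁻¹ • x, cor3 o 2⟩ _ (.symm _ _ ?_) (.trans _ _ _ (h0 1 _) (h0 0 _))
      simpa using h0 2 ((gen true)⁻¹ • x)
  | one => rw [one_smul]; exact .refl _
  | mul g g' _ _ ih ih' => rw [mul_smul]; exact .trans _ _ _ (ih' x) (ih _)
  | inv g _ ih => exact .symm _ _ (by simpa using ih (g⁻¹ • x))

theorem Gr.Good.mono {S : Gr X I J} {μ : Measure X} {G H : Bool → Subgroup Γ} {o : I}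
    {ε ε' : ℝ≥0∞} (hS : S.Good μ G H o ε) (h : ε ≤ ε') : S.Good μ G H o ε' :=
  { hS with count := hS.count.trans (by gcongr) }

variable [Countable Γ] [MeasurableConstSMul Γ X] [IsCancelSMul Γ X]
variable (μ : Measure X) [SMulInvariantMeasure Γ X μ] [IsProbabilityMeasure μ]
variable [MeasurableSpace.CountablySeparated X]

theorem lower_bound {gen : Bool → Γ} {A B E : Subgroup Γ}
    (hE : E = Subgroup.closure {gen false * gen true, gen false * gen false * (gen true)⁻¹})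
    (hEA : E ≤ A) (hEB : E ≤ B) (hG : A ⊔ B = ⊤) {z : Γ} (hz : z ∈ A)
    (hz' : Function.Injective fun n : ℕ => z ^ n) (ha : gen false ∉ A)
    (hN : ∀ k c, ¬ NF (fun c => cond c B A) E (k + 1) c (gen false))
    (hB : ∀ g ∈ B, ∃ L, wp gen L = g)
    (hfree : ∀ L, wp gen L = 1 → L = [] ∨ ∃ L1 L2 l d, L = L1 ++ (l, d) :: (l, !d) :: L2)
    {κ : Type} [Fintype κ] {f : X → κ} {c θ ε δ : ℝ≥0∞} (hε : ε ≠ ∞) (hδ : δ ≠ 0) (hδ' : δ ≠ ∞)
    (hf : ∀ k, MeasurableSet {x | f x = k}) (hθ : ∀ k, μ {x | f x = k} ≤ θ)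
    (hexp : ∀ D, MeasurableSet D → μ D ≤ μ (D ∩ (fun y => gen false • y) ⁻¹' D ∩
      (fun y => gen true • y) ⁻¹' D) + (ε + 3 * δ) → μ D ≤ c + 3 * θ → μ D ≤ c)
    {Φ : ℕ → Γ × Set X} (hΦ : Crest.Dynamics.Generates μ Φ)
    (hc : Crest.Dynamics.graphingCost μ Φ ≤ 1 + ε) : 1 ≤ c + 3 * δ := by
  classical
  let G : Bool → Subgroup Γ := fun c => cond c B A
  let H : Bool → Subgroup Γ := fun c => cond c E A
  have hEH : ∀ c, E ≤ H c := fun c => by cases c; exacts [hEA, le_rfl]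
  have hHG : ∀ c, H c ≤ G c := fun c => by cases c; exacts [le_rfl, hEB]
  obtain ⟨S, hS, K, hK⟩ := unfold μ (G := G) (H := H) (E := E) hG hz hz' (gen false) hΦ hδ hc
  have h2K : (2 * ((K : ℝ≥0∞) + 1)) ≠ ∞ := by finiteness
  have h2K' : (2 * ((K : ℝ≥0∞) + 1)) ≠ 0 := by simp
  obtain ⟨S', hS', h1⟩ := Gr.Good.step2 hEH hHG ha hN (δ := δ / (2 * (K + 1)))
    (ENNReal.div_ne_zero.2 ⟨hδ, h2K⟩) (ENNReal.div_ne_top hδ' h2K') K hS (by finiteness)
  have hS'' : S'.Good μ G H none (ε + 3 * δ) := hS'.mono <| by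
    have : (K : ℝ≥0∞) * (2 * (δ / (2 * (K + 1)))) ≤ δ := by
      calc _ ≤ ((K : ℝ≥0∞) + 1) * (2 * (δ / (2 * (K + 1)))) := by gcongr; exact le_self_add
        _ = (2 * (K + 1)) * (δ / (2 * (K + 1))) := by ring
        _ = δ := ENNReal.mul_div_cancel h2K' h2K
    calc _ ≤ ε + 2 * δ + δ := by gcongr
      _ = _ := by ring
  have hwd0 : ∀ g, ∃ L, g ∈ B → L ≠ [] ∧ wp gen L = g := fun g => by
    by_cases hg : g ∈ B
    · obtain ⟨L, hL⟩ := hB g hg
      exact ⟨(false, true) :: (false, false) :: L, fun _ => ⟨by simp, by simp [wp, sgen, hL]⟩⟩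
    · exact ⟨[], fun h => absurd h hg⟩
  choose wd hwd using hwd0
  let GK : ℕ → Set X := fun K0 => {x | EqvGen (fun u v => Edge (Short S' wd K0) (S'.s true)
    (S'.t true) u v ∨ Base E none u v) ⟨x, none⟩ ⟨gen false • x, none⟩}
  have hmono : ∀ K0 K1, K0 ≤ K1 → ∀ u v, EqvGen (fun u v => Edge (Short S' wd K0) (S'.s true)
      (S'.t true) u v ∨ Base E none u v) u v → EqvGen (fun u v => Edge (Short S' wd K1) (S'.s true)
      (S'.t true) u v ∨ Base E none u v) u v := fun K0 K1 h => EqvGen.mono <| by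
    rintro u v (⟨e, ⟨h1, g, h2, h3⟩, h4⟩ | h1)
    · exact Or.inl ⟨e, ⟨h1, g, h2.trans h, h3⟩, h4⟩
    · exact Or.inr h1
  have hex : ∀ u v, S'.rel H none true u v → ∃ K0, EqvGen (fun u v => Edge (Short S' wd K0)
      (S'.s true) (S'.t true) u v ∨ Base E none u v) u v := by
    intro u v h
    induction h with
    | rel a b h =>
      rcases h with ⟨e, he, h⟩ | h
      · obtain ⟨g, -, h2⟩ := hS'.grp true e he
        exact ⟨_, .rel _ _ (Or.inl ⟨e, ⟨he, g, le_rfl, h2⟩, h⟩)⟩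
      · exact ⟨0, .rel _ _ (Or.inr h)⟩
    | refl a => exact ⟨0, .refl _⟩
    | symm a b _ ih => obtain ⟨N, h⟩ := ih; exact ⟨N, .symm _ _ h⟩
    | trans a b c _ _ ih1 ih2 =>
      obtain ⟨N, h⟩ := ih1
      obtain ⟨N', h'⟩ := ih2
      exact ⟨max N N', .trans _ _ _ (hmono _ _ (le_max_left _ _) _ _ h)
        (hmono _ _ (le_max_right _ _) _ _ h')⟩
  obtain ⟨K0, hK0⟩ := exists_mono_approx μ (G := GK) (fun a b h x hx => hmono a b h _ _ hx)
    (A := {x | S.Ch H E none (K + 1) ⟨x, none⟩ ⟨gen false • x, none⟩})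
    (fun x hx => mem_iUnion.2 (hex _ _ (h1 x hx))) hδ
  have hε3 : ε + 3 * δ ≠ ∞ := by finiteness
  have h2 := (toTr_good (K := K0) hS'' hε3 hwd).step3 hε3 hf hθ hexp hfree
    (by intro i j; fin_cases i <;> fin_cases j <;> simp [toTr, cor3]) (toTr_count hS'')
  have h3 : μ (GK K0) ≤ c := by
    refine le_trans (measure_mono fun x hx => ?_) h2
    refine .trans _ ⟨gen false • x, cor3 none 0⟩ _ ?_
      (.symm _ _ (.rel _ _ ⟨⟨x, .inl 0⟩, trivial, rfl, rfl⟩))
    refine eqvGen_map emb ?_ hx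
    rintro u v (⟨e, he, rfl, rfl⟩ | ⟨h3, h4, g, h5, h6⟩)
    · exact short_line hS'' hwd he
    · have := base_line (S := S') (wd := wd) (K := K0) (o := none) (hE ▸ h5) u.pt
      simpa [emb, h3, h4, h6, cor3] using this
  calc 1 ≤ _ := hK
    _ ≤ c + δ + 2 * δ := by gcongr; exact hK0.trans (by gcongr)
    _ = _ := by ring

end Crest.Agent.Cost
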