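import Crest.Agent.Cost.Cell

/-! Cell maps, measurable choice, the injection (mass transport) lemma. -/

set_option autoImplicit false

open MeasureTheory Set
open scoped ENNReal

namespace Crest.Agent.Cost

variable {Γ X : Type} [Group Γ] [MulAction Γ X] [MeasurableSpace X]
variable {I J K L : Type}
variable [Countable Γ] [MeasurableConstSMul Γ X] [IsCancelSMul Γ X]

namespace CM
variable {f : Cell X I → Cell X J} {g : Cell X J → Cell X K}

omit [Countable Γ] [MeasurableConstSMul Γ X] in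
theorem id : CM Γ (fun v : Cell X I => v) := MOR.eq

omit [Countable Γ] [MeasurableConstSMul Γ X] [IsCancelSMul Γ X] in
theorem orb' (hf : CM Γ f) (v : Cell X I) : ∃ γ : Γ, (f v).pt = γ • v.pt := hf.orb v _ rfl

omit [IsCancelSMul Γ X] in
theorem preimage [Countable J] (hf : CM Γ f) {Q : Set (Cell X J)} (hQ : MeasurableSet Q) :
    MeasurableSet {v | f v ∈ Q} := by
  have := MOR.sat hf hQ
  simpa using this

omit [IsCancelSMul Γ X] in
theorem comp [Countable J] (hg : CM Γ g) (hf : CM Γ f) : CM Γ (fun v => g (f v)) :=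
  (MOR.comp hf hg).congr fun v w => by simp

omit [Countable Γ] [MeasurableConstSMul Γ X] [IsCancelSMul Γ X] in
theorem ite {f' : Cell X I → Cell X J} {P : Set (Cell X I)} [DecidablePred (· ∈ P)]
    (hP : MeasurableSet P) (hf : CM Γ f) (hf' : CM Γ f') :
    CM Γ (fun v => if v ∈ P then f v else f' v) :=
  ((MOR.and hf (MR.left hP)).or (MOR.and hf' (MR.left hP.compl))).congr fun v w => by
    by_cases h : v ∈ P <;> simp [h]

omit [Countable Γ] [MeasurableConstSMul Γ X] in
theorem ofSlot (γ : I → Γ) (σ : I → J) :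
    CM Γ (fun v : Cell X I => (⟨γ v.sl • v.pt, σ v.sl⟩ : Cell X J)) := by
  refine ⟨fun v w h => ⟨γ v.sl, by rw [h]⟩, fun a i j => ?_⟩
  by_cases h : a = γ i ∧ j = σ i
  · obtain ⟨rfl, rfl⟩ := h; simp
  · have : {x : X | (⟨a • x, j⟩ : Cell X J) = ⟨γ i • x, σ i⟩} = ∅ := by
      ext x
      simp only [Cell.mk.injEq, mem_setOf_eq, mem_empty_iff_false, iff_false]
      rintro ⟨h1, h2⟩
      exact h ⟨IsCancelSMul.right_cancel _ _ _ h1, h2⟩
    simp only; rw [this]; exact MeasurableSet.empty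

omit [Countable Γ] [MeasurableConstSMul Γ X] in
theorem toSlot (j : J) : CM Γ (fun v : Cell X I => (⟨v.pt, j⟩ : Cell X J)) := by
  simpa using (ofSlot (X := X) (fun _ : I => (1 : Γ)) (fun _ => j))

omit [Countable Γ] [MeasurableConstSMul Γ X] in
theorem mapSlot (σ : I → J) : CM Γ (fun v : Cell X I => (⟨v.pt, σ v.sl⟩ : Cell X J)) := by
  simpa using (ofSlot (X := X) (fun _ : I => (1 : Γ)) σ)

omit [Countable Γ] [MeasurableConstSMul Γ X] [IsCancelSMul Γ X] in
/-- A map defined slot by slot. -/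
theorem bySlot {F : I → Cell X I → Cell X J} (hF : ∀ i, CM Γ (F i)) :
    CM Γ (fun v => F v.sl v) :=
  ⟨fun v w h => (hF v.sl).orb v w h, fun γ i j => (hF i).meas γ i j⟩

end CM

omit [IsCancelSMul Γ X] in
theorem MOR.map [Countable J] [Countable L] {R : Cell X J → Cell X L → Prop} (hR : MOR Γ R)
    {f : Cell X I → Cell X J} {g : Cell X K → Cell X L} (hf : CM Γ f) (hg : CM Γ g) :
    MOR Γ (fun u v => R (f u) (g v)) :=
  (MOR.comp hf (MOR.comp hR (MOR.flip hg))).congr fun v w => by simp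

omit [IsCancelSMul Γ X] in
theorem MOR.measurableSet_map [Countable J] [Countable L] {R : Cell X J → Cell X L → Prop}
    (hR : MOR Γ R) {f : Cell X I → Cell X J} {g : Cell X I → Cell X L} (hf : CM Γ f)
    (hg : CM Γ g) : MeasurableSet {v | R (f v) (g v)} :=
  (hR.map hf hg).meas.diag

theorem CM.measurableSet_eq [Countable J] {f g : Cell X I → Cell X J} (hf : CM Γ f)
    (hg : CM Γ g) : MeasurableSet {v | f v = g v} :=
  (MOR.eq (Γ := Γ)).measurableSet_map hg hf

omit [IsCancelSMul Γ X] in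
/-- The relation "some active edge goes from `u` to `v`". -/
theorem MOR.edge [Countable J] {Ed : Set (Cell X J)} (hEd : MeasurableSet Ed)
    {s : Cell X J → Cell X I} {t : Cell X J → Cell X K} (hs : CM Γ s) (ht : CM Γ t) :
    MOR Γ (fun u v => ∃ e ∈ Ed, s e = u ∧ t e = v) :=
  (MOR.comp (MOR.flip hs) (MOR.and ht (MR.left hEd))).congr fun u v => by
    constructor
    · rintro ⟨e, h1, rfl, rfl⟩; exact ⟨e, rfl, rfl, h1⟩
    · rintro ⟨e, rfl, rfl, h1⟩; exact ⟨e, h1, rfl, rfl⟩

omit [IsCancelSMul Γ X] in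
theorem CM.image [Countable I] {f : Cell X I → Cell X J} (hf : CM Γ f) {P : Set (Cell X I)}
    (hP : MeasurableSet P) : MeasurableSet (f '' P) := by
  have := MOR.sat (MOR.flip hf) hP
  convert this using 1
  ext w; simp [eq_comm, and_comm]

/-- Measurable choice along a measurable orbit relation. -/
theorem MOR.choice [Countable J] [Nonempty J] {R : Cell X I → Cell X J → Prop} (hR : MOR Γ R) :
    ∃ f : Cell X I → Cell X J, CM Γ f ∧ ∀ v, (∃ w, R v w) → R v (f v) := by
  classical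
  obtain ⟨en, hen⟩ := exists_surjective_nat (Γ × J)
  let Q : ℕ → Cell X I → Prop := fun n v => R v ⟨(en n).1 • v.pt, (en n).2⟩ ∨ ¬ ∃ w, R v w
  have hQ : ∀ v, ∃ n, Q n v := by
    intro v
    by_cases h : ∃ w, R v w
    · obtain ⟨w, hw⟩ := h
      obtain ⟨γ, hγ⟩ := hR.orb _ _ hw
      obtain ⟨n, hn⟩ := hen (γ, w.sl)
      refine ⟨n, Or.inl ?_⟩
      rw [hn]; simp only; rw [← hγ]; exact hw
    · exact ⟨0, Or.inr h⟩
  have hQm : ∀ n, MeasurableSet {v | Q n v} := fun n => by
    refine MeasurableSet.union ?_ hR.dom.compl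
    exact fun i => hR.meas _ i _
  refine ⟨fun v => ⟨(en (Nat.find (hQ v))).1 • v.pt, (en (Nat.find (hQ v))).2⟩, ?_, ?_⟩
  · have h1 : ∀ n, MeasurableSet {v | Nat.find (hQ v) = n} := fun n => by
      have : {v | Nat.find (hQ v) = n} = {v | Q n v} ∩ ⋂ m ∈ Finset.range n, {v | Q m v}ᶜ := by
        ext v; simp [Nat.find_eq_iff]
      rw [this]
      exact (hQm n).inter (Finset.measurableSet_biInter _ fun m _ => (hQm m).compl)
    refine (MOR.exists_ fun n : ℕ => MOR.and
      (CM.ofSlot (X := X) (fun _ : I => (en n).1) (fun _ => (en n).2)) (MR.left (h1 n))).congr ?_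
    intro v w
    constructor
    · rintro rfl; exact ⟨_, rfl, rfl⟩
    · rintro ⟨n, h2, h3⟩
      simp only [mem_setOf_eq] at h3
      simp only [h3]; exact h2
  · intro v hv
    exact (Nat.find_spec (hQ v)).resolve_right (not_not.2 hv)

variable (μ : Measure X) [SMulInvariantMeasure Γ X μ]

/-- Mass transport: an injective cell map does not decrease the measure. -/
theorem CM.nu_le [Countable I] [Countable J] {f : Cell X I → Cell X J} (hf : CM Γ f)
    {P : Set (Cell X I)} (hP : MeasurableSet P) {Q : Set (Cell X J)} (hQ : MeasurableSet Q)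
    (hinj : InjOn f P) (hmaps : MapsTo f P Q) : nu μ P ≤ nu μ Q := by
  let S : I → Γ → J → Set X := fun i γ j =>
    {x | (⟨x, i⟩ : Cell X I) ∈ P ∧ (⟨γ • x, j⟩ : Cell X J) = f ⟨x, i⟩}
  have hS : ∀ i γ j, MeasurableSet (S i γ j) := fun i γ j => (hP i).inter (hf.meas γ i j)
  rw [nu_apply μ hP, nu_apply μ hQ]
  have h1 : ∀ i, μ {x | (⟨x, i⟩ : Cell X I) ∈ P} ≤ ∑' j, ∑' γ, μ (S i γ j) := by
    intro i
    calc μ {x | (⟨x, i⟩ : Cell X I) ∈ P} ≤ μ (⋃ j, ⋃ γ, S i γ j) := by
          refine measure_mono fun x hx => ?_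
          obtain ⟨γ, hγ⟩ := hf.orb' ⟨x, i⟩
          simp only [mem_iUnion]
          exact ⟨(f ⟨x, i⟩).sl, γ, hx, by ext <;> simp [hγ]⟩
      _ ≤ ∑' j, μ (⋃ γ, S i γ j) := measure_iUnion_le _
      _ ≤ _ := ENNReal.tsum_le_tsum fun j => measure_iUnion_le _
  have h2 : ∀ j, ∑' i, ∑' γ, μ (S i γ j) ≤ μ {x | (⟨x, j⟩ : Cell X J) ∈ Q} := by
    intro j
    let T : I × Γ → Set X := fun p => (fun y => p.2⁻¹ • y) ⁻¹' S p.1 p.2 j
    have hT : ∀ p, MeasurableSet (T p) := fun p => (measurable_const_smul _) (hS _ _ _)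
    have hd : Pairwise (Function.onFun Disjoint T) := by
      rintro ⟨i, γ⟩ ⟨i', γ'⟩ hne
      refine Set.disjoint_left.2 fun y h h' => hne ?_
      simp only [T, S, mem_preimage, mem_setOf_eq, smul_inv_smul] at h h'
      have := hinj h.1 h'.1 (h.2.symm.trans h'.2)
      simp only [Cell.mk.injEq] at this
      have h3 := IsCancelSMul.right_cancel _ _ _ this.1
      simp [this.2, inv_injective h3]
    calc ∑' i, ∑' γ, μ (S i γ j) = ∑' p : I × Γ, μ (T p) := by
          rw [ENNReal.tsum_prod']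
          refine tsum_congr fun i => tsum_congr fun γ => ?_
          exact (measure_preimage_smul μ _ _).symm
      _ = μ (⋃ p, T p) := (measure_iUnion hd hT).symm
      _ ≤ _ := by
          refine measure_mono fun y hy => ?_
          simp only [mem_iUnion, T, S, mem_preimage, mem_setOf_eq, smul_inv_smul] at hy
          obtain ⟨p, h, h'⟩ := hy
          have := hmaps h
          rwa [← h'] at this
  calc ∑' i, μ {x | (⟨x, i⟩ : Cell X I) ∈ P} ≤ ∑' i, ∑' j, ∑' γ, μ (S i γ j) :=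
        ENNReal.tsum_le_tsum h1
    _ = ∑' j, ∑' i, ∑' γ, μ (S i γ j) := ENNReal.tsum_comm
    _ ≤ _ := ENNReal.tsum_le_tsum h2

/-- Relational form of the injection lemma. -/
theorem MOR.nu_le [Countable I] [Countable J] [Nonempty J] {R : Cell X I → Cell X J → Prop}
    (hR : MOR Γ R) {P : Set (Cell X I)} (hP : MeasurableSet P) {Q : Set (Cell X J)}
    (hQ : MeasurableSet Q) (hex : ∀ v ∈ P, ∃ w ∈ Q, R v w)
    (hinj : ∀ v ∈ P, ∀ v' ∈ P, ∀ w ∈ Q, R v w → R v' w → v = v') : nu μ P ≤ nu μ Q := by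
  obtain ⟨f, hf, hf'⟩ := (hR.and (MR.right hQ)).choice
  have h : ∀ v ∈ P, R v (f v) ∧ f v ∈ Q := fun v hv => by
    obtain ⟨w, h1, h2⟩ := hex v hv
    exact hf' v ⟨w, h2, h1⟩
  exact hf.nu_le μ hP hQ
    (fun v hv v' hv' he => hinj v hv v' hv' (f v) (h v hv).2 (h v hv).1 (he ▸ (h v' hv').1))
    (fun v hv => (h v hv).2)

end Crest.Agent.Cost
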