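import Crest.Agent.Cost.Forest

/-! The marker lemma and representatives of fibrewise equivalence relations. -/

set_option autoImplicit false

open MeasureTheory Set Relation Filter Topology
open scoped ENNReal

namespace Crest.Agent.Cost

variable {Γ X : Type} [Group Γ] [MulAction Γ X] [MeasurableSpace X]
variable {I J K L : Type}
variable [Countable Γ] [MeasurableConstSMul Γ X] [IsCancelSMul Γ X]
variable (μ : Measure X) [SMulInvariantMeasure Γ X μ]

/-- A fixed injection of a countable type into `ℕ`. -/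
noncomputable def code (I : Type) [Countable I] : I → ℕ := (exists_injective_nat I).choose

theorem code_inj (I : Type) [Countable I] : Function.Injective (code I) :=
  (exists_injective_nat I).choose_spec

omit [Countable Γ] [IsCancelSMul Γ X] in
theorem MR.lt_key {κ : Cell X I → ℕ} (hκ : Measurable κ) :
    MR Γ (fun v w : Cell X I => κ w < κ v) :=
  (MR.exists_ fun k : ℕ => (MR.left (J := I) (hκ (measurableSet_Ioi (a := k)))).and
    (MR.right (hκ (measurableSet_singleton k)))).congr fun v w => by simp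

open Classical in
/-- Refining keys. -/
noncomputable def mkey [Countable I] (B : ℕ → Set X) : ℕ → Cell X I → ℕ
  | 0, v => code I v.sl
  | n + 1, v => 2 * mkey B n v + if v.pt ∈ B n then 1 else 0

theorem measurable_code_sl [Countable I] : Measurable (fun v : Cell X I => code I v.sl) :=
  fun s _ => measurableSet_sl (fun i => code I i ∈ s)

theorem measurable_mkey [Countable I] {B : ℕ → Set X} (hB : ∀ n, MeasurableSet (B n)) :
    ∀ n, Measurable (mkey (I := I) B n)
  | 0 => measurable_code_sl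
  | n + 1 => ((measurable_mkey hB n).const_mul 2).add
      (Measurable.ite (measurableSet_pt (hB n)) measurable_const measurable_const)

theorem marker [Countable I] [Nonempty I] [MeasurableSpace.CountablySeparated X]
    {S : Cell X I → Cell X I → Prop} (hS : MOR Γ S) {V : Set (Cell X I)} (hV : MeasurableSet V)
    (hfin : nu μ V ≠ ∞) (hrefl : ∀ v ∈ V, S v v) (hsymm : ∀ u v, S u v → S v u)
    (htrans : ∀ u v w, S u v → S v w → S u w) (hSV : ∀ u v, S u v → u ∈ V → v ∈ V)
    {δ : ℝ≥0∞} (hδ : δ ≠ 0) :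
    ∃ M ⊆ V, MeasurableSet M ∧ (∀ v ∈ V, ∃ m ∈ M, S v m) ∧
      nu μ {m | m ∈ M ∧ ∃ m', (S m m' ∧ m' ≠ m) ∧ m' ∈ M} ≤ δ := by
  classical
  obtain ⟨B, hB, hsep⟩ := exists_seq_separating (α := X) MeasurableSet.univ univ
  let κ : ℕ → Cell X I → ℕ := mkey B
  let M : ℕ → Set (Cell X I) := fun n => V \ {v | ∃ w, S v w ∧ κ n w < κ n v}
  have hM : ∀ n, MeasurableSet (M n) := fun n =>
    hV.diff (hS.and (MR.lt_key (measurable_mkey hB n))).dom
  have hmem : ∀ n v, v ∈ M n ↔ v ∈ V ∧ ∀ w, S v w → κ n v ≤ κ n w := fun n v => by simp [M]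
  have hanti : Antitone M := by
    refine antitone_nat_of_succ_le fun n v hv => ?_
    rw [hmem] at hv ⊢
    refine ⟨hv.1, fun w hw => ?_⟩
    have := hv.2 w hw
    simp only [κ, mkey] at this ⊢
    split_ifs at this <;> omega
  let Mi := ⋂ n, M n
  have hMi : MeasurableSet Mi := MeasurableSet.iInter hM
  have huniq : ∀ v ∈ Mi, ∀ w ∈ Mi, S v w → v = w := by
    intro v hv w hw h
    have hk : ∀ n, κ n v = κ n w := fun n => le_antisymm
      (((hmem n v).1 (mem_iInter.1 hv n)).2 w h) (((hmem n w).1 (mem_iInter.1 hw n)).2 v (hsymm _ _ h))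
    ext
    · refine hsep _ trivial _ trivial fun n => ?_
      have h1 := hk n
      have h2 := hk (n + 1)
      simp only [κ, mkey] at h1 h2
      split_ifs at h2 with h3 h4 h4 <;> first | omega | simp [h3, h4]
    · exact code_inj I (hk 0)
  have hlim : Tendsto (fun n => nu μ (M n \ Mi)) atTop (𝓝 (nu μ (⋂ n, M n \ Mi))) :=
    tendsto_measure_iInter_atTop (fun n => ((hM n).diff hMi).nullMeasurableSet)
      (fun n m h => diff_subset_diff_left (hanti h))
      ⟨0, ne_top_of_le_ne_top hfin (measure_mono fun v hv => hv.1.1)⟩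
  have h0 : (⋂ n, M n \ Mi) = ∅ := by
    ext v; simp only [mem_iInter, mem_diff, mem_empty_iff_false, iff_false]
    intro h; exact (h 0).2 (mem_iInter.2 fun n => (h n).1)
  rw [h0, measure_empty] at hlim
  have hδ2 : (0 : ℝ≥0∞) < δ / 2 := ENNReal.half_pos hδ
  obtain ⟨n, hn⟩ := (hlim.eventually (ge_mem_nhds hδ2)).exists
  refine ⟨M n, fun v hv => hv.1, hM n, ?_, ?_⟩
  · intro v hv
    have hex : ∃ k, ∃ w, S v w ∧ κ n w = k := ⟨_, v, hrefl v hv, rfl⟩
    obtain ⟨w, h1, h2⟩ := Nat.find_spec hex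
    refine ⟨w, (hmem n w).2 ⟨hSV _ _ h1 hv, fun u hu => ?_⟩, h1⟩
    rw [h2]; exact Nat.find_min' hex ⟨u, htrans _ _ _ h1 hu, rfl⟩
  · set Bad := {m | m ∈ M n ∧ ∃ m', (S m m' ∧ m' ≠ m) ∧ m' ∈ M n} with hBad
    have hBm : MeasurableSet Bad := (hM n).inter ((hS.and (MOR.eq (Γ := Γ)).meas.not).sat (hM n))
    have h1 : nu μ (Bad ∩ Mi) ≤ nu μ (M n \ Mi) := by
      refine hS.nu_le μ (hBm.inter hMi) ((hM n).diff hMi) ?_ ?_
      · rintro v ⟨⟨-, m', ⟨h2, h3⟩, h4⟩, h5⟩
        exact ⟨m', ⟨h4, fun h6 => h3 (huniq _ h5 _ h6 h2).symm⟩, h2⟩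
      · intro v hv v' hv' w _ h2 h3
        exact huniq _ hv.2 _ hv'.2 (htrans _ _ _ h2 (hsymm _ _ h3))
    calc nu μ Bad ≤ nu μ (Bad ∩ Mi ∪ (M n \ Mi)) := by
          refine measure_mono fun v hv => ?_
          by_cases h : v ∈ Mi
          · exact Or.inl ⟨hv, h⟩
          · exact Or.inr ⟨hv.1, h⟩
      _ ≤ nu μ (Bad ∩ Mi) + nu μ (M n \ Mi) := measure_union_le _ _
      _ ≤ δ / 2 + δ / 2 := add_le_add (h1.trans hn) hn
      _ = δ := ENNReal.add_halves δ

/-- The cells with least slot code in their class. -/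
def Rep [Countable I] (R : Cell X I → Cell X I → Prop) : Set (Cell X I) :=
  {v | ∀ w, R v w → code I v.sl ≤ code I w.sl}

omit [IsCancelSMul Γ X] in
theorem measurableSet_rep [Countable I] {R : Cell X I → Cell X I → Prop} (hR : MOR Γ R) :
    MeasurableSet (Rep R) := by
  have := (hR.and (MR.lt_key measurable_code_sl)).dom.compl
  convert this using 1
  ext v; simp [Rep]

omit [MeasurableSpace X] in
theorem Rep.unique [Countable I] {R : Cell X I → Cell X I → Prop} (hE : Equivalence R)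
    (hfib : ∀ u v, R u v → u.pt = v.pt) {u v : Cell X I} (hu : u ∈ Rep R) (hv : v ∈ Rep R)
    (h : R u v) : u = v :=
  Cell.ext (hfib _ _ h) (code_inj I (le_antisymm (hu v h) (hv u (hE.symm h))))

omit [MeasurableSpace X] in
theorem Rep.anti [Countable I] {R R' : Cell X I → Cell X I → Prop} (h : ∀ u v, R u v → R' u v) :
    Rep R' ⊆ Rep R := fun _ hv w hw => hv w (h _ _ hw)

theorem exists_rep [Countable I] [Nonempty I] {R : Cell X I → Cell X I → Prop} (hR : MOR Γ R)
    (hE : Equivalence R) (hfib : ∀ u v, R u v → u.pt = v.pt) :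
    ∃ rep : Cell X I → Cell X I, CM Γ rep ∧ (∀ v, R v (rep v)) ∧ (∀ v, rep v ∈ Rep R) ∧
      (∀ u v, R u v → rep u = rep v) ∧ ∀ v ∈ Rep R, rep v = v := by
  classical
  obtain ⟨rep, h1, h2⟩ := (hR.and (MR.right (measurableSet_rep hR))).choice
  have h3 : ∀ v, R v (rep v) ∧ rep v ∈ Rep R := fun v => h2 v <| by
    have hex : ∃ k, ∃ w, R v w ∧ code I w.sl = k := ⟨_, v, hE.refl v, rfl⟩
    obtain ⟨w, h1, h2⟩ := Nat.find_spec hex
    refine ⟨w, h1, fun u hu => ?_⟩
    rw [h2]; exact Nat.find_min' hex ⟨u, hE.trans h1 hu, rfl⟩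
  refine ⟨rep, h1, fun v => (h3 v).1, fun v => (h3 v).2, fun u v h => ?_, fun v hv => ?_⟩
  · exact Rep.unique hE hfib (h3 u).2 (h3 v).2 (hE.trans (hE.symm (h3 u).1) (hE.trans h (h3 v).1))
  · exact Rep.unique hE hfib (h3 v).2 hv (hE.symm (h3 v).1)

end Crest.Agent.Cost
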