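import Crest.Agent.Cost.Marker

/-! Unfolded graphings over an amalgam: one elimination round. -/

set_option autoImplicit false

open MeasureTheory Set Relation
open scoped ENNReal

namespace Crest.Agent.Cost

variable {Γ X : Type} [Group Γ] [MulAction Γ X]
variable {I J : Type}

/-- Both cells are base cells, related by the subgroup `H`. -/
def Base (H : Subgroup Γ) (o : I) (u v : Cell X I) : Prop :=
  u.sl = o ∧ v.sl = o ∧ ∃ h : Γ, h ∈ H ∧ v.pt = h • u.pt

/-- Points related by the subgroup `H`. -/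
def Rl (H : Subgroup Γ) (u v : Cell X I) : Prop := ∃ h : Γ, h ∈ H ∧ v.pt = h • u.pt

theorem Rl.refl (H : Subgroup Γ) (u : Cell X I) : Rl H u u := ⟨1, H.one_mem, by simp⟩

theorem Rl.symm {H : Subgroup Γ} {u v : Cell X I} (h : Rl H u v) : Rl H v u := by
  obtain ⟨g, h1, h2⟩ := h
  exact ⟨g⁻¹, H.inv_mem h1, by rw [h2, inv_smul_smul]⟩

theorem Rl.trans {H : Subgroup Γ} {u v w : Cell X I} (h : Rl H u v) (h' : Rl H v w) :
    Rl H u w := by
  obtain ⟨g, h1, h2⟩ := h
  obtain ⟨g', h3, h4⟩ := h'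
  exact ⟨g' * g, H.mul_mem h3 h1, by rw [h4, h2, mul_smul]⟩

theorem Rl.mono {H H' : Subgroup Γ} (hH : H ≤ H') {u v : Cell X I} (h : Rl H u v) : Rl H' u v := by
  obtain ⟨g, h1, h2⟩ := h
  exact ⟨g, hH h1, h2⟩

theorem Rl.of_pt (H : Subgroup Γ) {u v : Cell X I} (h : v.pt = u.pt) : Rl H u v :=
  ⟨1, H.one_mem, by simp [h]⟩

/-- An unfolded graphing with two types of edges. -/
structure Gr (X I J : Type) where
  V : Set (Cell X I)
  Ed : Bool → Set (Cell X J)
  s : Bool → Cell X J → Cell X I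
  t : Bool → Cell X J → Cell X I

namespace Gr
variable (S : Gr X I J) (H : Bool → Subgroup Γ) (o : I)

def step (c : Bool) (u v : Cell X I) : Prop :=
  Edge (S.Ed c) (S.s c) (S.t c) u v ∨ Base (H c) o u v

def rel (c : Bool) : Cell X I → Cell X I → Prop := EqvGen (S.step H o c)

def act (v : Cell X I) : Prop := v ∈ S.V ∨ v.sl = o

def all : Cell X I → Cell X I → Prop := EqvGen (fun u v => ∃ c, S.step H o c u v)

end Gr

variable [MeasurableSpace X]

structure Gr.Good (S : Gr X I J) (μ : Measure X) (G H : Bool → Subgroup Γ) (o : I) (ε : ℝ≥0∞) :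
    Prop where
  mV : MeasurableSet S.V
  mE : ∀ c, MeasurableSet (S.Ed c)
  cs : ∀ c, CM Γ (S.s c)
  ct : ∀ c, CM Γ (S.t c)
  Vo : ∀ v ∈ S.V, v.sl ≠ o
  fin : nu μ S.V ≠ ∞
  sV : ∀ c, ∀ e ∈ S.Ed c, S.act o (S.s c e)
  tV : ∀ c, ∀ e ∈ S.Ed c, S.act o (S.t c e)
  grp : ∀ c, ∀ e ∈ S.Ed c, Rl (G c) (S.s c e) (S.t c e)
  conn : ∀ v ∈ S.V, ∃ u, u.sl = o ∧ S.all H o v u
  count : nu μ (S.Ed false) + nu μ (S.Ed true) ≤ nu μ S.V + ε

structure Gr.Ref (S S' : Gr X I J) (H : Bool → Subgroup Γ) (E : Subgroup Γ) (o : I)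
    (ρ : Cell X I → Cell X I) : Prop where
  act : ∀ u, S.act o u → S'.act o (ρ u)
  base : ∀ u, u.sl = o → ρ u = u
  rel : ∀ c u v, S.rel H o c u v → S'.rel H o c (ρ u) (ρ v)
  eqv : ∀ v, Rl E v (ρ v)

/-- Equal, or base cells related by `E`. -/
def Zr (E : Subgroup Γ) (o : I) (u v : Cell X I) : Prop := u = v ∨ Base E o u v

omit [MeasurableSpace X] in
theorem eqvGen_map {α β : Type} {R : α → α → Prop} {R' : β → β → Prop} (f : α → β)
    (h : ∀ a b, R a b → EqvGen R' (f a) (f b)) {a b : α} (hab : EqvGen R a b) :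
    EqvGen R' (f a) (f b) := by
  induction hab with
  | rel a b h1 => exact h a b h1
  | refl a => exact .refl _
  | symm a b _ ih => exact .symm _ _ ih
  | trans a b c _ _ ih1 ih2 => exact .trans _ _ _ ih1 ih2

variable {μ : Measure X} {G H : Bool → Subgroup Γ} {E : Subgroup Γ} {o : I} {ε : ℝ≥0∞}

theorem Gr.Good.rel_grp {S : Gr X I J} (hS : S.Good μ G H o ε) (hHG : ∀ c, H c ≤ G c) {c : Bool}
    {u v : Cell X I} (h : S.rel H o c u v) : Rl (G c) u v := by
  induction h with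
  | rel a b h1 =>
    rcases h1 with ⟨e, he, rfl, rfl⟩ | h1
    · exact hS.grp c e he
    · exact Rl.mono (hHG c) h1.2.2
  | refl a => exact Rl.refl _ _
  | symm a b _ ih => exact ih.symm
  | trans a b c _ _ ih1 ih2 => exact ih1.trans ih2

theorem Gr.Good.edge_act {S : Gr X I J} (hS : S.Good μ G H o ε) {c : Bool} {u v : Cell X I}
    (h : EqvGen (Edge (S.Ed c) (S.s c) (S.t c)) u v) : S.act o u ↔ S.act o v := by
  induction h with
  | rel a b h1 =>
    obtain ⟨e, he, rfl, rfl⟩ := h1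
    exact iff_of_true (hS.sV c e he) (hS.tV c e he)
  | refl a => rfl
  | symm a b _ ih => exact ih.symm
  | trans a b c _ _ ih1 ih2 => exact ih1.trans ih2

omit [MeasurableSpace X] in
theorem Gr.rel_of_edge {S : Gr X I J} {c : Bool} {u v : Cell X I}
    (h : EqvGen (Edge (S.Ed c) (S.s c) (S.t c)) u v) : S.rel H o c u v :=
  EqvGen.mono (fun _ _ h => Or.inl h) _ _ h

omit [MeasurableSpace X] in
theorem Gr.rel_of_base {S : Gr X I J} (hEH : ∀ c, E ≤ H c) (c : Bool) {u v : Cell X I}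
    (hu : u.sl = o) (hv : v.sl = o) (h : Rl E u v) : S.rel H o c u v :=
  .rel _ _ (Or.inr ⟨hu, hv, h.mono (hEH c)⟩)

omit [MeasurableSpace X] in
theorem Gr.all_of_rel {S : Gr X I J} {c : Bool} {u v : Cell X I} (h : S.rel H o c u v) :
    S.all H o u v := EqvGen.mono (fun _ _ h => ⟨c, h⟩) _ _ h

variable [Countable Γ] [MeasurableConstSMul Γ X] [IsCancelSMul Γ X] [Countable I] [Countable J]

omit [Countable Γ] [Countable I] [Countable J] in
theorem MOR.base (H : Subgroup Γ) (o : I) : MOR Γ (Base (X := X) H o) :=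
  MOR.and' (MR.slot fun i _ => i = o) (MOR.and' (MR.slot fun _ j => j = o) (MOR.grp _))

theorem Gr.Good.mor_rel {S : Gr X I J} (hS : S.Good μ G H o ε) (c : Bool) :
    MOR Γ (S.rel H o c) :=
  MOR.eqvGen ((MOR.edge (hS.mE c) (hS.cs c) (hS.ct c)).or (MOR.base _ _))

end Crest.Agent.Cost
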