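import Crest.Agent.Cost.Round

/-! The elimination round. -/

set_option autoImplicit false

open MeasureTheory Set Relation
open scoped ENNReal

namespace Crest.Agent.Cost

variable {Γ X : Type} [Group Γ] [MulAction Γ X] [MeasurableSpace X]
variable {I J : Type}
variable {μ : Measure X} {G H : Bool → Subgroup Γ} {E : Subgroup Γ} {o : I} {ε : ℝ≥0∞}
variable [Countable Γ] [MeasurableConstSMul Γ X] [IsCancelSMul Γ X] [Countable I] [Countable J]
variable [SMulInvariantMeasure Γ X μ] [MeasurableSpace.CountablySeparated X] [Nonempty J]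

theorem Gr.Good.round {S : Gr X I J} (hS : S.Good μ G H o ε) (hε : ε ≠ ∞) (hEH : ∀ c, E ≤ H c)
    (hHG : ∀ c, H c ≤ G c) (c : Bool) {δ : ℝ≥0∞} (hδ : δ ≠ 0) :
    ∃ (S' : Gr X I J) (ρ : Cell X I → Cell X I), S'.Good μ G H o (ε + δ) ∧ S.Ref S' H E o ρ ∧
      ∀ u v, S.act o u → S.act o v → S.rel H o c u v → Rl E u v → Zr E o (ρ u) (ρ v) := by
  classical
  haveI : Nonempty I := ⟨o⟩
  let T : Cell X I → Cell X I → Prop := fun u v => S.rel H o c u v ∧ Rl E u v
  have hT : MOR Γ T := (hS.mor_rel c).and (MR.grp _)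
  have Tsymm : ∀ u v, T u v → T v u := fun u v h => ⟨.symm _ _ h.1, h.2.symm⟩
  have Ttrans : ∀ u v w, T u v → T v w → T u w := fun u v w h h' =>
    ⟨.trans _ _ _ h.1 h'.1, h.2.trans h'.2⟩
  have Trefl : ∀ u, T u u := fun u => ⟨.refl _, Rl.refl _ _⟩
  let B : Set (Cell X I) := {v | ∃ w, T v w ∧ w ∈ {w : Cell X I | w.sl = o}}
  have hB : MeasurableSet B := hT.sat (measurableSet_sl fun i => i = o)
  have hBT : ∀ u v, T u v → v ∈ B → u ∈ B := fun u v h ⟨w, h1, h2⟩ => ⟨w, Ttrans _ _ _ h h1, h2⟩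
  let Vn := S.V \ B
  have hVn : MeasurableSet Vn := hS.mV.diff hB
  let T' : Cell X I → Cell X I → Prop := fun u v => (T u v ∧ u ∈ Vn) ∧ v ∈ Vn
  have hT' : MOR Γ T' := (hT.and (MR.left hVn)).and (MR.right hVn)
  obtain ⟨M, hMV, hM, hM1, hM2⟩ := marker μ hT' hVn
    (ne_top_of_le_ne_top hS.fin (measure_mono diff_subset))
    (fun v hv => ⟨⟨Trefl v, hv⟩, hv⟩) (fun u v h => ⟨⟨Tsymm _ _ h.1.1, h.2⟩, h.1.2⟩)
    (fun u v w h h' => ⟨⟨Ttrans _ _ _ h.1.1 h'.1.1, h.1.2⟩, h'.2⟩) (fun u v h _ => h.2) hδ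
  set Bad := {m | m ∈ M ∧ ∃ m', (T' m m' ∧ m' ≠ m) ∧ m' ∈ M} with hBad
  have hBm : MeasurableSet Bad := hM.inter ((hT'.and (MOR.eq (Γ := Γ)).meas.not).sat hM)
  obtain ⟨r0, hr0, hr0'⟩ := (hT'.and (MR.right hM)).choice
  let P := S.V \ M
  have hP : MeasurableSet P := hS.mV.diff hM
  let bs : Cell X I → Cell X I := fun v => ⟨v.pt, o⟩
  let root : Cell X I → Cell X I := fun v =>
    if v ∈ P then (if v ∈ B then bs v else r0 v) else v
  have hroot : CM Γ root := CM.ite hP (CM.ite hB (CM.toSlot o) hr0) CM.id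
  let prom : Cell X I → Cell X I := fun v => if v ∈ Bad then bs v else v
  have hprom : CM Γ prom := CM.ite hBm (CM.toSlot o) CM.id
  have hbaseP : ∀ v : Cell X I, v.sl = o → v ∉ P := fun v hv h => hS.Vo v h.1 hv
  have hbaseM : ∀ v : Cell X I, v.sl = o → v ∉ M := fun v hv h => hS.Vo v (hMV h).1 hv
  have hprom0 : ∀ v : Cell X I, v.sl = o → prom v = v := fun v hv => by
    have : v ∉ Bad := fun h => hbaseM v hv h.1
    simp [prom, this]
  have hprompt : ∀ v, (prom v).pt = v.pt := fun v => by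
    simp only [prom]; split_ifs <;> rfl
  have hroot1 : ∀ v, T v (root v) ∧ root v ∉ P ∧ (v ∈ S.V → v ∉ B → root v ∈ M) ∧
      (S.act o v → v ∈ B → (root v).sl = o) := by
    intro v
    by_cases h : v ∈ P
    · by_cases h' : v ∈ B
      · have e : root v = bs v := by simp [root, h, h']
        rw [e]
        refine ⟨?_, hbaseP _ rfl, fun _ h2 => absurd h' h2, fun _ _ => rfl⟩
        obtain ⟨w, h1, h2⟩ := h'
        have h3 : Rl E w (bs v) := h1.2.symm.trans (Rl.of_pt _ rfl)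
        exact Ttrans _ _ _ h1 ⟨Gr.rel_of_base hEH c h2 rfl h3, h3⟩
      · have e : root v = r0 v := by simp [root, h, h']
        rw [e]
        obtain ⟨m, h1, h2⟩ := hM1 v ⟨h.1, h'⟩
        have := hr0' v ⟨m, h2, h1⟩
        exact ⟨this.1.1.1, fun h3 => h3.2 this.2, fun _ _ => this.2, fun _ h3 => absurd h3 h'⟩
    · have e : root v = v := by simp [root, h]
      rw [e]
      refine ⟨Trefl v, h, fun h1 _ => ?_, fun h1 h2 => ?_⟩
      · by_contra h3; exact h ⟨h1, h3⟩
      · rcases h1 with h1 | h1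
        · have h3 : v ∈ M := by by_contra h3; exact h ⟨h1, h3⟩
          exact absurd h2 (hMV h3).2
        · exact h1
  obtain ⟨Del, β, hDel, hDelE, hβ, hβ0, hβP, hβE, hβD, hcount⟩ := bfs μ (hS.mE c) (hS.cs c)
    (hS.ct c) hP (Base (H c) o) (fun u v h => ⟨hbaseP _ h.1, hbaseP _ h.2.1⟩)
    (fun p _ => ⟨root p, (hroot1 p).2.1, (hroot1 p).1.1⟩)
  let ρ : Cell X I → Cell X I := fun v => prom (root v)
  let S' : Gr X I J :=
    { V := M \ Bad
      Ed := fun c' => if c' = c then S.Ed c \ Del else S.Ed c'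
      s := fun c' e => if c' = c then prom (β (S.s c e)) else ρ (S.s c' e)
      t := fun c' e => if c' = c then prom (β (S.t c e)) else ρ (S.t c' e) }
  have hact0 : ∀ v, S.act o v → v ∉ P → S'.act o (prom v) := by
    intro v h1 h2
    rcases h1 with h1 | h1
    · have h3 : v ∈ M := by by_contra h3; exact h2 ⟨h1, h3⟩
      by_cases h4 : v ∈ Bad
      · right; simp [prom, h4, bs]
      · left; simp only [prom, h4, if_false]; exact ⟨h3, h4⟩
    · right; rw [hprom0 v h1]; exact h1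
  have hrootact : ∀ v, S.act o v → S.act o (root v) := by
    intro v hv
    by_cases h : v ∈ B
    · exact Or.inr ((hroot1 v).2.2.2 hv h)
    · rcases hv with hv | hv
      · exact Or.inl (hMV ((hroot1 v).2.2.1 hv h)).1
      · exact absurd ⟨v, Trefl v, hv⟩ h
  have hρact : ∀ v, S.act o v → S'.act o (ρ v) := fun v hv =>
    hact0 _ (hrootact v hv) (hroot1 v).2.1
  have hβact : ∀ v, S.act o v → S'.act o (prom (β v)) := fun v hv =>
    hact0 _ ((hS.edge_act (hβE v)).1 hv) (hβP v)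
  have hρbase : ∀ u : Cell X I, u.sl = o → ρ u = u := fun u hu => by
    have : root u = u := by simp [root, hbaseP u hu]
    simp only [ρ, this, hprom0 u hu]
  have hρE : ∀ v, Rl E v (ρ v) := fun v => (hroot1 v).1.2.trans (Rl.of_pt _ (hprompt _))
  have hrelc : ∀ u v, S.rel H o c u v → S'.rel H o c (prom (β u)) (prom (β v)) := by
    intro u v h
    refine eqvGen_map (fun v => prom (β v)) ?_ h
    rintro a b (⟨e, he, rfl, rfl⟩ | h1)
    · by_cases hd : e ∈ Del
      · simp only [hβD e hd]; exact .refl _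
      · exact .rel _ _ (Or.inl ⟨e, by simp [S', he, hd], by simp [S'], by simp [S']⟩)
    · simp only [hβ0 _ (hbaseP _ h1.1), hβ0 _ (hbaseP _ h1.2.1), hprom0 _ h1.1, hprom0 _ h1.2.1]
      exact .rel _ _ (Or.inr h1)
  have hrel : ∀ c' u v, S.rel H o c' u v → S'.rel H o c' (ρ u) (ρ v) := by
    intro c' u v h
    by_cases hc : c' = c
    · subst hc
      have h1 : ∀ w, S'.rel H o c' (prom (β w)) (ρ w) := fun w => by
        have := hrelc _ _ (hroot1 w).1.1
        rwa [hβ0 _ (hroot1 w).2.1] at this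
      exact .trans _ _ _ (.symm _ _ (h1 u)) (.trans _ _ _ (hrelc _ _ h) (h1 v))
    · refine eqvGen_map ρ ?_ h
      rintro a b (⟨e, he, rfl, rfl⟩ | h1)
      · exact .rel _ _ (Or.inl ⟨e, by simp [S', he, hc], by simp [S', hc], by simp [S', hc]⟩)
      · rw [hρbase _ h1.1, hρbase _ h1.2.1]; exact .rel _ _ (Or.inr h1)
  have hEG : ∀ c, E ≤ G c := fun c => (hEH c).trans (hHG c)
  refine ⟨S', ρ, ⟨hM.diff hBm, ?_, ?_, ?_, ?_, ?_, ?_, ?_, ?_, ?_, ?_⟩,
    ⟨hρact, hρbase, hrel, hρE⟩, ?_⟩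
  · intro c'; simp only [S']; split_ifs
    · exact (hS.mE c).diff hDel
    · exact hS.mE c'
  · intro c'; simp only [S']; split_ifs
    · exact hprom.comp (hβ.comp (hS.cs c))
    · exact hprom.comp (hroot.comp (hS.cs c'))
  · intro c'; simp only [S']; split_ifs
    · exact hprom.comp (hβ.comp (hS.ct c))
    · exact hprom.comp (hroot.comp (hS.ct c'))
  · exact fun v hv => hS.Vo v (hMV hv.1).1
  · exact ne_top_of_le_ne_top hS.fin (measure_mono fun v hv => (hMV hv.1).1)
  · intro c' e he; simp only [S'] at he ⊢; split_ifs at he ⊢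
    · exact hβact _ (hS.sV c e he.1)
    · exact hρact _ (hS.sV c' e he)
  · intro c' e he; simp only [S'] at he ⊢; split_ifs at he ⊢
    · exact hβact _ (hS.tV c e he.1)
    · exact hρact _ (hS.tV c' e he)
  · intro c' e he; simp only [S'] at he ⊢; split_ifs at he ⊢ with hc
    · subst hc
      have h1 : ∀ w, Rl (G c') w (prom (β w)) := fun w =>
        (hS.rel_grp hHG (Gr.rel_of_edge (hβE w))).trans (Rl.of_pt _ (hprompt _))
      exact (h1 _).symm.trans ((hS.grp c' e he.1).trans (h1 _))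
    · exact ((hρE _).mono (hEG c')).symm.trans ((hS.grp c' e he).trans ((hρE _).mono (hEG c')))
  · intro v hv
    obtain ⟨u, hu, h⟩ := hS.conn v (hMV hv.1).1
    refine ⟨u, hu, ?_⟩
    have h1 : ρ v = v := by
      have : root v = v := by
        have : v ∉ P := fun h => h.2 hv.1
        simp [root, this]
      simp only [ρ, this, prom, hv.2, if_false]
    rw [← h1, ← hρbase u hu]
    refine eqvGen_map ρ ?_ h
    rintro a b ⟨c', h2⟩
    exact Gr.all_of_rel (hrel c' _ _ (.rel _ _ h2))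
  · have h1 : nu μ (S.Ed c) = nu μ (S.Ed c \ Del) + nu μ Del := by
      rw [← measure_sdiff_add_inter (S.Ed c) hDel, inter_eq_self_of_subset_right hDelE]
    have h2 : nu μ S.V ≤ nu μ Del + nu μ (M \ Bad) + δ := by
      calc nu μ S.V ≤ nu μ (P ∪ (M \ Bad) ∪ Bad) := by
            refine measure_mono fun v hv => ?_
            by_cases h1 : v ∈ M
            · by_cases h2 : v ∈ Bad
              · exact Or.inr h2
              · exact Or.inl (Or.inr ⟨h1, h2⟩)
            · exact Or.inl (Or.inl ⟨hv, h1⟩)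
        _ ≤ nu μ P + nu μ (M \ Bad) + nu μ Bad :=
            (measure_union_le _ _).trans (add_le_add_left (measure_union_le _ _) _)
        _ ≤ _ := by gcongr
    have h3 := hS.count
    have hfin : nu μ Del ≠ ∞ := by
      refine ne_top_of_le_ne_top (ENNReal.add_ne_top.2 ⟨hS.fin, hε⟩) ?_
      refine (measure_mono hDelE).trans (le_trans ?_ h3)
      cases c
      · exact le_self_add
      · exact le_add_self
    refine ENNReal.le_of_add_le_add_left hfin ?_
    cases c
    · simp only [S', if_true, Bool.true_eq_false, if_false]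
      rw [h1] at h3
      calc _ = nu μ (S.Ed false \ Del) + nu μ Del + nu μ (S.Ed true) := by ring
        _ ≤ nu μ S.V + ε := h3
        _ ≤ nu μ Del + nu μ (M \ Bad) + δ + ε := by gcongr
        _ = _ := by ring
    · simp only [S', if_true, Bool.false_eq_true, if_false]
      rw [h1] at h3
      calc _ = nu μ (S.Ed false) + (nu μ (S.Ed true \ Del) + nu μ Del) := by ring
        _ ≤ nu μ S.V + ε := h3
        _ ≤ nu μ Del + nu μ (M \ Bad) + δ + ε := by gcongr
        _ = _ := by ring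
  · intro u v hu hv h1 h2
    have hE' : Rl E (ρ u) (ρ v) := (hρE u).symm.trans (h2.trans (hρE v))
    by_cases hb : v ∈ B
    · have hb' : u ∈ B := hBT _ _ ⟨h1, h2⟩ hb
      have e1 := (hroot1 u).2.2.2 hu hb'
      have e2 := (hroot1 v).2.2.2 hv hb
      refine Or.inr ⟨?_, ?_, hE'⟩
      · simp only [ρ, hprom0 _ e1, e1]
      · simp only [ρ, hprom0 _ e2, e2]
    · have hb' : u ∉ B := fun h => hb (hBT _ _ (Tsymm _ _ ⟨h1, h2⟩) h)
      have hu' : u ∈ S.V := hu.resolve_right fun h => hb' ⟨u, Trefl u, h⟩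
      have hv' : v ∈ S.V := hv.resolve_right fun h => hb ⟨v, Trefl v, h⟩
      have e1 := (hroot1 u).2.2.1 hu' hb'
      have e2 := (hroot1 v).2.2.1 hv' hb
      by_cases he : root u = root v
      · left; simp only [ρ, he]
      · have h3 : T (root u) (root v) :=
          Ttrans _ _ _ (Tsymm _ _ (hroot1 u).1) (Ttrans _ _ _ ⟨h1, h2⟩ (hroot1 v).1)
        have b1 : root u ∈ Bad := ⟨e1, root v, ⟨⟨⟨h3, hMV e1⟩, hMV e2⟩, Ne.symm he⟩, e2⟩
        have b2 : root v ∈ Bad := ⟨e2, root u, ⟨⟨⟨Tsymm _ _ h3, hMV e2⟩, hMV e1⟩, he⟩, e1⟩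
        refine Or.inr ⟨?_, ?_, hE'⟩
        · simp only [ρ, prom, b1, if_true, bs]
        · simp only [ρ, prom, b2, if_true, bs]

end Crest.Agent.Cost
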