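import Crest.Agent.Cost.Chain
import Crest.Prelude.Def_Cost

/-! Auxiliary facts for the initial unfolding of a generating graphing. -/

set_option autoImplicit false

open MeasureTheory Set Relation Filter Topology
open scoped ENNReal

namespace Crest.Agent.Cost

variable {Γ X : Type} [Group Γ] [MulAction Γ X] [MeasurableSpace X]
variable {I J : Type}

theorem exists_mono_approx (μ : Measure X) [IsFiniteMeasure μ] {G : ℕ → Set X} (hG : Monotone G)
    {A : Set X} (hA : A ⊆ ⋃ n, G n) {δ : ℝ≥0∞} (hδ : δ ≠ 0) : ∃ n, μ A ≤ μ (G n) + δ := by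
  by_contra h
  push Not at h
  have h1 : μ A ≤ ⨆ n, μ (G n) := (measure_mono hA).trans hG.measure_iUnion.le
  have h2 : (⨆ n, μ (G n)) + δ ≤ μ A := by
    rw [ENNReal.iSup_add]; exact iSup_le fun n => (h n).le
  have h3 : μ A + δ ≤ μ A + 0 := by
    rw [add_zero]; exact le_trans (by gcongr) h2
  exact hδ (le_antisymm (ENNReal.le_of_add_le_add_left (measure_ne_top _ _) h3) zero_le)

theorem nu_ne_top_of_finite (μ : Measure X) [IsFiniteMeasure μ] {P : Set (Cell X I)} {F : Set I}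
    (hF : F.Finite) (h : ∀ v ∈ P, v.sl ∈ F) : nu μ P ≠ ∞ := by
  refine ne_top_of_le_ne_top ?_ (measure_mono (t := ⋃ i ∈ hF.toFinset,
    {v : Cell X I | v.sl = i ∧ v.pt ∈ univ}) fun v hv => by simpa using h v hv)
  refine ne_top_of_le_ne_top ?_ (measure_biUnion_finset_le _ _)
  refine ENNReal.sum_ne_top.2 fun i _ => ?_
  rw [nu_slice μ i MeasurableSet.univ]; exact measure_ne_top _ _

theorem nu_unit (μ : Measure X) {P : Set (Cell X Unit)} (hP : MeasurableSet P) :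
    nu μ P = μ {x | (⟨x, ()⟩ : Cell X Unit) ∈ P} := by
  rw [nu_apply μ hP, tsum_fintype]; simp

theorem exists_syllables {G : Bool → Subgroup Γ} (hG : G false ⊔ G true = ⊤) (g : Γ) :
    ∃ (n : ℕ) (pre : ℕ → Γ) (ty : ℕ → Bool), 0 < n ∧ pre 0 = 1 ∧ pre n = g ∧
      ∀ k < n, pre (k + 1) * (pre k)⁻¹ ∈ G (ty k) := by
  have hg : g ∈ Subgroup.closure ((G false : Set Γ) ∪ G true) := by
    rw [← Subgroup.sup_eq_closure, hG]; trivial
  have key : ∀ (c : Bool) (h : Γ), h ∈ G c → ∀ g, (∃ (n : ℕ) (pre : ℕ → Γ) (ty : ℕ → Bool),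
      0 < n ∧ pre 0 = 1 ∧ pre n = g ∧ ∀ k < n, pre (k + 1) * (pre k)⁻¹ ∈ G (ty k)) →
      ∃ (n : ℕ) (pre : ℕ → Γ) (ty : ℕ → Bool), 0 < n ∧ pre 0 = 1 ∧ pre n = h * g ∧
        ∀ k < n, pre (k + 1) * (pre k)⁻¹ ∈ G (ty k) := by
    rintro c h hh g ⟨n, pre, ty, h1, h2, h3, h4⟩
    refine ⟨n + 1, fun k => if k ≤ n then pre k else h * g, fun k => if k < n then ty k else c,
      by omega, by simp [h2], by simp, fun k hk => ?_⟩
    by_cases h5 : k < n
    · simpa [h5, h5.le, Nat.succ_le_of_lt h5] using h4 k h5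
    · have : k = n := by omega
      subst this; simp [h3, hh]
  induction hg using Subgroup.closure_induction_left with
  | one => exact ⟨1, fun _ => 1, fun _ => true, one_pos, rfl, rfl, fun _ _ => by simp⟩
  | mul_left x hx y _ ih => exact hx.elim (fun h => key _ _ h _ ih) (fun h => key _ _ h _ ih)
  | inv_mul_cancel x hx y _ ih =>
    exact hx.elim (fun h => key _ _ (inv_mem h) _ ih) (fun h => key _ _ (inv_mem h) _ ih)

variable [Countable Γ] [MeasurableConstSMul Γ X] [IsCancelSMul Γ X]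
variable (μ : Measure X) [SMulInvariantMeasure Γ X μ] [IsProbabilityMeasure μ]
variable [MeasurableSpace.CountablySeparated X]

/-- Small complete sections for the orbits of a subgroup with an element of infinite order. -/
theorem exists_small_section (A : Subgroup Γ) {z : Γ} (hz : z ∈ A)
    (hz' : Function.Injective fun n : ℕ => z ^ n) {δ : ℝ≥0∞} (hδ : δ ≠ 0) :
    ∃ Y : Set X, MeasurableSet Y ∧ μ Y ≤ δ ∧ ∀ x, ∃ h ∈ A, h • x ∈ Y := by
  obtain ⟨M, -, hM, h1, h2⟩ := marker μ (I := Unit) (S := Rl A) (MOR.grp _) MeasurableSet.univ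
    (nu_ne_top_of_finite μ finite_univ fun _ _ => trivial) (fun v _ => Rl.refl _ _)
    (fun _ _ h => h.symm) (fun _ _ _ h h' => h.trans h') (fun _ _ _ _ => trivial) hδ
  set Bad := {m | m ∈ M ∧ ∃ m', (Rl A m m' ∧ m' ≠ m) ∧ m' ∈ M}
  have hBm : MeasurableSet Bad :=
    hM.inter (((MOR.grp _).and (MOR.eq (Γ := Γ)).meas.not).sat hM)
  refine ⟨_, hM (), ?_, fun x => ?_⟩
  · rw [← nu_unit μ hM]
    have h3 : nu μ (M \ Bad) = 0 := by
      by_contra h3
      let P : Set (Cell X ℕ) := {v | (⟨v.pt, ()⟩ : Cell X Unit) ∈ M \ Bad}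
      have hP : MeasurableSet P := fun _ => (hM.diff hBm) ()
      have h4 := (CM.ofSlot (X := X) (fun n : ℕ => z ^ n) (fun _ => ())).nu_le μ hP
        MeasurableSet.univ ?_ (mapsTo_univ _ _)
      · rw [nu_apply μ hP] at h4
        rw [nu_unit μ (hM.diff hBm)] at h3
        have h5 := ENNReal.tsum_const_eq_top_of_ne_zero (α := ℕ) h3
        exact nu_ne_top_of_finite μ finite_univ (fun _ _ => trivial)
          (top_le_iff.1 (h5.symm.le.trans h4))
      · rintro ⟨x, n⟩ hx ⟨y, m⟩ hy he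
        simp only [Cell.mk.injEq, and_true] at he
        have h5 : x = y := by
          by_contra h5
          refine hx.2 ⟨hx.1, ⟨y, ()⟩, ⟨⟨(z ^ m)⁻¹ * z ^ n, ?_, ?_⟩, ?_⟩, hy.1⟩
          · exact A.mul_mem (A.inv_mem (A.pow_mem hz _)) (A.pow_mem hz _)
          · simp only [mul_smul, he, inv_smul_smul]
          · simpa using Ne.symm h5
        subst h5
        rw [hz' (IsCancelSMul.right_cancel _ _ _ he)]
    calc nu μ M ≤ nu μ (Bad ∪ (M \ Bad)) := measure_mono fun v hv => by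
          by_cases h : v ∈ Bad
          exacts [Or.inl h, Or.inr ⟨hv, h⟩]
      _ ≤ nu μ Bad + nu μ (M \ Bad) := measure_union_le _ _
      _ ≤ δ := by rw [h3, add_zero]; exact h2
  · obtain ⟨⟨y, ⟨⟩⟩, h3, h, h4, h5⟩ := h1 ⟨x, ()⟩ trivial
    simp only at h5; subst h5
    exact ⟨h, h4, h3⟩

/-- The relation generated by the first `N` pieces of a graphing. -/
def Conn (Φ : ℕ → Γ × Set X) (N : ℕ) : X → X → Prop :=
  EqvGen fun x y => ∃ i < N, x ∈ (Φ i).2 ∧ y = (Φ i).1 • x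

omit [MeasurableSpace X] [Countable Γ] [MeasurableConstSMul Γ X] [IsCancelSMul Γ X]
  [MeasurableSpace.CountablySeparated X] in
theorem Conn.mono {Φ : ℕ → Γ × Set X} {N N' : ℕ} (h : N ≤ N') {x y : X} (h' : Conn Φ N x y) :
    Conn Φ N' x y := EqvGen.mono (fun _ _ ⟨i, h1, h2⟩ => ⟨i, h1.trans_le h, h2⟩) _ _ h'

omit [MeasurableSpace X] [Countable Γ] [MeasurableConstSMul Γ X] [IsCancelSMul Γ X]
  [MeasurableSpace.CountablySeparated X] in
theorem exists_conn {Φ : ℕ → Γ × Set X} {x y : X}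
    (h : EqvGen (Crest.Dynamics.GraphingStep Φ) x y) : ∃ N, Conn Φ N x y := by
  induction h with
  | rel a b h => obtain ⟨i, h⟩ := h; exact ⟨i + 1, .rel _ _ ⟨i, Nat.lt_succ_self i, h⟩⟩
  | refl a => exact ⟨0, .refl _⟩
  | symm a b _ ih => obtain ⟨N, h⟩ := ih; exact ⟨N, .symm _ _ h⟩
  | trans a b c _ _ ih1 ih2 =>
    obtain ⟨N, h⟩ := ih1
    obtain ⟨N', h'⟩ := ih2
    exact ⟨max N N', .trans _ _ _ (h.mono (le_max_left _ _)) (h'.mono (le_max_right _ _))⟩

omit [MeasurableSpace.CountablySeparated X] in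
theorem measurableSet_conn {Φ : ℕ → Γ × Set X} (hΦ : ∀ i, MeasurableSet (Φ i).2) (N : ℕ)
    {Y : Set X} (hY : MeasurableSet Y) : MeasurableSet {x | ∃ y ∈ Y, Conn Φ N x y} := by
  let R : Cell X Unit → Cell X Unit → Prop := fun u v =>
    ∃ i : {i // i < N}, (∃ h : Γ, h = (Φ i).1 ∧ v.pt = h • u.pt) ∧ u ∈ {u | u.pt ∈ (Φ i).2}
  have hR : MOR Γ R := MOR.exists_ fun i => (MOR.grp _).and (MR.left (measurableSet_pt (hΦ i)))
  have := hR.eqvGen.sat (measurableSet_pt hY) ()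
  convert this using 1
  ext x
  simp only [mem_setOf_eq]
  constructor
  · rintro ⟨y, h1, h2⟩
    refine ⟨⟨y, ()⟩, eqvGen_map (fun x => (⟨x, ()⟩ : Cell X Unit)) ?_ h2, h1⟩
    rintro a b ⟨i, h3, h4, h5⟩
    exact .rel _ _ ⟨⟨i, h3⟩, ⟨_, rfl, h5⟩, h4⟩
  · rintro ⟨w, h1, h2⟩
    refine ⟨w.pt, h2, eqvGen_map (R := R) Cell.pt ?_ h1⟩
    rintro a b ⟨i, ⟨_, rfl, h5⟩, h4⟩
    exact .rel _ _ ⟨i, i.2, h4, h5⟩

end Crest.Agent.Cost
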