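import Crest.Agent.Cost.Unfold

/-! The initial unfolding of a generating graphing. -/

set_option autoImplicit false

open MeasureTheory Set Relation Filter Topology
open scoped ENNReal

namespace Crest.Agent.Cost

variable {Γ X : Type} [Group Γ] [MulAction Γ X] [MeasurableSpace X]
variable [Countable Γ] [MeasurableConstSMul Γ X] [IsCancelSMul Γ X]
variable (μ : Measure X) [SMulInvariantMeasure Γ X μ] [IsProbabilityMeasure μ]

abbrev I0 := Option (Option (ℕ × ℕ))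

theorem unfold_aux {G H : Bool → Subgroup Γ} (hG : G false ⊔ G true = ⊤)
    {Φ : ℕ → Γ × Set X} (hΦ : ∀ i, MeasurableSet (Φ i).2) {ε δ : ℝ≥0∞}
    (hc : Crest.Dynamics.graphingCost μ Φ ≤ 1 + ε) (N : ℕ) {Y : Set X} (hY : MeasurableSet Y)
    (hYδ : μ Y ≤ δ) (hconn : ∀ x, ∃ y ∈ Y, Conn Φ N x y) :
    ∃ S : Gr X I0 (ℕ × ℕ), S.Good μ G H none (ε + δ) ∧
      ∀ x ∈ Y, ∀ y ∈ Y, Conn Φ N x y → S.all H none ⟨x, none⟩ ⟨y, none⟩ := by
  classical
  choose n pre ty hn h0 h1 h2 using fun i => exists_syllables hG (Φ i).1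
  let ptc : Cell X Unit → Cell X I0 := fun v =>
    if v ∈ {v : Cell X Unit | v.pt ∈ Y} then ⟨v.pt, none⟩ else ⟨v.pt, some none⟩
  have hptc : CM Γ ptc := CM.ite (measurableSet_pt hY) (CM.toSlot _) (CM.toSlot _)
  let node : ℕ → ℕ → X → Cell X I0 := fun i k x =>
    if k = 0 ∨ k = n i then ptc ⟨pre i k • x, ()⟩ else ⟨pre i k • x, some (some (i, k))⟩
  have hnode : ∀ i k, CM Γ (fun e : Cell X (ℕ × ℕ) => node i k e.pt) := by
    intro i k
    simp only [node]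
    split_ifs
    · exact hptc.comp (CM.ofSlot (fun _ => pre i k) fun _ => ())
    · exact CM.ofSlot (fun _ => pre i k) fun _ => _
  have hnodept : ∀ i k x, (node i k x).pt = pre i k • x := by
    intro i k x; simp only [node, ptc]; split_ifs <;> rfl
  let V1 : Set (Cell X I0) := {v | v.sl = some none ∧ v.pt ∈ Yᶜ}
  let V2 : Set (Cell X I0) := {v | ∃ i k, v.sl = some (some (i, k)) ∧ i < N ∧ 0 < k ∧ k < n i ∧
    (pre i k)⁻¹ • v.pt ∈ (Φ i).2}
  have mV1 : MeasurableSet V1 :=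
    (measurableSet_sl fun i => i = some none).inter (measurableSet_pt hY.compl)
  have mV2 : MeasurableSet V2 := by
    rintro (_ | _ | ⟨i, k⟩)
    · simp [V2]
    · simp [V2]
    · by_cases h : i < N ∧ 0 < k ∧ k < n i
      · convert measurable_const_smul (pre i k)⁻¹ (hΦ i) using 1
        ext x; simp only [V2, mem_setOf_eq, mem_preimage]
        constructor
        · rintro ⟨i, k, h3, -, -, -, h4⟩
          simp only [Option.some.injEq, Prod.mk.injEq] at h3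
          obtain ⟨rfl, rfl⟩ := h3; exact h4
        · exact fun h3 => ⟨i, k, rfl, h.1, h.2.1, h.2.2, h3⟩
      · convert MeasurableSet.empty using 1
        ext x; simp only [V2, mem_setOf_eq, mem_empty_iff_false, iff_false]
        rintro ⟨i, k, h3, h4, h5, h6, -⟩
        simp only [Option.some.injEq, Prod.mk.injEq] at h3
        obtain ⟨rfl, rfl⟩ := h3; exact h ⟨h4, h5, h6⟩
  let EE : (ℕ × ℕ → Prop) → Set (Cell X (ℕ × ℕ)) := fun p =>
    {e | (e.sl.1 < N ∧ e.sl.2 < n e.sl.1 ∧ p e.sl) ∧ e.pt ∈ (Φ e.sl.1).2}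
  have mEE : ∀ p, MeasurableSet (EE p) := by
    rintro p ⟨i, k⟩
    by_cases h : i < N ∧ k < n i ∧ p (i, k)
    · simpa [EE, h] using hΦ i
    · simp only [EE, mem_setOf_eq, h, false_and, setOf_false, MeasurableSet.empty]
  let S : Gr X I0 (ℕ × ℕ) :=
    { V := V1 ∪ V2
      Ed := fun c => EE fun j => ty j.1 j.2 = c
      s := fun _ e => node e.sl.1 e.sl.2 e.pt
      t := fun _ e => node e.sl.1 (e.sl.2 + 1) e.pt }
  have hptcact : ∀ v, S.act none (ptc v) := by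
    intro v; simp only [ptc]; split_ifs with h
    · exact Or.inr rfl
    · exact Or.inl (Or.inl ⟨rfl, h⟩)
  have hnodeact : ∀ i k x, i < N → k ≤ n i → x ∈ (Φ i).2 → S.act none (node i k x) := by
    intro i k x h3 h4 h5; simp only [node]; split_ifs with h
    · exact hptcact _
    · exact Or.inl (Or.inr ⟨i, k, rfl, h3, by omega, by omega, by simpa using h5⟩)
  have hline : ∀ i k x, i < N → k ≤ n i → x ∈ (Φ i).2 →
      S.all H none (ptc ⟨x, ()⟩) (node i k x) := by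
    intro i k x h3 h4 h5
    induction k with
    | zero => simp only [node, true_or, if_true, h0, one_smul]; exact .refl _
    | succ k ih =>
      exact .trans _ _ _ (ih (by omega)) (.rel _ _
        ⟨ty i k, Or.inl ⟨⟨x, (i, k)⟩, ⟨⟨h3, h4, rfl⟩, h5⟩, rfl, rfl⟩⟩)
  have hC : ∀ x y, Conn Φ N x y → S.all H none (ptc ⟨x, ()⟩) (ptc ⟨y, ()⟩) := by
    intro x y h
    refine eqvGen_map (fun x => ptc ⟨x, ()⟩) ?_ h
    rintro a b ⟨i, h3, h4, rfl⟩
    have := hline i (n i) a h3 le_rfl h4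
    simp only [node, or_true, if_true, h1] at this
    exact this
  have hY' : ∀ y ∈ Y, ptc ⟨y, ()⟩ = ⟨y, none⟩ := fun y hy => by simp [ptc, hy]
  have hC' : ∀ x, ∃ u, u.sl = none ∧ S.all H none (ptc ⟨x, ()⟩) u := fun x => by
    obtain ⟨y, h3, h4⟩ := hconn x
    exact ⟨⟨y, none⟩, rfl, hY' y h3 ▸ hC x y h4⟩
  refine ⟨S, ⟨mV1.union mV2, fun c => mEE fun j => ty j.1 j.2 = c, fun c => CM.bySlot fun j => hnode j.1 j.2,
    fun c => CM.bySlot fun j => hnode j.1 (j.2 + 1), ?_, ?_, ?_, ?_, ?_, ?_, ?_⟩, ?_⟩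
  · rintro v (h | ⟨i, k, h, -⟩)
    · simp [h.1]
    · simp [h]
  · have hF : ({some none} ∪ ⋃ i ∈ Finset.range N, ⋃ k ∈ Finset.range (n i),
        {some (some (i, k))} : Set I0).Finite :=
      (finite_singleton _).union ((Finset.finite_toSet _).biUnion fun i _ =>
        (Finset.finite_toSet _).biUnion fun k _ => finite_singleton _)
    refine nu_ne_top_of_finite μ hF ?_
    rintro v (h | ⟨i, k, h3, h4, -, h5, -⟩)
    · exact Or.inl h.1
    · right; simp only [mem_iUnion, Finset.mem_range]; exact ⟨i, h4, k, h5, h3⟩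
  · exact fun c e he => hnodeact _ _ _ he.1.1 he.1.2.1.le he.2
  · exact fun c e he => hnodeact _ _ _ he.1.1 he.1.2.1 he.2
  · intro c e he
    refine ⟨_, he.1.2.2 ▸ h2 _ _ he.1.2.1, ?_⟩
    simp only [S, hnodept, mul_smul, inv_smul_smul]
  · rintro ⟨x, sl⟩ (h | ⟨i, k, h3, h4, h5, h6, h7⟩)
    · have : ptc ⟨x, ()⟩ = ⟨x, sl⟩ := by
        have h3 : x ∉ Y := h.2
        have h4 : sl = some none := h.1
        simp [ptc, h3, h4]
      exact this ▸ hC' x
    · obtain ⟨u, h8, h9⟩ := hC' ((pre i k)⁻¹ • x)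
      refine ⟨u, h8, .trans _ _ _ (.symm _ _ ?_) h9⟩
      have := hline i k _ h4 h6.le h7
      simp only at h3
      simp only [node, h5.ne', h6.ne, or_self, if_false, smul_inv_smul, ← h3] at this
      exact this
  · have e1 : nu μ (S.Ed false) + nu μ (S.Ed true) ≤
        nu μ (EE fun j => j.2 = 0) + nu μ (EE fun j => j.2 ≠ 0) := by
      rw [← measure_union _ (show MeasurableSet (S.Ed true) from mEE fun j => ty j.1 j.2 = true)]
      · refine le_trans (measure_mono ?_) (measure_union_le _ _)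
        rintro e (he | he) <;> by_cases h : e.sl.2 = 0
        exacts [Or.inl ⟨⟨he.1.1, he.1.2.1, h⟩, he.2⟩, Or.inr ⟨⟨he.1.1, he.1.2.1, h⟩, he.2⟩,
          Or.inl ⟨⟨he.1.1, he.1.2.1, h⟩, he.2⟩, Or.inr ⟨⟨he.1.1, he.1.2.1, h⟩, he.2⟩]
      · exact Set.disjoint_left.2 fun e he he' => by simpa using he.1.2.2.symm.trans he'.1.2.2
    have e2 : nu μ (EE fun j => j.2 = 0) ≤ 1 + ε := by
      refine le_trans ?_ hc
      have hQ : MeasurableSet {v : Cell X ℕ | v.pt ∈ (Φ v.sl).2} := fun i => hΦ i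
      refine ((CM.mapSlot (Γ := Γ) Prod.fst).nu_le μ (mEE fun j => j.2 = 0) hQ ?_
        fun e he => he.2).trans_eq (nu_apply μ hQ)
      rintro ⟨x, i, k⟩ hx ⟨y, j, l⟩ hy he
      have := hx.1.2.2; have := hy.1.2.2
      simp_all
    have e3 : nu μ (EE fun j => j.2 ≠ 0) ≤ nu μ V2 := by
      refine (CM.ofSlot (fun j : ℕ × ℕ => pre j.1 j.2) fun j => (some (some j) : I0)).nu_le μ
        (mEE fun j => j.2 ≠ 0) mV2 ?_ ?_
      · rintro ⟨x, j⟩ hx ⟨y, j'⟩ hy he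
        simp only [Cell.mk.injEq, Option.some.injEq] at he
        obtain ⟨h3, rfl⟩ := he
        rw [MulAction.injective _ h3]
      · rintro ⟨x, i, k⟩ hx
        exact ⟨i, k, rfl, hx.1.1, Nat.pos_of_ne_zero hx.1.2.2, hx.1.2.1, by simpa using hx.2⟩
    have e4 : nu μ S.V = μ Yᶜ + nu μ V2 := by
      rw [← nu_slice μ (some none : I0) hY.compl]
      refine measure_union (Set.disjoint_left.2 ?_) mV2
      rintro v h ⟨i, k, h3, -⟩
      simpa using h.1.symm.trans h3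
    have e5 : (1 : ℝ≥0∞) ≤ μ Yᶜ + δ := by
      rw [← measure_univ (μ := μ), ← measure_add_measure_compl hY, add_comm]; gcongr
    calc _ ≤ _ := e1
      _ ≤ (μ Yᶜ + δ + ε) + nu μ V2 := add_le_add (e2.trans (by gcongr)) e3
      _ = _ := by rw [e4]; ring
  · intro x hx y hy h
    exact hY' x hx ▸ hY' y hy ▸ hC x y h

theorem unfold [MeasurableSpace.CountablySeparated X] {G H : Bool → Subgroup Γ} {E : Subgroup Γ}
    (hG : G false ⊔ G true = ⊤) {z : Γ} (hz : z ∈ H false)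
    (hz' : Function.Injective fun n : ℕ => z ^ n) (a : Γ)
    {Φ : ℕ → Γ × Set X} (hΦ : Crest.Dynamics.Generates μ Φ) {ε δ : ℝ≥0∞} (hδ : δ ≠ 0)
    (hc : Crest.Dynamics.graphingCost μ Φ ≤ 1 + ε) :
    ∃ S : Gr X I0 (ℕ × ℕ), S.Good μ G H none (ε + 2 * δ) ∧ ∃ K : ℕ,
      1 ≤ μ {x | S.Ch H E none (K + 1) ⟨x, none⟩ ⟨a • x, none⟩} + 2 * δ := by
  obtain ⟨hm, N0, hN0, hgen⟩ := hΦ
  obtain ⟨Y, hY, hYδ, hY1⟩ := exists_small_section μ (H false) hz hz' hδ
  let C : ℕ → Set X := fun N => {x | ∃ y ∈ Y, Conn Φ N x y}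
  have hCm : ∀ N, MeasurableSet (C N) := fun N => measurableSet_conn hm N hY
  have hC : Monotone C := fun a b h x ⟨y, h1, h2⟩ => ⟨y, h1, h2.mono h⟩
  let N1 := ⋃ g : Γ, (fun x => g • x) ⁻¹' N0
  have hN1 : μ N1 = 0 := measure_iUnion_null fun g => measure_preimage_smul_null hN0 g
  have hN1' : 1 ≤ μ N1ᶜ := by
    calc 1 = μ (N1 ∪ N1ᶜ) := by rw [union_compl_self, measure_univ]
      _ ≤ μ N1 + μ N1ᶜ := measure_union_le _ _
      _ = _ := by rw [hN1, zero_add]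
  let GN : ℕ → Set X := fun N => {x | x ∈ C N ∧ ∃ y ∈ Y, ∃ y' ∈ Y, (∃ h ∈ H false, y = h • x) ∧
    (∃ h ∈ H false, y' = h • a • x) ∧ Conn Φ N y y'}
  have hGN : Monotone GN := fun a b h x ⟨h0, y, h1, y', h2, h3, h4, h5⟩ =>
    ⟨hC h h0, y, h1, y', h2, h3, h4, h5.mono h⟩
  obtain ⟨N, hN⟩ := exists_mono_approx μ hGN (A := N1ᶜ) (fun x hx => by
    obtain ⟨h, h1, h2⟩ := hY1 x
    obtain ⟨h', h3, h4⟩ := hY1 (a • x)
    have h5 : ∀ g : Γ, g • x ∉ N0 := fun g hg => hx (mem_iUnion.2 ⟨g, hg⟩)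
    obtain ⟨n1, h6⟩ := exists_conn (hgen x (by simpa using h5 1) h)
    obtain ⟨n2, h7⟩ := exists_conn (hgen (h • x) (h5 h) (h' * a * h⁻¹))
    refine mem_iUnion.2 ⟨max n1 n2, ⟨_, h2, h6.mono (le_max_left _ _)⟩, _, h2, _, h4, ⟨h, h1, rfl⟩,
      ⟨h', h3, rfl⟩, ?_⟩
    simpa [mul_smul] using h7.mono (le_max_right _ _)) hδ
  have hU : μ (C N)ᶜ ≤ δ := by
    have h1 : μ (C N) + μ (C N)ᶜ ≤ μ (C N) + δ := by
      rw [measure_add_measure_compl (hCm N), measure_univ]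
      exact hN1'.trans (hN.trans (add_le_add_left (measure_mono fun x hx => hx.1) _))
    exact ENNReal.le_of_add_le_add_left (measure_ne_top _ _) h1
  obtain ⟨S, hS, hS1⟩ := unfold_aux μ (H := H) hG hm hc N (hY.union (hCm N).compl) (δ := 2 * δ)
    ((measure_union_le _ _).trans (by rw [two_mul]; gcongr)) (fun x => by
      by_cases h : x ∈ C N
      · obtain ⟨y, h1, h2⟩ := h; exact ⟨y, Or.inl h1, h2⟩
      · exact ⟨x, Or.inr h, .refl _⟩)
  refine ⟨S, hS, ?_⟩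
  let Gd : ℕ → Set X := fun K => {x | S.Ch H E none (K + 1) ⟨x, none⟩ ⟨a • x, none⟩}
  have hGd : Monotone Gd := fun K K' h x hx => Gr.Ch.mono (Or.inr rfl) hx (by omega)
  obtain ⟨K, hK⟩ := exists_mono_approx μ hGd (A := GN N) (by
    rintro x ⟨-, y, h1, y', h2, h3, h4, h5⟩
    have h6 : S.all H none ⟨x, none⟩ ⟨a • x, none⟩ :=
      .trans _ ⟨y, none⟩ _ (.rel _ _ ⟨false, Or.inr ⟨rfl, rfl, h3⟩⟩) (.trans _ ⟨y', none⟩ _
        (by exact hS1 y (Or.inl h1) y' (Or.inl h2) h5)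
        (.symm _ _ (.rel _ _ ⟨false, Or.inr ⟨rfl, rfl, h4⟩⟩)))
    obtain ⟨k, hk⟩ := hS.all_ch (E := E) h6
    exact mem_iUnion.2 ⟨k, hk.succ (Or.inr rfl)⟩) hδ
  refine ⟨K, hN1'.trans (hN.trans ?_)⟩
  rw [two_mul, ← add_assoc]; gcongr

end Crest.Agent.Cost
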