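import Crest.Agent.Cost.Free

/-! Finite extensions of an action of `Gam` have cost close to one. -/

set_option autoImplicit false

open MeasureTheory Set Relation Crest.Dynamics
open scoped ENNReal

namespace Crest.Agent.Cost

theorem gen_all {Y : Type} [MulAction Gam Y] {M : ℕ} [NeZero M] (lv : Y → ZMod M)
    (ha : ∀ y, lv (gen false • y) = lv y + 1) (hb : ∀ y, lv (gen true • y) = lv y - 1)
    (hz : ∀ y, lv (zz • y) = lv y + 1) {r : Y → Y → Prop} (h0 : ∀ y, r y (zz • y))
    (h1 : ∀ y, lv y = 0 → r y ((gen false * gen true) • y))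
    (h2 : ∀ y, lv y = 0 → r y ((gen false * gen false * (gen true)⁻¹) • y))
    (h3 : ∀ y, lv y = 0 → r y (gen false • y)) (h4 : ∀ y, lv y = 1 → r y (gen false • y))
    (g : Gam) (y : Y) : EqvGen r y (g • y) := by
  let S : Subgroup Gam :=
    { carrier := {g | ∀ y, EqvGen r y (g • y)}
      one_mem' := fun y => by rw [one_smul]; exact .refl _
      mul_mem' := fun hg hg' y => by rw [mul_smul]; exact .trans _ _ _ (hg' y) (hg _)
      inv_mem' := fun {g} hg y => .symm _ _ (by simpa using hg (g⁻¹ • y)) }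
  have hzS : zz ∈ S := fun y => .rel _ _ (h0 y)
  have hE : ∀ e ∈ EE, (∀ y, lv y = 0 → r y (e • y)) → e ∈ S := fun e he h y => by
    obtain ⟨n, hn⟩ := ZMod.natCast_zmod_surjective (lv y)
    induction n generalizing y with
    | zero => exact .rel _ _ (h y (by simpa using hn.symm))
    | succ n ih =>
      obtain ⟨y, rfl⟩ := MulAction.surjective zz y
      rw [← mul_smul, ← (zz_comm he).eq, mul_smul]
      refine .trans _ _ _ (.symm _ _ (hzS y)) (.trans _ _ _ (ih y ?_) (hzS _))
      simpa [hz] using hn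
  have he1 := hE _ (EE_eq ▸ Subgroup.subset_closure (by simp)) h1
  have he2 := hE _ (EE_eq ▸ Subgroup.subset_closure (by simp)) h2
  have haS : gen false ∈ S := fun y => by
    obtain ⟨n, hn⟩ := ZMod.natCast_zmod_surjective (lv y)
    induction n using Nat.twoStepInduction generalizing y with
    | zero => exact .rel _ _ (h3 y (by simpa using hn.symm))
    | one => exact .rel _ _ (h4 y (by simpa using hn.symm))
    | more n ih ih' =>
      obtain ⟨y, rfl⟩ := MulAction.surjective (gen false) y
      rw [ha] at hn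
      push_cast at hn ih'
      refine .trans _ _ _ (.symm _ _ (ih' y (by linear_combination hn))) (.trans _ _ _ (he1 y) ?_)
      rw [mul_smul]
      refine .trans _ _ _ (.symm _ _ (ih _ (by rw [hb]; linear_combination hn))) ?_
      simpa [mul_smul] using he2 (gen true • y)
  have hbS : gen true ∈ S := (S.mul_mem_cancel_left haS).1 he1
  have : Subgroup.closure {gen false, gen true, zz} ≤ S := by
    rw [Subgroup.closure_le]; rintro _ (rfl | rfl | rfl) <;> assumption
  exact this (closure_gens ▸ trivial) y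

theorem cost_upper (M : ℕ) [NeZero M] :
    ∃ (Y : Type) (_ : MeasurableSpace Y) (_ : StandardBorelSpace Y) (ν : Measure Y)
      (_ : IsProbabilityMeasure ν) (_ : MulAction Gam Y),
      IsFreePMPAction Gam Y ν ∧ actionCost Gam Y ν ≤ 1 + 4 / (M : ℝ≥0∞) := by
  let h : Gam →* Multiplicative (ZMod M) :=
    hgt (fun l => .ofAdd (cond l (-1) 1)) (.ofAdd 1)
  let _ : MulAction Gam (ZMod M) := MulAction.compHom _ h
  have hs : ∀ (g : Gam) (k : ZMod M), g • k = (h g).toAdd + k := fun _ _ => rfl
  let ν : Measure (ZMod M) := (M : ℝ≥0∞)⁻¹ • Measure.count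
  have : IsProbabilityMeasure ν := ⟨by
    simp [ν, ENNReal.inv_mul_cancel, NeZero.ne M]⟩
  have : ν.IsAddLeftInvariant := by unfold ν; infer_instance
  refine ⟨fr Gam × ZMod M, inferInstance, inferInstance, (frm Gam).prod ν, inferInstance,
    inferInstance, ⟨fun g => ?_, fun g hg => ?_⟩, ?_⟩
  · exact (measurePreserving_smul g (frm Gam)).prod (measurePreserving_add_left ν _)
  · convert measure_empty (μ := (frm Gam).prod ν)
    exact eq_empty_of_forall_notMem fun y hy =>
      hg (IsCancelSMul.eq_one_of_smul (congrArg Prod.fst hy))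
  let Φ : ℕ → Gam × Set (fr Gam × ZMod M) := fun
    | 0 => (zz, univ)
    | 1 => (gen false * gen true, univ ×ˢ {0})
    | 2 => (gen false * gen false * (gen true)⁻¹, univ ×ˢ {0})
    | 3 => (gen false, univ ×ˢ {0})
    | 4 => (gen false, univ ×ˢ {1})
    | _ + 5 => (1, ∅)
  refine sInf_le_of_le ⟨Φ, ⟨fun i => ?_, ∅, measure_empty, fun y _ g => ?_⟩, rfl⟩ ?_
  · match i with
    | 0 => exact .univ
    | 1 | 2 | 3 | 4 => exact .prod .univ (.singleton _)
    | _ + 5 => exact .empty
  · refine gen_all Prod.snd (fun y => ?_) (fun y => ?_) (fun y => ?_) (fun y => ⟨0, trivial, rfl⟩)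
      (fun y hy => ⟨1, ⟨trivial, hy⟩, rfl⟩) (fun y hy => ⟨2, ⟨trivial, hy⟩, rfl⟩)
      (fun y hy => ⟨3, ⟨trivial, hy⟩, rfl⟩) (fun y hy => ⟨4, ⟨trivial, hy⟩, rfl⟩) g y <;>
    simp [hs, h, add_comm, sub_eq_add_neg]
  · rw [graphingCost, tsum_eq_sum (s := Finset.range 5) fun i hi => ?_]
    · simp only [Finset.sum_range_succ, Φ, Measure.prod_prod]
      simp [ν, div_eq_mul_inv]
      ring_nf; rfl
    · obtain ⟨i, rfl⟩ := Nat.exists_eq_add_of_le' (not_lt.1 (mt Finset.mem_range.2 hi))
      exact measure_empty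

end Crest.Agent.Cost
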