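import Mathlib

/-! Walsh functions on `I → ZMod 2` form a Hilbert basis. -/

set_option autoImplicit false

open MeasureTheory Set Submodule
open scoped ENNReal InnerProductSpace

namespace Crest.Agent.Cost

noncomputable def sg (a : ZMod 2) : ℝ := if a = 0 then 1 else -1

theorem z2 (a : ZMod 2) : a = 0 ∨ a = 1 := by revert a; decide

@[simp] theorem sg_zero : sg 0 = 1 := by simp [sg]
@[simp] theorem sg_one : sg 1 = -1 := by simp [sg]

theorem sg_add (a b : ZMod 2) : sg (a + b) = sg a * sg b := by
  have : (1 + 1 : ZMod 2) = 0 := rfl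
  rcases z2 a with rfl | rfl <;> rcases z2 b with rfl | rfl <;> simp [this]

theorem sg_sq (a : ZMod 2) : sg a ^ 2 = 1 := by rcases z2 a with rfl | rfl <;> simp

variable {I : Type}

noncomputable def chi (s : I →₀ ZMod 2) : C(I → ZMod 2, ℝ) :=
  ⟨fun x => sg (Finsupp.linearCombination (ZMod 2) x s), by
    refine (continuous_of_discreteTopology (f := sg)).comp ?_
    simp only [Finsupp.linearCombination_apply, Finsupp.sum]
    fun_prop⟩

theorem chi_apply (s : I →₀ ZMod 2) (x : I → ZMod 2) :
    chi s x = sg (Finsupp.linearCombination (ZMod 2) x s) := rfl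

theorem chi_add (s t : I →₀ ZMod 2) : chi (s + t) = chi s * chi t := by
  ext x; simp [chi_apply, sg_add]

theorem chi_zero : chi (0 : I →₀ ZMod 2) = 1 := by ext x; simp [chi_apply]

theorem chi_single (i : I) (x : I → ZMod 2) : chi (Finsupp.single i 1) x = sg (x i) := by
  simp [chi_apply]

theorem chi_flip [DecidableEq I] (s : I →₀ ZMod 2) (i : I) (x : I → ZMod 2) :
    chi s (Pi.single i 1 + x) = sg (s i) * chi s x := by
  rw [chi_apply, chi_apply, ← sg_add]
  congr 1
  simp only [Finsupp.linearCombination_apply, Finsupp.sum, Pi.add_apply, smul_eq_mul, mul_add,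
    Finset.sum_add_distrib]
  congr 1
  by_cases h : s i = 0
  · simp [Pi.single_apply, h]
  · simp [Pi.single_apply, h]

theorem span_chi : (span ℝ (range (chi (I := I)))).topologicalClosure = ⊤ := by
  have h1 : Subalgebra.toSubmodule (Algebra.adjoin ℝ (range (chi (I := I)))) =
      span ℝ (range (chi (I := I))) := by
    apply Algebra.adjoin_eq_span_of_subset
    refine Subset.trans ?_ Submodule.subset_span
    intro x hx
    refine Submonoid.closure_induction (fun _ => id) ⟨0, chi_zero⟩ ?_ hx
    rintro - - - - ⟨m, rfl⟩ ⟨n, rfl⟩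
    exact ⟨m + n, chi_add _ _⟩
  rw [← h1]
  refine congr_arg Subalgebra.toSubmodule
    (ContinuousMap.subalgebra_topologicalClosure_eq_top_of_separatesPoints _ fun x y hxy => ?_)
  obtain ⟨i, hi⟩ := Function.ne_iff.1 hxy
  refine ⟨_, ⟨chi (Finsupp.single i 1), Algebra.subset_adjoin ⟨_, rfl⟩, rfl⟩, ?_⟩
  simp only [chi_single]
  rcases z2 (x i) with h | h <;> rcases z2 (y i) with h' | h' <;> simp_all <;> norm_num

variable [Countable I]

/-- The fair coin product measure, as a Haar measure. -/
noncomputable def coin (I : Type) [Countable I] : Measure (I → ZMod 2) := Measure.addHaarMeasure ⊤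

instance : (coin I).IsAddHaarMeasure := by unfold coin; infer_instance
instance : IsProbabilityMeasure (coin I) := ⟨Measure.addHaarMeasure_self⟩

noncomputable abbrev chiL (s : I →₀ ZMod 2) : Lp ℝ 2 (coin I) :=
  ContinuousMap.toLp (E := ℝ) 2 (coin I) ℝ (chi s)

theorem span_chiL : (span ℝ (range (chiL (I := I)))).topologicalClosure = ⊤ := by
  convert!
    (ContinuousMap.toLp_denseRange ℝ (coin I) ℝ (p := 2) (by simp)).topologicalClosure_map_submodule
      span_chi
  rw [map_span]
  unfold chiL
  rw [range_comp']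
  simp only [ContinuousLinearMap.coe_coe]

theorem orth_chiL : Orthonormal ℝ (chiL (I := I)) := by
  classical
  rw [orthonormal_iff_ite]
  intro s t
  rw [ContinuousMap.inner_toLp]
  split_ifs with h
  · simp [h, ← sq, chi_apply, sg_sq]
  obtain ⟨i, hi⟩ := DFunLike.ne_iff.1 h
  refine integral_eq_zero_of_add_left_eq_neg (g := Pi.single i 1) fun x => ?_
  simp only [chi_flip, conj_trivial]
  rcases z2 (s i) with h | h <;> rcases z2 (t i) with h' | h' <;> simp_all

/-- Walsh coefficients of a set. -/
noncomputable def co (D : Set (I → ZMod 2)) (s : I →₀ ZMod 2) : ℝ := ∫ x in D, chi s x ∂coin I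

noncomputable abbrev ind {D : Set (I → ZMod 2)} (hD : MeasurableSet D) : Lp ℝ 2 (coin I) :=
  indicatorConstLp 2 hD (measure_ne_top _ _) 1

theorem inner_ind {D : Set (I → ZMod 2)} (hD : MeasurableSet D) (s : I →₀ ZMod 2) :
    ⟪ind hD, chiL s⟫_ℝ = co D s := by
  rw [L2.inner_indicatorConstLp_one]
  exact integral_congr_ae (ae_restrict_of_ae (ContinuousMap.coeFn_toLp _ _))

theorem hasSum_co {D D' : Set (I → ZMod 2)} (hD : MeasurableSet D) (hD' : MeasurableSet D') :
    HasSum (fun s => co D s * co D' s) ((coin I).real (D ∩ D')) := by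
  have := (HilbertBasis.mk orth_chiL span_chiL.ge).hasSum_inner_mul_inner (ind hD) (ind hD')
  simp only [HilbertBasis.coe_mk, real_inner_comm (ind hD'), inner_ind,
    L2.real_inner_indicatorConstLp_one_indicatorConstLp_one] at this
  rwa [inter_comm]

theorem card_mul_le {D : Set (I → ZMod 2)} (hD : MeasurableSet D) (T : Finset (I →₀ ZMod 2))
    (h : ∀ s ∈ T, ∃ a, ∀ x ∈ D, chi s x = sg a) : T.card * (coin I).real D ≤ 1 := by
  have h1 := sum_le_hasSum T (fun s _ => mul_self_nonneg _) (hasSum_co hD hD)
  rw [Finset.sum_congr rfl (g := fun _ => (coin I).real D ^ 2) fun s hs => ?_] at h1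
  · simp only [Finset.sum_const, nsmul_eq_mul, inter_self] at h1
    rcases (measureReal_nonneg (μ := coin I) (s := D)).eq_or_lt with h | h
    · simp [← h]
    · nlinarith
  · obtain ⟨a, ha⟩ := h s hs
    rw [co, setIntegral_congr_fun hD ha]
    simp only [integral_const, smul_eq_mul, measureReal_restrict_apply_univ]
    linear_combination (coin I).real D ^ 2 * sg_sq a

end Crest.Agent.Cost
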